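import Crest.Agent.R89.Defs

/-!
# Row 89: functional calculus and polynomial approximation (task R89-Poly)

PLANS.
* `uz_*`: `fc_mul`, `fc_one`, `fc_star`, `norm_fc_le`, `fc_mem`, `continuous_FF` (R134/Basic, Semi).
  `phi_uz`: `uz t a = fc (fun x => exp (I a x)) (lg t)` (`fc_cfc`), `Semi.unif`, `Unif.law`,
  `integral_exp_mul_complex`.
* `fc_poly`: induction on `q` (`fc_add`, `fc_const_mul`, `fc_pow`, `fc_id`).
* `exists_poly_near`: `exists_polynomial_near_of_continuousOn` for real and imaginary parts,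
  `Polynomial.map ofRealHom`.
* `exists_poly_lip`: on `(-2, 2)`, `FF' x = √(4 - x²)` (`FF_eq`, `Real.hasDerivAt_arccos`), so
  `f = exp (I g FF)` has the continuous derivative `f' = I g √(4 - x²) f`, `‖f'‖ ≤ 2 |g|`.  Approximate `f'`
  by a polynomial `p` up to `min 1 (ε/5)`, let `q` be the antiderivative with `q 0 = f 0`; mean value
  inequality for `q - f` on `(-2,2)`, endpoints by continuity.
* `norm_dd_le`: scalar case: `(x - y) * dd q (xⁱ yʲ) = q x - q y` (`Commute.geom_sum₂`) and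
  `dd q (xⁱ xʲ) = q' x`, so `‖dd q (xⁱ yʲ)‖ ≤ L` on `[-2,2]²` by the mean value inequality.  Operator case:
  in the commutative C⋆-algebra `(StarAlgebra.adjoin ℂ {T, T'}).topologicalClosure` the norm is the sup over
  characters (`gelfandTransform_isometry`), and a character sends `T`, `T'` to reals of modulus `≤ 2`.
* `gg_sidon`: with `i, k < N`: `k - i + 2N (k² - i²)` determines `k - i` and `k² - i²`.
Put auxiliary lemmas in `namespace PolyAux`.
-/

set_option autoImplicit false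

namespace Crest.Agent.R89

open Crest.Agent.R95 Crest.Agent.R134 Crest.OpAlg Polynomial
open scoped InnerProductSpace ComplexConjugate

variable {A : Type} [CStarAlgebra A] {τ : Tr A} {t : A}

namespace PolyAux

theorem cont_e (a : ℤ) : Continuous fun x : ℝ => Complex.exp (Complex.I * a * FF x) := by
  have := continuous_FF
  fun_prop

theorem norm_e (a : ℤ) (x : ℝ) : ‖Complex.exp (Complex.I * a * FF x)‖ = 1 := by
  rw [Complex.norm_exp]; simp

theorem exists_antider (p : ℂ[X]) : ∃ q : ℂ[X], derivative q = p := by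
  induction p using Polynomial.induction_on' with
  | add p q hp hq =>
    obtain ⟨p', rfl⟩ := hp
    obtain ⟨q', rfl⟩ := hq
    exact ⟨p' + q', map_add _ _ _⟩
  | monomial n c =>
    refine ⟨monomial (n + 1) (c / (n + 1)), ?_⟩
    rw [derivative_monomial_succ]
    congr 1
    have : ((n : ℂ) + 1) ≠ 0 := by exact_mod_cast n.succ_ne_zero
    field_simp

theorem hasDerivAt_eval (q : ℂ[X]) (x : ℝ) :
    HasDerivAt (fun x : ℝ => q.eval (x : ℂ)) ((derivative q).eval (x : ℂ)) x :=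
  (q.hasDerivAt (x : ℂ)).comp_ofReal

theorem hasDerivAt_FF {x : ℝ} (h1 : -2 < x) (h2 : x < 2) :
    HasDerivAt FF (2 * √(1 - (x / 2) ^ 2)) x := by
  have hx : HasDerivAt (fun x : ℝ => x / 2) (1 / 2) x := (hasDerivAt_id x).div_const 2
  have ha := (Real.hasDerivAt_arccos (x := x / 2) (by linarith) (by linarith)).comp x hx
  have h3 := ((ha.const_mul 2).const_sub Real.pi).add (ha.const_mul 2).sin
  have hpos : 0 < 1 - (x / 2) ^ 2 := by nlinarith
  have hs : 0 < √(1 - (x / 2) ^ 2) := Real.sqrt_pos.2 hpos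
  have hsq : √(1 - (x / 2) ^ 2) * √(1 - (x / 2) ^ 2) = 1 - (x / 2) ^ 2 :=
    Real.mul_self_sqrt hpos.le
  refine HasDerivAt.congr_deriv (f := FF) h3 ?_
  simp only [Function.comp]
  rw [Real.cos_two_mul, Real.cos_arccos (by linarith) (by linarith)]
  generalize √(1 - (x / 2) ^ 2) = r at hs hsq
  field_simp
  nlinarith

theorem norm_dd_scalar {q : ℂ[X]} {L : ℝ}
    (hq : ∀ x : ℝ, |x| ≤ 2 → ‖(derivative q).eval (x : ℂ)‖ ≤ L) {x y : ℝ} (hx : |x| ≤ 2)
    (hy : |y| ≤ 2) : ‖dd q fun i j => (x : ℂ) ^ i * (y : ℂ) ^ j‖ ≤ L := by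
  by_cases hxy : x = y
  · subst hxy
    have : (dd q fun i j => (x : ℂ) ^ i * (x : ℂ) ^ j) = (derivative q).eval (x : ℂ) := by
      rw [derivative_eval, dd]
      refine Finset.sum_congr rfl fun n _ => ?_
      simp only [geom_sum₂_self, smul_eq_mul, mul_assoc]
    rw [this]; exact hq x hx
  · have h1 : (dd q fun i j => (x : ℂ) ^ i * (y : ℂ) ^ j) * ((x : ℂ) - y) =
        q.eval (x : ℂ) - q.eval (y : ℂ) := by
      rw [dd, eval_eq_sum, eval_eq_sum, Polynomial.sum, Polynomial.sum, Polynomial.sum,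
        Finset.sum_mul, ← Finset.sum_sub_distrib]
      refine Finset.sum_congr rfl fun n _ => ?_
      rw [smul_eq_mul, mul_assoc, geom_sum₂_mul, mul_sub]
    have h2 : ‖q.eval (x : ℂ) - q.eval (y : ℂ)‖ ≤ L * ‖x - y‖ :=
      (convex_Icc (-2 : ℝ) 2).norm_image_sub_le_of_norm_hasDerivWithin_le
        (f := fun x : ℝ => q.eval (x : ℂ)) (f' := fun x : ℝ => (derivative q).eval (x : ℂ))
        (fun z _ => (hasDerivAt_eval q z).hasDerivWithinAt) (fun z hz => hq z (abs_le.2 hz))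
        (abs_le.1 hy) (abs_le.1 hx)
    rw [← h1, norm_mul, ← Complex.ofReal_sub, Complex.norm_real] at h2
    exact le_of_mul_le_mul_right h2 (norm_pos_iff.2 (sub_ne_zero.2 hxy))

theorem cfc_sum_fun {B ι : Type} [CStarAlgebra B] (f : ι → ℂ → ℂ) (N : B) (s : Finset ι)
    (hf : ∀ i ∈ s, Continuous (f i)) :
    cfc (fun z => ∑ i ∈ s, f i z) N = ∑ i ∈ s, cfc (f i) N := by
  rw [← cfc_sum f N s fun i hi => (hf i hi).continuousOn]
  congr 1
  funext z
  simp

end PolyAux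

open PolyAux

theorem uz_mul (t : A) (a b : ℤ) : uz t a * uz t b = uz t (a + b) := by
  rw [uz, uz, uz, ← fc_mul (cont_e a) (cont_e b)]
  congr 1
  funext x
  rw [← Complex.exp_add]
  congr 1
  push_cast
  ring

theorem uz_zero (ht : IsSelfAdjoint t) : uz t 0 = 1 := by
  rw [uz, ← fc_one ht]
  congr 1
  funext x
  simp

theorem star_uz (t : A) (a : ℤ) : star (uz t a) = uz t (-a) := by
  rw [uz, uz, ← fc_star]
  congr 1
  funext x
  rw [← Complex.exp_conj]
  congr 1
  simp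

theorem norm_uz_le (t : A) (a : ℤ) : ‖uz t a‖ ≤ 1 :=
  norm_fc_le zero_le_one fun x _ => (norm_e a x).le

theorem uz_mem {N : StarSubalgebra ℂ A} (hN : IsClosed (N : Set A)) (ht : t ∈ N) (a : ℤ) :
    uz t a ∈ N :=
  fc_mem hN _ ht

theorem phi_uz (h : Semi τ t) {a : ℤ} (ha : a ≠ 0) : τ.φ (uz t a) = 0 := by
  have h1 : uz t a = fc (fun x => Complex.exp (Complex.I * a * x)) (lg t) := by
    rw [lg, fc_cfc h.sa (by fun_prop) continuous_FF, uz]
  rw [h1, h.unif.law _ (by fun_prop)]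
  have h0 : Complex.I * (a : ℂ) ≠ 0 := mul_ne_zero Complex.I_ne_zero (Int.cast_ne_zero.2 ha)
  rw [integral_exp_mul_complex h0]
  have : Complex.exp (Complex.I * (a : ℂ) * (Real.pi : ℂ)) =
      Complex.exp (Complex.I * (a : ℂ) * ((-Real.pi : ℝ) : ℂ)) := by
    rw [← Complex.exp_periodic.int_mul a (Complex.I * (a : ℂ) * ((-Real.pi : ℝ) : ℂ))]
    congr 1
    push_cast
    ring
  rw [this, sub_self, zero_div, smul_zero]

theorem fc_poly (ht : IsSelfAdjoint t) (q : ℂ[X]) : fc (fun x => q.eval (x : ℂ)) t = aeval t q := by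
  induction q using Polynomial.induction_on' with
  | add p q hp hq =>
    simp only [eval_add, map_add]
    rw [fc_add (by fun_prop) (by fun_prop), hp, hq]
  | monomial n c =>
    simp only [eval_monomial, aeval_monomial]
    rw [fc_const_mul c (by fun_prop), fc_pow ht (by fun_prop), fc_id ht, Algebra.smul_def]

theorem exists_poly_near {f : ℝ → ℂ} (hf : Continuous f) (C : ℝ) {ε : ℝ} (hε : 0 < ε) :
    ∃ q : ℂ[X], ∀ x : ℝ, |x| ≤ C → ‖q.eval (x : ℂ) - f x‖ ≤ ε := by
  obtain ⟨p₁, h₁⟩ := exists_polynomial_near_of_continuousOn (-C) C (fun x => (f x).re)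
    (by fun_prop) (ε / 2) (by positivity)
  obtain ⟨p₂, h₂⟩ := exists_polynomial_near_of_continuousOn (-C) C (fun x => (f x).im)
    (by fun_prop) (ε / 2) (by positivity)
  refine ⟨p₁.map Complex.ofRealHom + Polynomial.C Complex.I * p₂.map Complex.ofRealHom,
    fun x hx => ?_⟩
  have e : ∀ p : ℝ[X], (p.map Complex.ofRealHom).eval (x : ℂ) = ((p.eval x : ℝ) : ℂ) := fun p => by
    rw [Polynomial.eval_map]
    exact Polynomial.eval₂_at_apply Complex.ofRealHom x
  rw [eval_add, eval_mul, eval_C, e, e]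
  have a1 := h₁ x (abs_le.1 hx)
  have a2 := h₂ x (abs_le.1 hx)
  refine (Complex.norm_le_abs_re_add_abs_im _).trans ?_
  simp only [Complex.sub_re, Complex.add_re, Complex.ofReal_re, Complex.mul_re, Complex.I_re,
    Complex.I_im, Complex.ofReal_im, Complex.sub_im, Complex.add_im, Complex.mul_im, zero_mul,
    mul_zero, sub_zero, add_zero, one_mul, zero_add]
  linarith

theorem exists_poly_lip (g : ℤ) {ε : ℝ} (hε : 0 < ε) :
    ∃ q : ℂ[X], (∀ x : ℝ, |x| ≤ 2 → ‖q.eval (x : ℂ) - Complex.exp (Complex.I * g * FF x)‖ ≤ ε) ∧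
      ∀ x : ℝ, |x| ≤ 2 → ‖(derivative q).eval (x : ℂ)‖ ≤ 2 * |(g : ℝ)| + 1 := by
  set f : ℝ → ℂ := fun x => Complex.exp (Complex.I * g * FF x) with hf
  set f' : ℝ → ℂ := fun x => f x * (Complex.I * g * ((2 * √(1 - (x / 2) ^ 2) : ℝ) : ℂ)) with hf'
  have hfc : Continuous f := cont_e g
  have hf'c : Continuous f' := by simp only [hf']; fun_prop
  have hd : ∀ x ∈ Set.Ioo (-2 : ℝ) 2, HasDerivAt f (f' x) x := fun x hx =>
    ((hasDerivAt_FF hx.1 hx.2).ofReal_comp.const_mul (Complex.I * g)).cexp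
  have hb : ∀ x, ‖f' x‖ ≤ 2 * |(g : ℝ)| := fun x => by
    simp only [hf', hf, norm_mul, norm_e, Complex.norm_I, Complex.norm_real, one_mul,
      Complex.norm_intCast, Real.norm_eq_abs]
    have h1 : √(1 - (x / 2) ^ 2) ≤ 1 := Real.sqrt_le_one.2 (by nlinarith [sq_nonneg (x / 2)])
    have h2 : 0 ≤ √(1 - (x / 2) ^ 2) := Real.sqrt_nonneg _
    rw [abs_of_nonneg h2, abs_two]
    nlinarith [abs_nonneg (g : ℝ)]
  obtain ⟨p, hp⟩ := exists_poly_near hf'c 2 (ε := min 1 (ε / 4)) (by positivity)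
  obtain ⟨q₀, hq₀⟩ := exists_antider p
  set q : ℂ[X] := q₀ + Polynomial.C (f (-2) - q₀.eval ((-2 : ℝ) : ℂ)) with hq
  have hdq : derivative q = p := by rw [hq, map_add, hq₀, derivative_C, add_zero]
  have hq2 : q.eval ((-2 : ℝ) : ℂ) = f (-2) := by rw [hq, eval_add, eval_C]; ring
  refine ⟨q, fun x hx => ?_, fun x hx => ?_⟩
  · obtain ⟨hx1, hx2⟩ := abs_le.1 hx
    have hi := intervalIntegral.integral_eq_sub_of_hasDerivAt_of_le hx1
      (f := fun x : ℝ => q.eval (x : ℂ) - f x) (f' := fun x : ℝ => p.eval (x : ℂ) - f' x)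
      (Continuous.continuousOn (by fun_prop))
      (fun y hy => by
        have := (hasDerivAt_eval q y).sub (hd y ⟨hy.1, hy.2.trans_le hx2⟩)
        rwa [hdq] at this)
      (Continuous.intervalIntegrable (by fun_prop) _ _)
    simp only [hq2, sub_self, sub_zero] at hi
    change ‖q.eval (x : ℂ) - f x‖ ≤ ε
    rw [← hi]
    refine (intervalIntegral.norm_integral_le_of_norm_le_const (C := ε / 4) fun y hy => ?_).trans ?_
    · rw [Set.uIoc_of_le hx1] at hy
      exact (hp y (abs_le.2 ⟨hy.1.le, hy.2.trans hx2⟩)).trans (min_le_right _ _)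
    · rw [abs_of_nonneg (by linarith)]
      nlinarith
  · rw [hdq]
    have h1 := (hp x hx).trans (min_le_left _ _)
    have h2 := norm_le_norm_add_norm_sub' (p.eval (x : ℂ)) (f' x)
    linarith [hb x]

theorem norm_dd_le {B : Type} [CStarAlgebra B] {T T' : B} (hT : IsSelfAdjoint T)
    (hT' : IsSelfAdjoint T') (hc : Commute T T') (h2 : ‖T‖ ≤ 2) (h2' : ‖T'‖ ≤ 2) {q : ℂ[X]} {L : ℝ}
    (hq : ∀ x : ℝ, |x| ≤ 2 → ‖(derivative q).eval (x : ℂ)‖ ≤ L) :
    ‖dd q fun i j => T ^ i * T' ^ j‖ ≤ L := by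
  have hL : 0 ≤ L := (norm_nonneg _).trans (hq 0 (by norm_num))
  set N : B := T + Complex.I • T' with hN
  have hsN : star N = T - Complex.I • T' := by
    rw [hN, star_add, star_smul, hT.star_eq, hT'.star_eq]
    simp [sub_eq_add_neg]
  have hNn : IsStarNormal N := ⟨by
    rw [hsN, hN]
    exact ((Commute.refl T).add_right (hc.smul_right _)).sub_left
      (((hc.symm.smul_left _)).add_right (Commute.refl _))⟩
  have hre : cfc (fun z : ℂ => (z.re : ℂ)) N = T := by
    rw [cfc_re_id N, realPart_apply_coe, hsN, hN]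
    module
  have him : cfc (fun z : ℂ => (z.im : ℂ)) N = T' := by
    rw [cfc_im_id N, imaginaryPart_apply_coe, hsN, hN]
    have : T + Complex.I • T' - (T - Complex.I • T') = (2 : ℝ) • Complex.I • T' := by module
    rw [this, smul_smul (2⁻¹ : ℝ), inv_mul_cancel₀ two_ne_zero, one_smul, smul_smul]
    simp
  have hsp : ∀ z ∈ spectrum ℂ N, |z.re| ≤ 2 ∧ |z.im| ≤ 2 := fun z hz => by
    constructor
    · have : (z.re : ℂ) ∈ spectrum ℂ T := by
        rw [← hre, cfc_map_spectrum (fun z : ℂ => (z.re : ℂ)) N]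
        exact ⟨z, hz, rfl⟩
      simpa using (abs_re_le_of_mem_spectrum this).trans h2
    · have : (z.im : ℂ) ∈ spectrum ℂ T' := by
        rw [← him, cfc_map_spectrum (fun z : ℂ => (z.im : ℂ)) N]
        exact ⟨z, hz, rfl⟩
      simpa using (abs_re_le_of_mem_spectrum this).trans h2'
  have hij : ∀ i j : ℕ, T ^ i * T' ^ j = cfc (fun z : ℂ => (z.re : ℂ) ^ i * (z.im : ℂ) ^ j) N := by
    intro i j
    rw [cfc_mul _ _ N, cfc_pow _ i N, cfc_pow _ j N, hre, him]
  have key : (dd q fun i j => T ^ i * T' ^ j) =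
      cfc (fun z : ℂ => dd q fun i j => (z.re : ℂ) ^ i * (z.im : ℂ) ^ j) N := by
    simp only [dd, Polynomial.sum, hij]
    rw [cfc_sum_fun (fun n (z : ℂ) => q.coeff n • ∑ i ∈ Finset.range n,
      (z.re : ℂ) ^ i * (z.im : ℂ) ^ (n - 1 - i)) N q.support fun _ _ => by fun_prop]
    refine Finset.sum_congr rfl fun n _ => ?_
    rw [cfc_smul (q.coeff n) (fun z : ℂ => ∑ i ∈ Finset.range n,
      (z.re : ℂ) ^ i * (z.im : ℂ) ^ (n - 1 - i)) N, cfc_sum_fun _ _ _ fun _ _ => by fun_prop]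
  rw [key]
  exact norm_cfc_le hL fun z hz => norm_dd_scalar hq (hsp z hz).1 (hsp z hz).2

theorem gg_zero {n : ℕ} : gg (0 : Fin (n + 2)) = 0 := by
  simp [gg]

theorem gg_sidon {n : ℕ} (i k i' k' : Fin (n + 2)) (hik : i ≠ k)
    (h : gg k - gg i = gg k' - gg i') : i = i' ∧ k = k' := by
  have hi := i.2
  have hk := k.2
  have hi' := i'.2
  have hk' := k'.2
  have hne : ((i : ℕ) : ℤ) ≠ (k : ℕ) := fun e => hik (Fin.ext (by exact_mod_cast e))
  simp only [gg] at h
  suffices H : ((i : ℕ) : ℤ) = (i' : ℕ) ∧ ((k : ℕ) : ℤ) = (k' : ℕ) from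
    ⟨Fin.ext (by exact_mod_cast H.1), Fin.ext (by exact_mod_cast H.2)⟩
  have b1 : ((i : ℕ) : ℤ) < n + 2 := by exact_mod_cast hi
  have b2 : ((k : ℕ) : ℤ) < n + 2 := by exact_mod_cast hk
  have b3 : ((i' : ℕ) : ℤ) < n + 2 := by exact_mod_cast hi'
  have b4 : ((k' : ℕ) : ℤ) < n + 2 := by exact_mod_cast hk'
  have c1 : (0 : ℤ) ≤ (i : ℕ) := Int.natCast_nonneg _
  have c2 : (0 : ℤ) ≤ (k : ℕ) := Int.natCast_nonneg _
  have c3 : (0 : ℤ) ≤ (i' : ℕ) := Int.natCast_nonneg _
  have c4 : (0 : ℤ) ≤ (k' : ℕ) := Int.natCast_nonneg _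
  generalize ((i : ℕ) : ℤ) = a at *
  generalize ((k : ℕ) : ℤ) = b at *
  generalize ((i' : ℕ) : ℤ) = c at *
  generalize ((k' : ℕ) : ℤ) = d at *
  set D : ℤ := (b ^ 2 - a ^ 2) - (d ^ 2 - c ^ 2) with hD
  have e : (b - a) - (d - c) + 2 * (n + 2) * D = 0 := by rw [hD]; linarith
  have hD0 : D = 0 := by
    rcases lt_trichotomy D 0 with h' | h' | h'
    · have : 2 * ((n : ℤ) + 2) * D ≤ 2 * (n + 2) * (-1) :=
        mul_le_mul_of_nonneg_left (by omega) (by positivity)
      omega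
    · exact h'
    · have : 2 * ((n : ℤ) + 2) * 1 ≤ 2 * (n + 2) * D :=
        mul_le_mul_of_nonneg_left (by omega) (by positivity)
      omega
  rw [hD0] at e
  have e1 : d - c = b - a := by omega
  have e2 : (b - a) * ((b + a) - (d + c)) = 0 := by
    have : d = c + (b - a) := by omega
    rw [hD0] at hD
    subst this
    linarith
  rcases mul_eq_zero.1 e2 with h' | h'
  · omega
  · omega

theorem abs_gg_le {n : ℕ} (i : Fin (n + 2)) : |(gg i : ℝ)| ≤ 2 * ((n : ℝ) + 2) ^ 3 := by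
  have hi : ((i : ℕ) : ℝ) + 1 ≤ n + 2 := by exact_mod_cast i.2
  have h0 : (0 : ℝ) ≤ (i : ℕ) := Nat.cast_nonneg _
  have hn : (0 : ℝ) ≤ n := Nat.cast_nonneg _
  simp only [gg]
  push_cast
  rw [abs_of_nonneg (by positivity)]
  have h1 : (((i : ℕ) : ℝ) + 1) ^ 2 ≤ ((n : ℝ) + 2) ^ 2 := by gcongr
  nlinarith

end Crest.Agent.R89
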