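import Crest.Agent.R89.Dual
import Crest.Agent.R89.Poly

/-!
# Row 89: the easy conjugate variable bounds (task R89-BdA)

`YY X lam s j = ZZ X lam j + √s • X (inr j)`; `A = X (inl 1)`, `s₀ = X (inl 0)`.

PLANS.
* `ZZ_mem`: `ZZ X lam j ∈ Cs S` as soon as `S` contains the letters used (`uz_mem`, `mem_Cs`).
* `Mv_inr`: `FM.word_single` with `e = inr k`, `c = √s`.  `Mv_inl`: `e = inl k`, `c = 1` (`k ≠ 0, 1`, so
  `ep k = 1`, `al lam k = 0`; for `j ≠ k` the letter `inl k` does not occur in `YY j`).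
* `star_zero`: `FM.word_affine` with `e = inl 0`, `x k = th k • uz A (gg k)`, `y k = uz A (-gg k)`
  (`ep 0 = 0`); `Mv` is linear in `d`.
* `bd_triv`: `bd_of_op` with `T = (√s)⁻¹ • star (l (inr i))`.  `bd_noise`: `T = (1+s)⁻¹ • star L`,
  `L = l (inl i) + √s • l (inr i)`, `star L * L = (1 + s) • 1` (`FM.rel` with `m = 1`).
* `bd_zero`: `star_zero` with `d = 1`, the term `k = 0` is `Mv 0 1 w` (`gg_zero`, `uz_zero`), `th 1 = 0`,
  the others are `ι (uz (-g)) (star (l (inl k)) (ι (uz g) ξ))` by `Mv_inl`.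
* `n2_YY_le`: `ι (YY i) Ω = al • l (inl 1) Ω + ep • l (inl i) Ω + th • U^g (l (inl 0)) U^{-g} Ω + √s • l (inr i) Ω`
  (`FM.vac'`), the non-zero terms are orthogonal by `FM.rel`; the squares of the coefficients add up to
  at most `2 + s`.
Put auxiliary lemmas in `namespace BdAAux`.
-/

set_option autoImplicit false

namespace Crest.Agent.R89

open Crest.Agent.R95 Crest.Agent.R134 Crest.OpAlg Polynomial
open scoped InnerProductSpace ComplexConjugate

variable {A : Type} [CStarAlgebra A] {H : Type} [NormedAddCommGroup H] [InnerProductSpace ℂ H]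
  [CompleteSpace H] {τ : Tr A} {ι : A →⋆ₐ[ℂ] (H →L[ℂ] H)} {R : A →L[ℂ] (H →L[ℂ] H)} {Ω : H}
  {n : ℕ} {l : Fin (n + 2) ⊕ Fin (n + 2) → H →L[ℂ] H} {X : Fin (n + 2) ⊕ Fin (n + 2) → A}
  {lam s : ℝ}

namespace BdAAux

theorem ZZ_mem' (lam : ℝ) (j : Fin (n + 2)) {S : Set (Fin (n + 2) ⊕ Fin (n + 2))}
    (h0 : Sum.inl 0 ∈ S) (h1 : Sum.inl 1 ∈ S) (hj : Sum.inl j ∈ S) : ZZ X lam j ∈ Cs (X '' S) := by
  have a1 : X (.inl 1) ∈ Cs (X '' S) := mem_Cs ⟨_, h1, rfl⟩
  exact add_mem (add_mem (SMulMemClass.smul_mem _ a1) (SMulMemClass.smul_mem _ (mem_Cs ⟨_, hj, rfl⟩)))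
    (SMulMemClass.smul_mem _ (mul_mem (mul_mem (uz_mem (isClosed_Cs _) a1 _) (mem_Cs ⟨_, h0, rfl⟩))
      (uz_mem (isClosed_Cs _) a1 _)))

theorem YY_eq (lam s : ℝ) (j : Fin (n + 2)) :
    YY X lam s j = ZZ X lam j + (√s : ℂ) • X (.inr j) := rfl

theorem Mv_smul {K : Type} [DecidableEq K] (Y : K → A) (k : K) (c : ℂ) (d : A) (w : List K) :
    Mv τ ι Ω Y k (c • d) w = c • Mv τ ι Ω Y k d w := by
  rw [Mv, Mv, ← DistribSMul.toAddMonoidHom_apply H c, map_ssum]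
  exact ssum_congr fun a b _ => by
    rw [DistribSMul.toAddMonoidHom_apply, smul_mul_assoc, map_smul, smul_eq_mul, mul_smul]

theorem norm_ι_le (ι : A →⋆ₐ[ℂ] (H →L[ℂ] H)) (a : A) : ‖ι a‖ ≤ ‖a‖ :=
  NonUnitalStarAlgHom.norm_apply_le ι a

theorem n2_X_le (h : FM τ ι R Ω l X) (e : Fin (n + 2) ⊕ Fin (n + 2)) : τ.n2 (X e) ≤ 1 := by
  rw [h.n2_eq, ← h.l_Ω]
  have := (l e).le_of_opNorm_le (h.norm_l_le e) Ω
  rwa [h.norm_Ω, mul_one] at this

theorem n2_add_le (h : FM τ ι R Ω l X) {e : Fin (n + 2) ⊕ Fin (n + 2)} {m : A}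
    (hm : m ∈ Cs (X '' {e}ᶜ)) (c : ℂ) : τ.n2 (m + c • X e) ^ 2 ≤ τ.n2 m ^ 2 + ‖c‖ ^ 2 := by
  have h0 : ⟪ι (c • X e) Ω, ι m Ω⟫_ℂ = 0 := by
    rw [map_smul, ContinuousLinearMap.smul_apply, inner_smul_left, ← h.l_Ω,
      ← DualAux.inner_star_right, h.vac' hm, inner_zero_right, mul_zero]
  have h1 := norm_add_sq_eq_norm_sq_add_norm_sq_of_inner_eq_zero (𝕜 := ℂ) _ _ h0
  have h2 : τ.n2 (c • X e) ≤ ‖c‖ := by
    rw [τ.n2_smul]
    exact mul_le_of_le_one_right (norm_nonneg _) (n2_X_le h e)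
  have h3 := pow_le_pow_left₀ (τ.n2_nonneg _) h2 2
  rw [h.n2_eq] at h3
  rw [h.n2_eq, h.n2_eq, add_comm m, map_add, ContinuousLinearMap.add_apply]
  nlinarith

end BdAAux

open BdAAux

theorem ZZ_mem (lam : ℝ) (j : Fin (n + 2)) :
    ZZ X lam j ∈ Cs (X '' (Set.range (Sum.inr : Fin (n + 2) → Fin (n + 2) ⊕ Fin (n + 2)))ᶜ) :=
  ZZ_mem' lam j (by simp) (by simp) (by simp)

namespace FM

theorem ZZ_sa (h : FM τ ι R Ω l X) (lam : ℝ) (j : Fin (n + 2)) : IsSelfAdjoint (ZZ X lam j) := by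
  have e1 : star (al lam j) = al lam j := by
    rw [al]; split_ifs <;> simp
  have e2 : star (ep j) = ep j := by
    rw [ep]; split_ifs <;> simp
  have e3 : star (th j) = th j := by
    rw [th]; split_ifs <;> simp
  rw [IsSelfAdjoint, ZZ, star_add, star_add, star_smul, star_smul, star_smul, e1, e2, e3, star_mul,
    star_mul, star_uz, star_uz, neg_neg, (h.sa _).star_eq, (h.sa _).star_eq, (h.sa _).star_eq,
    mul_assoc]

theorem YY_sa (h : FM τ ι R Ω l X) (lam s : ℝ) (j : Fin (n + 2)) :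
    IsSelfAdjoint (YY X lam s j) := by
  rw [IsSelfAdjoint, YY_eq, star_add, star_smul, (h.ZZ_sa lam j).star_eq, (h.sa _).star_eq]
  simp

theorem Mv_inr (h : FM τ ι R Ω l X) (lam s : ℝ) (k : Fin (n + 2)) {d : A}
    (hd : d ∈ Cs (X '' {Sum.inr k}ᶜ)) (w : List (Fin (n + 2))) :
    star (l (.inr k)) (ι (d * wv (YY X lam s) w) Ω) = (√s : ℂ) • Mv τ ι Ω (YY X lam s) k d w := by
  refine h.word_single ?_ (fun j hj => ?_) hd w
  · rw [YY_eq, add_sub_cancel_right]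
    exact ZZ_mem' lam k (by simp) (by simp) (by simp)
  · rw [YY_eq]
    exact add_mem (ZZ_mem' lam j (by simp) (by simp) (by simp))
      (SMulMemClass.smul_mem _ (mem_Cs ⟨_, by simpa using hj, rfl⟩))

theorem Mv_inl (h : FM τ ι R Ω l X) (lam s : ℝ) {k : Fin (n + 2)} (h0 : k ≠ 0) (h1 : k ≠ 1) {d : A}
    (hd : d ∈ Cs (X '' {Sum.inl k}ᶜ)) (w : List (Fin (n + 2))) :
    star (l (.inl k)) (ι (d * wv (YY X lam s) w) Ω) = Mv τ ι Ω (YY X lam s) k d w := by
  have a0 : X (.inl 0) ∈ Cs (X '' {Sum.inl k}ᶜ) := mem_Cs ⟨_, by simpa using h0.symm, rfl⟩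
  have a1 : X (.inl 1) ∈ Cs (X '' {Sum.inl k}ᶜ) := mem_Cs ⟨_, by simpa using h1.symm, rfl⟩
  rw [h.word_single (c := 1) (k := k) ?_ (fun j hj => ?_) hd w, one_smul]
  · have e : YY X lam s k - (1 : ℂ) • X (.inl k) = al lam k • X (.inl 1) +
        th k • (uz (X (.inl 1)) (gg k) * X (.inl 0) * uz (X (.inl 1)) (-gg k)) +
        (√s : ℂ) • X (.inr k) := by
      rw [YY_eq, ZZ, ep, if_neg (not_or.mpr ⟨h0, h1⟩)]; abel
    rw [e]
    exact add_mem (add_mem (SMulMemClass.smul_mem _ a1) (SMulMemClass.smul_mem _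
      (mul_mem (mul_mem (uz_mem (isClosed_Cs _) a1 _) a0) (uz_mem (isClosed_Cs _) a1 _))))
      (SMulMemClass.smul_mem _ (mem_Cs ⟨_, by simp, rfl⟩))
  · rw [YY_eq]
    exact add_mem (ZZ_mem' lam j (by simpa using h0.symm) (by simpa using h1.symm)
      (by simpa using hj)) (SMulMemClass.smul_mem _ (mem_Cs ⟨_, by simp, rfl⟩))

theorem star_zero (h : FM τ ι R Ω l X) (lam s : ℝ) {d : A} (hd : d ∈ Cs (X '' {Sum.inl 0}ᶜ))
    (w : List (Fin (n + 2))) :
    star (l (.inl 0)) (ι (d * wv (YY X lam s) w) Ω) = ∑ k, th k • ι (uz (X (.inl 1)) (-gg k))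
      (Mv τ ι Ω (YY X lam s) k (uz (X (.inl 1)) (gg k) * d) w) := by
  have a1 : X (.inl 1) ∈ Cs (X '' {Sum.inl 0}ᶜ) := mem_Cs ⟨_, by simp, rfl⟩
  rw [h.word_affine (x := fun k => th k • uz (X (.inl 1)) (gg k))
    (y := fun k => uz (X (.inl 1)) (-gg k))
    (fun k => SMulMemClass.smul_mem _ (uz_mem (isClosed_Cs _) a1 _))
    (fun k => uz_mem (isClosed_Cs _) a1 _) (fun k => ?_) hd w]
  · refine Finset.sum_congr rfl fun k _ => ?_
    rw [smul_mul_assoc, Mv_smul, map_smul]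
  · have e : YY X lam s k - th k • uz (X (.inl 1)) (gg k) * X (.inl 0) * uz (X (.inl 1)) (-gg k) =
        al lam k • X (.inl 1) + ep k • X (.inl k) + (√s : ℂ) • X (.inr k) := by
      rw [YY_eq, ZZ, smul_mul_assoc, smul_mul_assoc]; abel
    rw [e]
    refine add_mem (add_mem (SMulMemClass.smul_mem _ a1) ?_)
      (SMulMemClass.smul_mem _ (mem_Cs ⟨_, by simp, rfl⟩))
    by_cases hk : k = 0
    · rw [ep, if_pos (Or.inl hk), zero_smul]; exact zero_mem _
    · exact SMulMemClass.smul_mem _ (mem_Cs ⟨_, by simpa using hk, rfl⟩)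

theorem bd_triv (h : FM τ ι R Ω l X) (lam : ℝ) (hs : 0 < s) (i : Fin (n + 2)) :
    Bd τ (YY X lam s) i (√s)⁻¹ := by
  have hs' : 0 < √s := Real.sqrt_pos.mpr hs
  refine h.bd_of_op (((√s)⁻¹ : ℝ) • star (l (.inr i))) (fun w => ?_) ?_
  · have := h.Mv_inr lam s i (one_mem _) w
    rw [one_mul] at this
    rw [ContinuousLinearMap.smul_apply, this, ← Complex.coe_smul, smul_smul, ← Complex.ofReal_mul,
      inv_mul_cancel₀ hs'.ne', Complex.ofReal_one, one_smul]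
  · rw [norm_smul, norm_star, Real.norm_of_nonneg (inv_nonneg.mpr hs'.le)]
    exact mul_le_of_le_one_right (inv_nonneg.mpr hs'.le) (h.norm_l_le _)

theorem bd_noise (h : FM τ ι R Ω l X) (lam : ℝ) (hs : 0 < s) {i : Fin (n + 2)} (h0 : i ≠ 0)
    (h1 : i ≠ 1) : Bd τ (YY X lam s) i (√(1 + s))⁻¹ := by
  have hs1 : 0 < 1 + s := by linarith
  have hss : (√s : ℂ) * (√s : ℂ) = s := by
    rw [← Complex.ofReal_mul, Real.mul_self_sqrt hs.le]
  set L : H →L[ℂ] H := l (.inl i) + (√s : ℂ) • l (.inr i) with hL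
  have hLs : star L = star (l (.inl i)) + (√s : ℂ) • star (l (.inr i)) := by
    rw [hL, star_add, star_smul]; simp
  have hrel : ∀ e f, star (l e) * l f = if e = f then (1 : H →L[ℂ] H) else 0 := fun e f => by
    have := h.rel (e := e) (f := f) (one_mem _)
    rwa [map_one, mul_one, τ.one, one_smul] at this
  have hLL : star L * L = ((1 + s : ℝ) : ℂ) • (1 : H →L[ℂ] H) := by
    rw [hLs, hL, add_mul, mul_add, mul_add, mul_smul_comm, smul_mul_assoc, smul_mul_assoc,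
      mul_smul_comm, hrel, hrel, hrel, hrel, if_pos rfl, if_pos rfl, if_neg Sum.inl_ne_inr,
      if_neg Sum.inr_ne_inl, smul_zero, add_zero, zero_add, smul_smul, hss, Complex.ofReal_add,
      add_smul, Complex.ofReal_one, one_smul]
  have hLn : ‖L‖ ≤ √(1 + s) := by
    refine Real.le_sqrt_of_sq_le ?_
    rw [sq, ← CStarRing.norm_star_mul_self, hLL, norm_smul, Complex.norm_real,
      Real.norm_of_nonneg hs1.le]
    exact mul_le_of_le_one_right hs1.le ContinuousLinearMap.norm_id_le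
  refine h.bd_of_op (((1 + s)⁻¹ : ℝ) • star L) (fun w => ?_) ?_
  · have e1 := h.Mv_inr lam s i (one_mem _) w
    have e2 := h.Mv_inl lam s h0 h1 (one_mem _) w
    rw [one_mul] at e1 e2
    have e3 : star L (ι (wv (YY X lam s) w) Ω) =
        ((1 + s : ℝ) : ℂ) • Mv τ ι Ω (YY X lam s) i 1 w := by
      rw [hLs, ContinuousLinearMap.add_apply, ContinuousLinearMap.smul_apply, e1, e2, smul_smul,
        hss, Complex.ofReal_add, add_smul, Complex.ofReal_one, one_smul]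
    rw [ContinuousLinearMap.smul_apply, e3, ← Complex.coe_smul, smul_smul, ← Complex.ofReal_mul,
      inv_mul_cancel₀ hs1.ne', Complex.ofReal_one, one_smul]
  · rw [norm_smul, norm_star, Real.norm_of_nonneg (inv_nonneg.mpr hs1.le)]
    have hq : 0 < √(1 + s) := Real.sqrt_pos.mpr hs1
    refine (mul_le_mul_of_nonneg_left hLn (inv_nonneg.mpr hs1.le)).trans (le_of_eq ?_)
    have := Real.mul_self_sqrt hs1.le
    field_simp
    linarith

theorem bd_zero (h : FM τ ι R Ω l X) (lam s : ℝ) : Bd τ (YY X lam s) 0 ((n : ℝ) + 1) := by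
  have h01 : (1 : Fin (n + 2)) ≠ 0 := one_ne_zero
  refine h.bd_of_op (star (l (.inl 0)) - ∑ k ∈ (Finset.univ.erase 0).erase 1,
    ι (uz (X (.inl 1)) (-gg k)) * star (l (.inl k)) * ι (uz (X (.inl 1)) (gg k))) (fun w => ?_) ?_
  · have e := h.star_zero lam s (one_mem _) w
    rw [one_mul, ← Finset.add_sum_erase _ _ (Finset.mem_univ (0 : Fin (n + 2))),
      ← Finset.add_sum_erase _ _ (Finset.mem_erase.mpr ⟨h01, Finset.mem_univ _⟩), th, th,
      if_neg h01.symm, if_pos rfl, zero_smul, zero_add, one_smul, gg_zero, neg_zero,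
      uz_zero (h.sa _), one_mul, map_one, ContinuousLinearMap.one_apply] at e
    rw [ContinuousLinearMap.sub_apply, e, ContinuousLinearMap.sum_apply, eq_sub_iff_add_eq]
    congr 1
    refine Finset.sum_congr rfl fun k hk => ?_
    have hk1 : k ≠ 1 := Finset.ne_of_mem_erase hk
    have hk0 : k ≠ 0 := Finset.ne_of_mem_erase (Finset.mem_of_mem_erase hk)
    have a1 : X (.inl 1) ∈ Cs (X '' {Sum.inl k}ᶜ) := mem_Cs ⟨_, by simpa using hk1.symm, rfl⟩
    rw [th, if_neg hk1, one_smul, mul_one, ← h.Mv_inl lam s hk0 hk1 (uz_mem (isClosed_Cs _) a1 _),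
      map_mul]
    rfl
  · have b : ∀ k ∈ (Finset.univ.erase (0 : Fin (n + 2))).erase 1,
        ‖ι (uz (X (.inl 1)) (-gg k)) * star (l (.inl k)) * ι (uz (X (.inl 1)) (gg k))‖ ≤ 1 := by
      intro k _
      have b1 := (norm_ι_le ι _).trans (norm_uz_le (X (.inl 1)) (-gg k))
      have b2 := (norm_ι_le ι _).trans (norm_uz_le (X (.inl 1)) (gg k))
      have b3 : ‖star (l (.inl k))‖ ≤ 1 := by rw [norm_star]; exact h.norm_l_le _
      exact (norm_mul_le _ _).trans (mul_le_one₀ ((norm_mul_le _ _).trans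
        (mul_le_one₀ b1 (norm_nonneg _) b3)) (norm_nonneg _) b2)
    have b' := norm_sum_le_of_le _ b
    rw [Finset.sum_const, Finset.card_erase_of_mem (Finset.mem_erase.mpr ⟨h01, Finset.mem_univ _⟩),
      Finset.card_erase_of_mem (Finset.mem_univ _), Finset.card_univ, Fintype.card_fin,
      nsmul_eq_mul, mul_one, show n + 2 - 1 - 1 = n by omega] at b'
    have b3 : ‖star (l (.inl 0))‖ ≤ 1 := by rw [norm_star]; exact h.norm_l_le _
    exact (norm_sub_le _ _).trans (by linarith)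

theorem n2_YY_le (h : FM τ ι R Ω l X) (hl : |lam| ≤ 1) (hs : 0 ≤ s) (i : Fin (n + 2)) :
    τ.n2 (YY X lam s i) ^ 2 ≤ 2 + s := by
  have b1 := n2_add_le h (e := .inr i) (ZZ_mem' lam i (by simp) (by simp) (by simp)) (√s : ℂ)
  rw [← YY_eq, Complex.norm_real, Real.norm_of_nonneg (Real.sqrt_nonneg s), Real.sq_sqrt hs] at b1
  set m := al lam i • X (.inl 1) +
    th i • (uz (X (.inl 1)) (gg i) * X (.inl 0) * uz (X (.inl 1)) (-gg i)) with hm
  have e : ZZ X lam i = m + ep i • X (.inl i) := by rw [ZZ, hm]; abel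
  have b2 : τ.n2 m ≤ 1 := by
    rw [hm, al, th]
    split_ifs
    · rw [zero_smul, add_zero, τ.n2_smul, Complex.norm_real, Real.norm_eq_abs]
      exact mul_le_one₀ hl (τ.n2_nonneg _) (n2_X_le h _)
    · rw [zero_smul, zero_add, one_smul]
      refine (τ.n2_mul_le_right _ _).trans (mul_le_one₀ ?_ (norm_nonneg _) (norm_uz_le _ _))
      exact (τ.n2_mul_le_left _ _).trans
        (mul_le_one₀ (norm_uz_le _ _) (τ.n2_nonneg _) (n2_X_le h _))
  have b3 : τ.n2 m ^ 2 ≤ 1 := pow_le_one₀ (τ.n2_nonneg _) b2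
  have b4 : τ.n2 (ZZ X lam i) ^ 2 ≤ 2 := by
    rw [e, ep]
    split_ifs with hi
    · rw [zero_smul, add_zero]; linarith
    · obtain ⟨h0, h1⟩ := not_or.mp hi
      have a0 : X (.inl 0) ∈ Cs (X '' {Sum.inl i}ᶜ) := mem_Cs ⟨_, by simpa using Ne.symm h0, rfl⟩
      have a1 : X (.inl 1) ∈ Cs (X '' {Sum.inl i}ᶜ) := mem_Cs ⟨_, by simpa using Ne.symm h1, rfl⟩
      have := n2_add_le h (e := .inl i) (m := m) (add_mem (SMulMemClass.smul_mem _ a1)
        (SMulMemClass.smul_mem _ (mul_mem (mul_mem (uz_mem (isClosed_Cs _) a1 _) a0)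
          (uz_mem (isClosed_Cs _) a1 _)))) 1
      rw [norm_one, one_pow] at this
      linarith
  linarith

end FM

end Crest.Agent.R89
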