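import Crest.Agent.R89.Defs

/-!
# Row 89: the perturbation estimate (task R89-Mid; pure Hilbert space)

PLAN.  `N = card K`, `μ = N β`.
1. `VV` is monotone in `D`; `Yo i` maps `VV D` to `VV (D+1)`; `m k a` maps `VV D` to `VV D`
   (`VV 0 = span {Ω}`, `hmΩ`).
2. Every `ξ ∈ VV (D+1)` is `c₀ • Ω + ∑ i, (Yo i - c i • m i 0) (η i)` with `η i ∈ VV D` (induction on `D`,
   span induction; `Yo i η = (Yo i - c i • m i 0) η + c i • m i 0 η`, `m i 0 η ∈ VV (D-1)`, or `= 0` if `D = 0`).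
   By `hY`, `hstar`: `ξ = c₀ • Ω + ∑ L i (η i) + E`,
   `E = ∑ i, α i (η i) + ∑ i, ∑ k ≠ i, θ i k • U (g i - g k) (m k (g k - g i) (η i))`.
3. Claim `H D`: `∀ ξ ∈ VV D, ∀ k, ∀ a ≠ 0, ‖m k a ξ‖ ≤ μ ‖ξ‖`, induction on `D`.  Let `p = max ‖η i‖`.
   Orthogonality (`hL`, `hLΩ`): `‖c₀ • Ω + ∑ L i (η i)‖² = |c₀|² + ∑ c i ‖η i‖² ≥ 4 p²`, and
   `‖E‖ ≤ N β p + N² μ p ≤ p / 500`, so `1.99 p ≤ ‖ξ‖`.  `m k a ξ = m k a E` (`hmΩ`, `hmL`), the `α` part is
   at most `N β p / 2`; by `hmU` the other terms are `θ • m k (a + (g i - g k')) (m k' (g k' - g i) (η i))`,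
   of norm `≤ μ² p` (`H D` twice) unless `a = g k' - g i`, which happens for at most one pair (`hS`) and
   then the norm is `≤ μ p / 2`.  Total `≤ μ p (1 + N³ β) ≤ μ ‖ξ‖`.  (`hS` implies `g` injective.)
4. `c i ⟪Ω, m i 0 ξ⟫ = ⟪L i Ω, ξ⟫ - ∑ …`, `‖L i Ω‖ = √(c i)`, the sum is `≤ N μ ‖ξ‖ ≤ ‖ξ‖ / 1000`.
Put auxiliary lemmas in `namespace MidAux`.
-/

set_option autoImplicit false

namespace Crest.Agent.R89

open scoped InnerProductSpace ComplexConjugate

namespace MidAux

variable {H : Type} [NormedAddCommGroup H] [InnerProductSpace ℂ H] [CompleteSpace H]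
  {K : Type} {Ω : H} {Yo : K → H →L[ℂ] H}

omit [CompleteSpace H] in
theorem VV_mono {D D' : ℕ} (h : D ≤ D') : VV Ω Yo D ≤ VV Ω Yo D' :=
  Submodule.span_mono fun _ ⟨w, hw, e⟩ => ⟨w, hw.trans h, e⟩

omit [CompleteSpace H] in
theorem word_mem {D : ℕ} {w : List K} (hw : w.length ≤ D) : wv Yo w Ω ∈ VV Ω Yo D :=
  Submodule.subset_span ⟨w, hw, rfl⟩

omit [CompleteSpace H] in
theorem zero_of_VV0 {T : H →L[ℂ] H} (hT : T Ω = 0) {ξ : H} (hξ : ξ ∈ VV Ω Yo 0) : T ξ = 0 := by
  induction hξ using Submodule.span_induction with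
  | mem x hx =>
    obtain ⟨w, hw, rfl⟩ := hx
    rw [List.length_eq_zero_iff.mp (Nat.le_zero.mp hw), wv_nil]
    exact hT
  | zero => exact map_zero T
  | add x y _ _ hx hy => rw [map_add, hx, hy, add_zero]
  | smul a x _ hx => rw [map_smul, hx, smul_zero]

omit [CompleteSpace H] in
theorem deg_same {T : H →L[ℂ] H} (hT : T Ω = 0)
    (hdeg : ∀ D, ∀ ξ ∈ VV Ω Yo (D + 1), T ξ ∈ VV Ω Yo D) (D : ℕ) {ξ : H} (hξ : ξ ∈ VV Ω Yo D) :
    T ξ ∈ VV Ω Yo D := by
  cases D with
  | zero => rw [zero_of_VV0 hT hξ]; exact zero_mem _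
  | succ D => exact VV_mono (Nat.le_succ D) (hdeg D ξ hξ)

omit [CompleteSpace H] in
/-- the decomposition of step 2 -/
theorem decomp [Fintype K] [DecidableEq K] {S : K → H →L[ℂ] H} (hS : ∀ i, S i Ω = 0)
    (hdeg : ∀ i D, ∀ ξ ∈ VV Ω Yo (D + 1), S i ξ ∈ VV Ω Yo D) (D : ℕ) {ξ : H}
    (hξ : ξ ∈ VV Ω Yo (D + 1)) :
    ∃ (c₀ : ℂ) (η : K → H), (∀ i, η i ∈ VV Ω Yo D) ∧
      ξ = c₀ • Ω + ∑ i, (Yo i (η i) - S i (η i)) := by
  induction D generalizing ξ with
  | zero =>
    induction hξ using Submodule.span_induction with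
    | mem x hx =>
      obtain ⟨w, hw, rfl⟩ := hx
      cases w with
      | nil => exact ⟨1, fun _ => 0, fun _ => zero_mem _, by simp [wv_nil]⟩
      | cons i w =>
        have hw' : wv Yo w Ω ∈ VV Ω Yo 0 := word_mem (by simpa using hw)
        refine ⟨0, Pi.single i (wv Yo w Ω), fun j => ?_, ?_⟩
        · by_cases hj : j = i
          · subst hj; rw [Pi.single_eq_same]; exact hw'
          · rw [Pi.single_eq_of_ne hj]; exact zero_mem _
        · rw [Finset.sum_eq_single i (fun j _ hj => by simp [Pi.single_eq_of_ne hj]) (by simp),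
            Pi.single_eq_same, zero_of_VV0 (hS i) hw', wv_cons, zero_smul, zero_add, sub_zero]
          rfl
    | zero => exact ⟨0, fun _ => 0, fun _ => zero_mem _, by simp⟩
    | add x y _ _ hx hy =>
      obtain ⟨a, η, hη, rfl⟩ := hx
      obtain ⟨b, ζ, hζ, rfl⟩ := hy
      refine ⟨a + b, fun i => η i + ζ i, fun i => add_mem (hη i) (hζ i), ?_⟩
      simp only [map_add, add_smul, Finset.sum_sub_distrib, Finset.sum_add_distrib]
      abel
    | smul a x _ hx =>
      obtain ⟨b, η, hη, rfl⟩ := hx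
      refine ⟨a * b, fun i => a • η i, fun i => Submodule.smul_mem _ _ (hη i), ?_⟩
      simp only [map_smul, smul_add, mul_smul, Finset.smul_sum, smul_sub]
  | succ D ih =>
    induction hξ using Submodule.span_induction with
    | mem x hx =>
      obtain ⟨w, hw, rfl⟩ := hx
      cases w with
      | nil => exact ⟨1, fun _ => 0, fun _ => zero_mem _, by simp [wv_nil]⟩
      | cons i w =>
        have hw' : wv Yo w Ω ∈ VV Ω Yo (D + 1) := word_mem (by simpa using hw)
        obtain ⟨b, ζ, hζ, e⟩ := ih (VV_mono (Nat.le_succ D) (hdeg i D _ hw'))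
        refine ⟨b, fun j => (Pi.single i (wv Yo w Ω) : K → H) j + ζ j, fun j => ?_, ?_⟩
        · refine add_mem ?_ (VV_mono (Nat.le_succ D) (hζ j))
          by_cases hj : j = i
          · subst hj; rw [Pi.single_eq_same]; exact hw'
          · rw [Pi.single_eq_of_ne hj]; exact zero_mem _
        · have e1 : ∑ j, (Yo j ((Pi.single i (wv Yo w Ω) : K → H) j) -
              S j ((Pi.single i (wv Yo w Ω) : K → H) j)) =
              Yo i (wv Yo w Ω) - S i (wv Yo w Ω) := by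
            rw [Finset.sum_eq_single i (fun j _ hj => by simp [Pi.single_eq_of_ne hj]) (by simp),
              Pi.single_eq_same]
          have e2 : ∑ j, (Yo j ((Pi.single i (wv Yo w Ω) : K → H) j + ζ j) -
              S j ((Pi.single i (wv Yo w Ω) : K → H) j + ζ j)) =
              (Yo i (wv Yo w Ω) - S i (wv Yo w Ω)) + ∑ j, (Yo j (ζ j) - S j (ζ j)) := by
            rw [← e1, ← Finset.sum_add_distrib]
            refine Finset.sum_congr rfl fun j _ => ?_
            simp only [map_add]; abel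
          rw [e2, wv_cons]
          have e3 : (Yo i * wv Yo w) Ω = Yo i (wv Yo w Ω) := rfl
          rw [e3]
          have e4 : ∑ j, (Yo j (ζ j) - S j (ζ j)) = S i (wv Yo w Ω) - b • Ω := by
            rw [e]; abel
          rw [e4]; abel
    | zero => exact ⟨0, fun _ => 0, fun _ => zero_mem _, by simp⟩
    | add x y _ _ hx hy =>
      obtain ⟨a, η, hη, rfl⟩ := hx
      obtain ⟨b, ζ, hζ, rfl⟩ := hy
      refine ⟨a + b, fun i => η i + ζ i, fun i => add_mem (hη i) (hζ i), ?_⟩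
      simp only [map_add, add_smul, Finset.sum_sub_distrib, Finset.sum_add_distrib]
      abel
    | smul a x _ hx =>
      obtain ⟨b, η, hη, rfl⟩ := hx
      refine ⟨a * b, fun i => a • η i, fun i => Submodule.smul_mem _ _ (hη i), ?_⟩
      simp only [map_smul, smul_add, mul_smul, Finset.smul_sum, smul_sub]

theorem norm_L_le {L : H →L[ℂ] H} {c : ℝ} (hc : 0 ≤ c)
    (h : star L * L = (c : ℂ) • (1 : H →L[ℂ] H)) : ‖L‖ ≤ √c := by
  refine Real.le_sqrt_of_sq_le ?_
  rw [sq, ← CStarRing.norm_star_mul_self, h, norm_smul, Complex.norm_real, Real.norm_of_nonneg hc]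
  exact mul_le_of_le_one_right hc ContinuousLinearMap.norm_id_le

end MidAux

open MidAux in
theorem mid {H : Type} [NormedAddCommGroup H] [InnerProductSpace ℂ H] [CompleteSpace H]
    {K : Type} [Fintype K] [DecidableEq K] {Ω : H} (hΩ : ‖Ω‖ = 1) {Yo α L : K → H →L[ℂ] H}
    {m : K → ℤ → H →L[ℂ] H} {U : ℤ → H →L[ℂ] H} {c : K → ℝ} {θ : K → K → ℂ} {g : K → ℤ} {β : ℝ}
    (hY : ∀ i, Yo i = α i + L i + star (L i)) (hα : ∀ i, ‖α i‖ ≤ β)
    (hL : ∀ i k, star (L i) * L k = if i = k then (c i : ℂ) • (1 : H →L[ℂ] H) else 0)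
    (hc : ∀ i, 4 ≤ c i) (hLΩ : ∀ i, star (L i) Ω = 0) (hU : ∀ a, ‖U a‖ ≤ 1)
    (hm : ∀ k a, ‖m k a‖ ≤ 1 / 2) (hmU : ∀ k a b, m k a * U b = m k (a + b))
    (hmΩ : ∀ k a, m k a Ω = 0) (hmL : ∀ k a i, a ≠ 0 → m k a * L i = 0)
    (hdeg : ∀ k a D, ∀ ξ ∈ VV Ω Yo (D + 1), m k a ξ ∈ VV Ω Yo D)
    (hstar : ∀ i D, ∀ ξ ∈ VV Ω Yo D, star (L i) ξ = (c i : ℂ) • m i 0 ξ +
      ∑ k ∈ Finset.univ.erase i, θ i k • U (g i - g k) (m k (g k - g i) ξ))
    (hθ : ∀ i k, ‖θ i k‖ ≤ 1)
    (hS : ∀ i k i' k', i ≠ k → g k - g i = g k' - g i' → i = i' ∧ k = k')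
    (hN : (Fintype.card K : ℝ) ^ 3 * β ≤ 1 / 1000) (i : K) (D : ℕ) {ξ : H} (hξ : ξ ∈ VV Ω Yo D) :
    c i * ‖⟪Ω, m i 0 ξ⟫_ℂ‖ ≤ (√(c i) + 1 / 1000) * ‖ξ‖ := by
  classical
  set N : ℝ := (Fintype.card K : ℝ) with hNdef
  have hN1 : 1 ≤ N := by
    have : 1 ≤ Fintype.card K := Fintype.card_pos_iff.mpr ⟨i⟩
    rw [hNdef]; exact_mod_cast this
  have hβ : 0 ≤ β := (norm_nonneg _).trans (hα i)
  set μ : ℝ := N * β with hμdef
  have hμ : 0 ≤ μ := mul_nonneg (by linarith) hβ
  have hNμ : N * N * μ ≤ 1 / 1000 := by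
    have : N * N * μ = N ^ 3 * β := by rw [hμdef]; ring
    rw [this]; exact hN
  have hNμ1 : N * μ ≤ 1 / 1000 := by nlinarith
  have hμ1 : μ ≤ 1 / 1000 := by nlinarith
  have hc0 : ∀ j, 0 ≤ c j := fun j => by linarith [hc j]
  have hLn : ∀ j, ‖L j‖ ≤ √(c j) := fun j => norm_L_le (hc0 j) (by rw [hL j j, if_pos rfl])
  have hgne : ∀ j k, j ≠ k → g k - g j ≠ 0 := fun j k hjk h0 =>
    hjk (hS j k j j hjk (by rw [h0, sub_self])).2.symm
  have hsame : ∀ k a D, ∀ ξ ∈ VV Ω Yo D, m k a ξ ∈ VV Ω Yo D := fun k a D ξ hξ =>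
    deg_same (hmΩ k a) (hdeg k a) D hξ
  -- a uniform bound for sums over `univ.erase j`
  have hsum : ∀ (j : K) (f : K → H) (B : ℝ) (r : K → ℝ), 0 ≤ B → (∀ k, 0 ≤ r k) →
      (∀ k, k ≠ j → ‖f k‖ ≤ B + r k) →
      ‖∑ k ∈ Finset.univ.erase j, f k‖ ≤ N * B + ∑ k, r k := by
    intro j f B r hB hr hf
    calc ‖∑ k ∈ Finset.univ.erase j, f k‖ ≤ ∑ k ∈ Finset.univ.erase j, (B + r k) :=
          norm_sum_le_of_le _ fun k hk => hf k (Finset.ne_of_mem_erase hk)
      _ ≤ ∑ k, (B + r k) :=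
          Finset.sum_le_sum_of_subset_of_nonneg (Finset.erase_subset _ _)
            fun k _ _ => add_nonneg hB (hr k)
      _ = N * B + ∑ k, r k := by
          rw [Finset.sum_add_distrib, Finset.sum_const, Finset.card_univ, nsmul_eq_mul]
  have hsum1 : ∀ (f : K → H) (B : ℝ), (∀ k, ‖f k‖ ≤ B) → ‖∑ k, f k‖ ≤ N * B := by
    intro f B hf
    calc ‖∑ k, f k‖ ≤ ∑ _k : K, B := norm_sum_le_of_le _ fun k _ => hf k
      _ = N * B := by rw [Finset.sum_const, Finset.card_univ, nsmul_eq_mul]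
  have hθU : ∀ j k a (v : H), ‖θ j k • U a v‖ ≤ ‖v‖ := fun j k a v => by
    rw [norm_smul]
    calc ‖θ j k‖ * ‖U a v‖ ≤ 1 * (1 * ‖v‖) :=
          mul_le_mul (hθ j k) ((U a).le_of_opNorm_le (hU a) v) (norm_nonneg _) zero_le_one
      _ = ‖v‖ := by ring
  -- step 3
  have key : ∀ D, ∀ ξ ∈ VV Ω Yo D, ∀ k a, a ≠ 0 → ‖m k a ξ‖ ≤ μ * ‖ξ‖ := by
    intro D
    induction D with
    | zero =>
      intro ξ hξ k a _
      rw [zero_of_VV0 (hmΩ k a) hξ, norm_zero]
      exact mul_nonneg hμ (norm_nonneg _)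
    | succ D ih =>
      intro ξ hξ k a ha
      obtain ⟨c₀, η, hη, e⟩ := decomp (S := fun j => (c j : ℂ) • m j 0)
        (fun j => by simp [hmΩ]) (fun j D ξ hξ => Submodule.smul_mem _ _ (hdeg j 0 D ξ hξ)) D hξ
      obtain ⟨i₀, -, hi₀⟩ := Finset.exists_max_image Finset.univ (fun j => ‖η j‖) ⟨i, by simp⟩
      set p := ‖η i₀‖ with hp
      have hp0 : 0 ≤ p := norm_nonneg _
      have hηp : ∀ j, ‖η j‖ ≤ p := fun j => hi₀ j (Finset.mem_univ j)
      set F : H := c₀ • Ω + ∑ j, L j (η j) with hF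
      set E₁ : H := ∑ j, α j (η j) with hE₁
      set E₂ : H := ∑ j, ∑ k ∈ Finset.univ.erase j,
        θ j k • U (g j - g k) (m k (g k - g j) (η j)) with hE₂
      have eξ : ξ = F + (E₁ + E₂) := by
        rw [e, hF, hE₁, hE₂, add_assoc, ← Finset.sum_add_distrib, ← Finset.sum_add_distrib]
        congr 1
        refine Finset.sum_congr rfl fun j _ => ?_
        rw [hY j, ContinuousLinearMap.add_apply, ContinuousLinearMap.add_apply,
          hstar j D _ (hη j), ContinuousLinearMap.smul_apply]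
        abel
      have hFl : 2 * p ≤ ‖F‖ := by
        have e1 : star (L i₀) F = (c i₀ : ℂ) • η i₀ := by
          rw [hF, map_add, map_smul, hLΩ, smul_zero, zero_add, map_sum,
            Finset.sum_eq_single i₀ _ (by simp)]
          · have : star (L i₀) (L i₀ (η i₀)) = (star (L i₀) * L i₀) (η i₀) := rfl
            rw [this, hL, if_pos rfl]; rfl
          · intro j _ hj
            have : star (L i₀) (L j (η j)) = (star (L i₀) * L j) (η j) := rfl
            rw [this, hL, if_neg (Ne.symm hj)]; rfl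
        have e2 : c i₀ * p ≤ √(c i₀) * ‖F‖ := by
          have h1 : ‖star (L i₀) F‖ ≤ √(c i₀) * ‖F‖ :=
            (star (L i₀)).le_of_opNorm_le (by rw [norm_star]; exact hLn i₀) F
          rwa [e1, norm_smul, Complex.norm_real, Real.norm_of_nonneg (hc0 i₀)] at h1
        have e3 : 2 ≤ √(c i₀) := Real.le_sqrt_of_sq_le (by linarith [hc i₀])
        have e4 : √(c i₀) * √(c i₀) = c i₀ := Real.mul_self_sqrt (hc0 i₀)
        have e5 : √(c i₀) * p ≤ ‖F‖ := by
          refine le_of_mul_le_mul_left ?_ (show 0 < √(c i₀) by linarith)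
          rw [← mul_assoc, e4]; exact e2
        nlinarith
      have hE₁n : ‖E₁‖ ≤ μ * p := by
        have := hsum1 (fun j => α j (η j)) (β * p) fun j =>
          ((α j).le_of_opNorm_le (hα j) _).trans (mul_le_mul_of_nonneg_left (hηp j) hβ)
        rw [hμdef, mul_assoc]; exact this
      have hmη : ∀ j k', k' ≠ j → ‖m k' (g k' - g j) (η j)‖ ≤ μ * p := fun j k' hk =>
        (ih _ (hη j) k' _ (hgne j k' (Ne.symm hk))).trans (mul_le_mul_of_nonneg_left (hηp j) hμ)
      have hE₂n : ‖E₂‖ ≤ N * (N * (μ * p)) := by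
        refine hsum1 _ _ fun j => ?_
        have := hsum j (fun k => θ j k • U (g j - g k) (m k (g k - g j) (η j))) (μ * p)
          (fun _ => 0) (mul_nonneg hμ hp0) (fun _ => le_rfl) fun k hk => by
            rw [add_zero]; exact (hθU _ _ _ _).trans (hmη j k hk)
        simpa using this
      have hξl : 199 / 100 * p ≤ ‖ξ‖ := by
        have h1 : ‖F‖ ≤ ‖ξ‖ + ‖E₁ + E₂‖ := by
          have : F = ξ - (E₁ + E₂) := by rw [eξ]; abel
          rw [this]; exact norm_sub_le _ _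
        have h2 := norm_add_le E₁ E₂
        have h3 : N * (N * (μ * p)) ≤ 1 / 1000 * p := by
          have := mul_le_mul_of_nonneg_right hNμ hp0
          linarith [this, show N * (N * (μ * p)) = N * N * μ * p by ring]
        have h4 : μ * p ≤ 1 / 1000 * p := mul_le_mul_of_nonneg_right hμ1 hp0
        linarith
      have hmF : m k a F = 0 := by
        rw [hF, map_add, map_smul, hmΩ, smul_zero, zero_add, map_sum]
        refine Finset.sum_eq_zero fun j _ => ?_
        have : m k a (L j (η j)) = (m k a * L j) (η j) := rfl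
        rw [this, hmL k a j ha]; rfl
      have hm₁ : ‖m k a E₁‖ ≤ 1 / 2 * (μ * p) :=
        ((m k a).le_of_opNorm_le (hm k a) _).trans (mul_le_mul_of_nonneg_left hE₁n (by norm_num))
      obtain ⟨j₀, k₀, hjk⟩ : ∃ j₀ k₀ : K, ∀ j k', k' ≠ j → a = g k' - g j → j = j₀ ∧ k' = k₀ := by
        by_cases hex : ∃ j k' : K, k' ≠ j ∧ a = g k' - g j
        · obtain ⟨j₀, k₀, -, h0⟩ := hex
          exact ⟨j₀, k₀, fun j k' hk h1 => hS j k' j₀ k₀ (Ne.symm hk) (h1.symm.trans h0)⟩
        · exact ⟨i, i, fun j k' hk h1 => (hex ⟨j, k', hk, h1⟩).elim⟩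
      have hμp : 0 ≤ μ * p := mul_nonneg hμ hp0
      have hm₂ : ‖m k a E₂‖ ≤ N * (N * (μ * (μ * p))) + 1 / 2 * (μ * p) := by
        rw [hE₂, map_sum]
        calc ‖∑ j, m k a (∑ k' ∈ Finset.univ.erase j,
                θ j k' • U (g j - g k') (m k' (g k' - g j) (η j)))‖
            ≤ ∑ j, (N * (μ * (μ * p)) + if j = j₀ then 1 / 2 * (μ * p) else 0) := by
              refine norm_sum_le_of_le _ fun j _ => ?_
              rw [map_sum]
              refine (hsum j _ (μ * (μ * p))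
                (fun k' => if j = j₀ then (if k' = k₀ then 1 / 2 * (μ * p) else 0) else 0)
                (mul_nonneg hμ hμp) (fun k' => by split_ifs <;> positivity) fun k' hk => ?_).trans
                ?_
              · have e1 : m k a (θ j k' • U (g j - g k') (m k' (g k' - g j) (η j))) =
                    θ j k' • m k (a + (g j - g k')) (m k' (g k' - g j) (η j)) := by
                  rw [map_smul, ← hmU]; rfl
                have e2 : ‖θ j k' • m k (a + (g j - g k')) (m k' (g k' - g j) (η j))‖ ≤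
                    ‖m k (a + (g j - g k')) (m k' (g k' - g j) (η j))‖ := by
                  rw [norm_smul]
                  exact mul_le_of_le_one_left (norm_nonneg _) (hθ j k')
                rw [e1]
                refine e2.trans ?_
                by_cases h0 : a + (g j - g k') = 0
                · obtain ⟨h1, h2⟩ := hjk j k' hk (by linarith)
                  rw [if_pos h1, if_pos h2]
                  have h3 := ((m k (a + (g j - g k'))).le_of_opNorm_le (hm k _)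
                    (m k' (g k' - g j) (η j))).trans
                    (mul_le_mul_of_nonneg_left (hmη j k' hk) (by norm_num))
                  linarith [mul_nonneg hμ hμp]
                · have h3 := (ih _ (hsame k' _ D _ (hη j)) k _ h0).trans
                    (mul_le_mul_of_nonneg_left (hmη j k' hk) hμ)
                  have h4 : (0 : ℝ) ≤
                      if j = j₀ then (if k' = k₀ then 1 / 2 * (μ * p) else 0) else 0 := by
                    split_ifs <;> positivity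
                  linarith
              · split_ifs <;> simp
          _ = N * (N * (μ * (μ * p))) + 1 / 2 * (μ * p) := by
              rw [Finset.sum_add_distrib, Finset.sum_const, Finset.card_univ, nsmul_eq_mul]
              simp [hNdef]
      have h5 : N * (N * (μ * (μ * p))) ≤ 1 / 1000 * (μ * p) := by
        have := mul_le_mul_of_nonneg_right hNμ hμp
        linarith [this, show N * (N * (μ * (μ * p))) = N * N * μ * (μ * p) by ring]
      have h6 : μ * (199 / 100 * p) ≤ μ * ‖ξ‖ := mul_le_mul_of_nonneg_left hξl hμ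
      have h7 : m k a ξ = m k a E₁ + m k a E₂ := by
        rw [eξ, map_add, hmF, zero_add, map_add]
      rw [h7]
      have h8 := norm_add_le (m k a E₁) (m k a E₂)
      linarith
  -- step 4
  have e1 : (c i : ℂ) • m i 0 ξ = star (L i) ξ -
      ∑ k ∈ Finset.univ.erase i, θ i k • U (g i - g k) (m k (g k - g i) ξ) := by
    rw [hstar i D ξ hξ]; abel
  have e2 : ‖(c i : ℂ) • m i 0 ξ‖ ≤ (√(c i) + 1 / 1000) * ‖ξ‖ := by
    rw [e1]
    have h1 : ‖star (L i) ξ‖ ≤ √(c i) * ‖ξ‖ :=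
      (star (L i)).le_of_opNorm_le (by rw [norm_star]; exact hLn i) ξ
    have h2 := hsum i (fun k => θ i k • U (g i - g k) (m k (g k - g i) ξ)) (μ * ‖ξ‖)
      (fun _ => 0) (mul_nonneg hμ (norm_nonneg _)) (fun _ => le_rfl) fun k hk => by
        rw [add_zero]; exact (hθU _ _ _ _).trans (key D ξ hξ k _ (hgne i k (Ne.symm hk)))
    rw [Finset.sum_const_zero, add_zero] at h2
    have h3 := mul_le_mul_of_nonneg_right hNμ1 (norm_nonneg ξ)
    have h4 := norm_sub_le (star (L i) ξ)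
      (∑ k ∈ Finset.univ.erase i, θ i k • U (g i - g k) (m k (g k - g i) ξ))
    nlinarith
  have e3 : ‖⟪Ω, m i 0 ξ⟫_ℂ‖ ≤ ‖m i 0 ξ‖ := by
    have := norm_inner_le_norm (𝕜 := ℂ) Ω (m i 0 ξ)
    rwa [hΩ, one_mul] at this
  rw [norm_smul, Complex.norm_real, Real.norm_of_nonneg (hc0 i)] at e2
  exact (mul_le_mul_of_nonneg_left e3 (hc0 i)).trans e2

end Crest.Agent.R89
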