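import Crest.Agent.R89.BdA
import Crest.Agent.R89.Mid

/-!
# Row 89: the improved bound at large times (task R89-BdMid)

PLAN.  Apply `mid` with `Yo i = ι (Y i)`, `U a = ι (uz A a)`, `α i = al lam i • ι A`, `β = 2 lam`,
`L i = ep i • l (inl i) + th i • (U (g i) * l (inl 0) * U (-g i)) + √s • l (inr i)`,
`c i = (ep i + th i).re + s` (`= 2 + s` for `i ≠ 0, 1`), `m k a = (√s)⁻¹ • (star (l (inr k)) * U a)`,
`θ i k = th i * th k`, `g = gg`.  `hL`, `hmL`: `FM.rel`, `uz_mul`, `phi_uz`, `uz_zero` (if `ep i ≠ 0` then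
`i ≠ 0, 1`); `hLΩ`, `hmΩ`: `FM.vac'`.  On words (`wv Yo w Ω = ι (wv Y w) Ω`, `map_wv`):
`m k a (ξ w) = Mv k (uz A a) w` (`Mv_inr`), which lies in `VV D` if `|w| ≤ D + 1` (`ssum_mem`); `hstar` from
`Mv_inr`, `Mv_inl`, `star_zero` (with `d = uz A (-g i)`), then span induction.  Finally
`c.sum … = ⟪Ω, m i 0 ξ⟫` for `ξ = ι (c.sum …) Ω ∈ VV D`, `D = sup of the lengths` (`inner_Mv`, `n2_eq`).
Put auxiliary lemmas in `namespace BdMidAux`.
-/

set_option autoImplicit false

namespace Crest.Agent.R89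

open Crest.Agent.R95 Crest.Agent.R134 Crest.OpAlg Polynomial
open scoped InnerProductSpace ComplexConjugate

variable {A : Type} [CStarAlgebra A] {H : Type} [NormedAddCommGroup H] [InnerProductSpace ℂ H]
  [CompleteSpace H] {τ : Tr A} {ι : A →⋆ₐ[ℂ] (H →L[ℂ] H)} {R : A →L[ℂ] (H →L[ℂ] H)} {Ω : H}
  {n : ℕ} {l : Fin (n + 2) ⊕ Fin (n + 2) → H →L[ℂ] H} {X : Fin (n + 2) ⊕ Fin (n + 2) → A}
  {lam s : ℝ}

namespace BdMidAux

/-- the elementary term `c • U^a l_e U^b` -/
noncomputable def TT (ι : A →⋆ₐ[ℂ] (H →L[ℂ] H))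
    (l : Fin (n + 2) ⊕ Fin (n + 2) → H →L[ℂ] H) (X : Fin (n + 2) ⊕ Fin (n + 2) → A)
    (c : ℂ) (a : ℤ) (e : Fin (n + 2) ⊕ Fin (n + 2)) (b : ℤ) : H →L[ℂ] H :=
  c • (ι (uz (X (.inl 1)) a) * l e * ι (uz (X (.inl 1)) b))

theorem star_TT (c : ℂ) (a : ℤ) (e : Fin (n + 2) ⊕ Fin (n + 2)) (b : ℤ) :
    star (TT ι l X c a e b) =
      conj c • (ι (uz (X (.inl 1)) (-b)) * star (l e) * ι (uz (X (.inl 1)) (-a))) := by
  rw [TT, star_smul, star_mul, star_mul, ← map_star ι, ← map_star ι, star_uz, star_uz, mul_assoc]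
  rfl

theorem uz_mem_compl {S : Set (Fin (n + 2) ⊕ Fin (n + 2))} (hS : Sum.inl 1 ∉ S) (a : ℤ) :
    uz (X (.inl 1)) a ∈ Cs (X '' Sᶜ) :=
  uz_mem (isClosed_Cs _) (mem_Cs (Set.mem_image_of_mem X hS)) a

theorem U_zero (h : FM τ ι R Ω l X) : ι (uz (X (.inl 1)) 0) = 1 := by
  rw [uz_zero (h.sa _), map_one]

theorem U_mul (a b : ℤ) :
    ι (uz (X (.inl 1)) a) * ι (uz (X (.inl 1)) b) = ι (uz (X (.inl 1)) (a + b)) := by
  rw [← map_mul, uz_mul]

theorem rel' (h : FM τ ι R Ω l X) {e f : Fin (n + 2) ⊕ Fin (n + 2)} (he : e ≠ .inl 1)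
    (hf : f ≠ .inl 1) (a : ℤ) :
    star (l e) * ι (uz (X (.inl 1)) a) * l f = if e = f ∧ a = 0 then 1 else 0 := by
  rw [h.rel (uz_mem_compl (by simp [he.symm, hf.symm]) a)]
  by_cases hef : e = f
  · by_cases ha : a = 0
    · rw [if_pos hef, if_pos ⟨hef, ha⟩, ha, uz_zero (h.sa _), τ.one, one_smul]
    · rw [if_pos hef, if_neg (fun h' => ha h'.2), phi_uz (h.semi _) ha, zero_smul]
  · rw [if_neg hef, if_neg fun h' => hef h'.1]

theorem TT_mul (h : FM τ ι R Ω l X) {c c' : ℂ} {e f : Fin (n + 2) ⊕ Fin (n + 2)}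
    (he : c ≠ 0 → e ≠ .inl 1) (hf : c' ≠ 0 → f ≠ .inl 1) (a b a' b' : ℤ) :
    star (TT ι l X c a e b) * TT ι l X c' a' f b' =
      if e = f ∧ a = a' then (conj c * c') • ι (uz (X (.inl 1)) (b' - b)) else 0 := by
  rcases eq_or_ne c 0 with rfl | hc
  · simp [TT]
  rcases eq_or_ne c' 0 with rfl | hc'
  · simp [TT]
  rw [star_TT, TT, smul_mul_smul_comm]
  have e1 : ι (uz (X (.inl 1)) (-b)) * star (l e) * ι (uz (X (.inl 1)) (-a)) *
      (ι (uz (X (.inl 1)) a') * l f * ι (uz (X (.inl 1)) b')) =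
      ι (uz (X (.inl 1)) (-b)) * (star (l e) * ι (uz (X (.inl 1)) (-a + a')) * l f) *
        ι (uz (X (.inl 1)) b') := by
    rw [← U_mul]; simp only [mul_assoc]
  rw [e1, rel' h (he hc) (hf hc')]
  by_cases hh : e = f ∧ a = a'
  · rw [if_pos hh, if_pos ⟨hh.1, by rw [hh.2]; ring⟩, mul_one, U_mul, neg_add_eq_sub]
  · rw [if_neg hh, if_neg fun h' => hh ⟨h'.1, by linarith [h'.2]⟩, mul_zero, zero_mul, smul_zero]

theorem star_TT_apply (c : ℂ) (a : ℤ) (e : Fin (n + 2) ⊕ Fin (n + 2)) (b : ℤ) (y : A) :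
    star (TT ι l X c a e b) (ι y Ω) =
      conj c • ι (uz (X (.inl 1)) (-b)) (star (l e) (ι (uz (X (.inl 1)) (-a) * y) Ω)) := by
  rw [star_TT, map_mul]
  rfl

theorem star_TT_Ω (h : FM τ ι R Ω l X) {c : ℂ} {e : Fin (n + 2) ⊕ Fin (n + 2)}
    (he : c ≠ 0 → e ≠ .inl 1) (a b : ℤ) : star (TT ι l X c a e b) Ω = 0 := by
  rcases eq_or_ne c 0 with rfl | hc
  · simp [TT]
  have h1 := star_TT_apply (ι := ι) (l := l) (X := X) (Ω := Ω) c a e b 1
  rw [map_one, ContinuousLinearMap.one_apply, mul_one,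
    h.vac' (uz_mem_compl (by simp [(he hc).symm]) _), map_zero, smul_zero] at h1
  exact h1

theorem norm_U_le (a : ℤ) : ‖ι (uz (X (.inl 1)) a)‖ ≤ 1 :=
  (NonUnitalStarAlgHom.norm_apply_le ι _).trans (norm_uz_le _ a)

theorem ep_cases (i : Fin (n + 2)) : ep i = 0 ∨ (ep i = 1 ∧ i ≠ 0 ∧ i ≠ 1) := by
  unfold ep
  split_ifs with hi
  · exact Or.inl rfl
  · push Not at hi
    exact Or.inr ⟨rfl, hi⟩

theorem ep_ne {i : Fin (n + 2)} (hi : ep i ≠ 0) :
    (Sum.inl i : Fin (n + 2) ⊕ Fin (n + 2)) ≠ .inl 1 := by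
  rcases ep_cases i with h | h
  · exact absurd h hi
  · exact fun h' => h.2.2 (Sum.inl.inj h')

theorem th_cases (i : Fin (n + 2)) : th i = 0 ∨ th i = 1 := by
  unfold th
  split_ifs
  · exact Or.inl rfl
  · exact Or.inr rfl

theorem conj_ep (i : Fin (n + 2)) : conj (ep i) = ep i := by
  rcases ep_cases i with h | h
  · rw [h, map_zero]
  · rw [h.1, map_one]

theorem conj_th (i : Fin (n + 2)) : conj (th i) = th i := by
  rcases th_cases i with h | h
  · rw [h, map_zero]
  · rw [h, map_one]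

theorem ep_sq (i : Fin (n + 2)) : ep i * ep i = ep i := by
  rcases ep_cases i with h | h
  · rw [h, mul_zero]
  · rw [h.1, mul_one]

theorem th_sq (i : Fin (n + 2)) : th i * th i = th i := by
  rcases th_cases i with h | h
  · rw [h, mul_zero]
  · rw [h, mul_one]

theorem ep_zero : ep (0 : Fin (n + 2)) = 0 := by simp [ep]

theorem gg_inj {i k : Fin (n + 2)} (h : gg i = gg k) : i = k := by
  by_contra hik
  exact hik (gg_sidon i k i i hik (by rw [h, sub_self])).2.symm

theorem inl0_ne : (Sum.inl 0 : Fin (n + 2) ⊕ Fin (n + 2)) ≠ .inl 1 := by simp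

omit [CompleteSpace H] in
theorem eq_on_VV {K : Type} {Yo : K → H →L[ℂ] H} {T T' : H →L[ℂ] H}
    (hT : ∀ w, T (wv Yo w Ω) = T' (wv Yo w Ω)) {D : ℕ} {ξ : H} (hξ : ξ ∈ VV Ω Yo D) :
    T ξ = T' ξ := by
  induction hξ using Submodule.span_induction with
  | mem x hx => obtain ⟨w, -, rfl⟩ := hx; exact hT w
  | zero => rw [map_zero, map_zero]
  | add x y _ _ hx hy => rw [map_add, map_add, hx, hy]
  | smul c x _ hx => rw [map_smul, map_smul, hx]

theorem Mv_mem {K : Type} [DecidableEq K] (Y : K → A) (k : K) (d : A) {w : List K} {D : ℕ}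
    (hw : w.length ≤ D + 1) : Mv τ ι Ω Y k d w ∈ VV Ω (fun j => ι (Y j)) D := by
  refine ssum_mem fun a b hab => Submodule.smul_mem _ _ ?_
  rw [map_wv]
  refine MidAux.word_mem ?_
  rw [← hab, List.length_append, List.length_cons] at hw
  omega

end BdMidAux

open BdMidAux in
theorem FM.bd_mid (h : FM τ ι R Ω l X) (hl : 0 < lam)
    (hN : ((n : ℝ) + 2) ^ 3 * (2 * lam) ≤ 1 / 1000) (hs : 4 ≤ s) {i : Fin (n + 2)} (h0 : i ≠ 0)
    (h1 : i ≠ 1) : Bd τ (YY X lam s) i ((√(2 + s) + 1 / 1000) / (2 + s)) := by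
  have hs0 : 0 ≤ s := by linarith
  have hr2 : 2 ≤ √s := Real.le_sqrt_of_sq_le (by linarith)
  have hr0 : 0 < √s := by linarith
  have hrC : ((√s : ℝ) : ℂ) ≠ 0 := by exact_mod_cast hr0.ne'
  have hrr : ((√s : ℝ) : ℂ) * ((√s : ℝ) : ℂ) = s := by
    rw [← Complex.ofReal_mul, Real.mul_self_sqrt hs0]
  set Y := YY X lam s with hYdef
  let Yo : Fin (n + 2) → H →L[ℂ] H := fun j => ι (Y j)
  let U : ℤ → H →L[ℂ] H := fun a => ι (uz (X (.inl 1)) a)
  let α : Fin (n + 2) → H →L[ℂ] H := fun j => al lam j • ι (X (.inl 1))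
  let L : Fin (n + 2) → H →L[ℂ] H := fun j =>
    TT ι l X (ep j) 0 (.inl j) 0 + TT ι l X (th j) (gg j) (.inl 0) (-gg j) +
      TT ι l X (√s : ℝ) 0 (.inr j) 0
  let m : Fin (n + 2) → ℤ → H →L[ℂ] H := fun k a =>
    star (TT ι l X ((√s : ℝ) : ℂ)⁻¹ (-a) (.inr k) 0)
  let c : Fin (n + 2) → ℝ := fun j => (ep j + th j).re + s
  have hcC : ∀ j, (c j : ℂ) = ep j + th j + s := by
    intro j
    rcases ep_cases j with h1 | h1 <;> rcases th_cases j with h2 | h2
    · simp [c, h1, h2]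
    · simp [c, h1, h2]
    · simp [c, h1.1, h2]
    · simp [c, h1.1, h2]
  have hU0 : U 0 = 1 := U_zero h
  have hconj : conj (((√s : ℝ) : ℂ)⁻¹) = ((√s : ℝ) : ℂ)⁻¹ := by
    rw [map_inv₀, Complex.conj_ofReal]
  have hw : ∀ w, wv Yo w Ω = ι (wv Y w) Ω := fun w => by rw [map_wv]
  have hmw : ∀ k a w, m k a (wv Yo w Ω) = Mv τ ι Ω Y k (uz (X (.inl 1)) a) w := by
    intro k a w
    rw [hw]
    simp only [m]
    rw [star_TT_apply, neg_zero, neg_neg, U_zero h, ContinuousLinearMap.one_apply, hconj, hYdef,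
      h.Mv_inr lam s k (uz_mem_compl (by simp) a), smul_smul, inv_mul_cancel₀ hrC, one_smul]
  have key : ∀ D, ∀ ξ ∈ VV Ω Yo D, c i * ‖⟪Ω, m i 0 ξ⟫_ℂ‖ ≤ (√(c i) + 1 / 1000) * ‖ξ‖ := by
    intro D ξ hξ
    refine mid (α := α) (L := L) (U := U) (θ := fun j k => th j * th k) (g := gg) (β := 2 * lam)
      h.norm_Ω ?_ ?_ ?_ ?_ ?_ (fun a => norm_U_le a) ?_ ?_ ?_ ?_ ?_ ?_ ?_ gg_sidon ?_ i D hξ
    · -- hY
      intro j
      simp only [Yo, α, L, hYdef, YY, heatTuple, ZZ, SS, star_add, star_TT, neg_zero, neg_neg,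
        conj_ep, conj_th, Complex.conj_ofReal]
      simp only [TT, U_zero h, map_add, map_smul, map_mul, h.gen (.inl j), h.gen (.inl 0),
        h.gen (.inr j), one_mul, mul_one, mul_add, add_mul, smul_add]
      abel
    · -- hα
      intro j
      have h2 : ‖ι (X (.inl 1))‖ ≤ 2 := by
        rw [h.gen]
        refine (norm_add_le _ _).trans ?_
        rw [norm_star]
        linarith [h.norm_l_le (.inl 1)]
      have h3 : ‖al lam j‖ ≤ lam := by
        unfold al
        split_ifs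
        · rw [Complex.norm_real, Real.norm_of_nonneg hl.le]
        · rw [norm_zero]; exact hl.le
      simp only [α]
      rw [norm_smul, mul_comm 2 lam]
      exact mul_le_mul h3 h2 (norm_nonneg _) hl.le
    · -- hL
      intro j k
      simp only [L, star_add, add_mul, mul_add]
      rw [TT_mul h ep_ne ep_ne, TT_mul h ep_ne (fun _ => inl0_ne),
        TT_mul h ep_ne (fun _ => by simp), TT_mul h (fun _ => inl0_ne) ep_ne,
        TT_mul h (fun _ => inl0_ne) (fun _ => inl0_ne),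
        TT_mul h (fun _ => inl0_ne) (fun _ => by simp), TT_mul h (fun _ => by simp) ep_ne,
        TT_mul h (fun _ => by simp) (fun _ => inl0_ne),
        TT_mul h (fun _ => by simp) (fun _ => by simp)]
      have a1 : (if (Sum.inl j : Fin (n + 2) ⊕ Fin (n + 2)) = .inl 0 ∧ (0 : ℤ) = gg k then
          (conj (ep j) * th k) • ι (uz (X (.inl 1)) (-gg k - 0)) else 0) = 0 := by
        split_ifs with hh
        · rw [Sum.inl.inj hh.1, ep_zero, map_zero, zero_mul, zero_smul]
        · rfl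
      have a2 : (if (Sum.inl 0 : Fin (n + 2) ⊕ Fin (n + 2)) = .inl k ∧ gg j = (0 : ℤ) then
          (conj (th j) * ep k) • ι (uz (X (.inl 1)) (0 - -gg j)) else 0) = 0 := by
        split_ifs with hh
        · rw [← Sum.inl.inj hh.1, ep_zero, mul_zero, zero_smul]
        · rfl
      rw [a1, a2]
      by_cases hjk : j = k
      · subst hjk
        simp only [and_self, if_true, reduceCtorEq, false_and, if_false, sub_self, U_zero h,
          add_zero, zero_add, conj_ep, conj_th, Complex.conj_ofReal, ep_sq, th_sq, hrr, hcC,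
          add_smul]
      · have hg : gg j ≠ gg k := fun h' => hjk (gg_inj h')
        simp [hjk, hg]
    · -- hc
      intro j
      have : 0 ≤ (ep j + th j).re := by
        rcases ep_cases j with h1 | h1 <;> rcases th_cases j with h2 | h2
        · simp [h1, h2]
        · simp [h1, h2]
        · simp [h1.1, h2]
        · simp [h1.1, h2]
      simp only [c]; linarith
    · -- hLΩ
      intro j
      simp only [L, star_add, add_apply]
      rw [star_TT_Ω h ep_ne, star_TT_Ω h (fun _ => inl0_ne), star_TT_Ω h (fun _ => by simp),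
        add_zero, add_zero]
    · -- hm
      intro k a
      simp only [m]
      rw [norm_star, TT, norm_smul, U_zero h, mul_one, norm_inv, Complex.norm_real,
        Real.norm_of_nonneg hr0.le]
      have h2 : ‖ι (uz (X (.inl 1)) (-a)) * l (.inr k)‖ ≤ 1 :=
        (norm_mul_le _ _).trans (mul_le_one₀ (norm_U_le _) (norm_nonneg _) (h.norm_l_le _))
      have h3 : (√s)⁻¹ ≤ 1 / 2 := by
        rw [one_div]; exact inv_anti₀ (by norm_num) hr2
      calc _ ≤ (√s)⁻¹ * 1 := by gcongr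
        _ ≤ 1 / 2 := by rw [mul_one]; exact h3
    · -- hmU
      intro k a b
      simp only [m, U]
      rw [star_TT, star_TT, neg_neg, neg_neg, smul_mul_assoc, mul_assoc, U_mul]
    · -- hmΩ
      intro k a
      exact star_TT_Ω h (fun _ => by simp) _ _
    · -- hmL
      intro k a j ha
      simp only [m, L, mul_add]
      rw [TT_mul h (fun _ => by simp) ep_ne, TT_mul h (fun _ => by simp) (fun _ => inl0_ne),
        TT_mul h (fun _ => by simp) (fun _ => by simp)]
      simp [ha]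
    · -- hdeg
      intro k a D ξ hξ
      induction hξ using Submodule.span_induction with
      | mem x hx =>
        obtain ⟨w, hw', rfl⟩ := hx
        rw [hmw]
        exact Mv_mem Y k _ hw'
      | zero => rw [map_zero]; exact zero_mem _
      | add x y _ _ hx hy => rw [map_add]; exact add_mem hx hy
      | smul c x _ hx => rw [map_smul]; exact Submodule.smul_mem _ _ hx
    · -- hstar
      intro j D ξ hξ
      have := eq_on_VV (T := star (L j)) (T' := (c j : ℂ) • m j 0 +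
        ∑ k ∈ Finset.univ.erase j, (th j * th k) • (U (gg j - gg k) * m k (gg k - gg j))) ?_ hξ
      · rw [this]
        simp only [add_apply, smul_apply, ContinuousLinearMap.sum_apply,
          ContinuousLinearMap.mul_apply]
      intro w
      simp only [add_apply, smul_apply, ContinuousLinearMap.sum_apply,
        ContinuousLinearMap.mul_apply, hmw, L, star_add]
      rw [hw, star_TT_apply, star_TT_apply, star_TT_apply, conj_ep, conj_th, Complex.conj_ofReal,
        neg_zero, neg_neg, U_zero h, ContinuousLinearMap.one_apply, ContinuousLinearMap.one_apply,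
        hYdef, h.Mv_inr lam s j (uz_mem_compl (by simp) 0),
        h.star_zero lam s (uz_mem_compl (by simp) (-gg j)), ← hYdef, smul_smul, hrr]
      have b1 : ep j • star (l (.inl j)) (ι (uz (X (.inl 1)) 0 * wv Y w) Ω) =
          ep j • Mv τ ι Ω Y j (uz (X (.inl 1)) 0) w := by
        rcases ep_cases j with h1 | h1
        · rw [h1, zero_smul, zero_smul]
        · rw [hYdef, h.Mv_inl lam s h1.2.1 h1.2.2
            (uz_mem_compl (by simpa using h1.2.2.symm) 0)]
      have b2 : th j • ι (uz (X (.inl 1)) (gg j)) (∑ k, th k • ι (uz (X (.inl 1)) (-gg k))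
          (Mv τ ι Ω Y k (uz (X (.inl 1)) (gg k) * uz (X (.inl 1)) (-gg j)) w)) =
          ∑ k, (th j * th k) • U (gg j - gg k)
            (Mv τ ι Ω Y k (uz (X (.inl 1)) (gg k - gg j)) w) := by
        rw [map_sum, Finset.smul_sum]
        refine Finset.sum_congr rfl fun k _ => ?_
        rw [map_smul, smul_smul, uz_mul, ← ContinuousLinearMap.mul_apply, U_mul, sub_eq_add_neg,
          sub_eq_add_neg]
      rw [b1, b2, ← Finset.add_sum_erase _ _ (Finset.mem_univ j), sub_self, hU0, th_sq, hcC,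
        ContinuousLinearMap.one_apply, add_smul, add_smul]
      abel
    · -- hθ
      intro j k
      rcases th_cases j with h1 | h1 <;> rcases th_cases k with h2 | h2 <;> simp [h1, h2]
    · simpa using hN
  have hci : c i = 2 + s := by
    simp only [c, ep, th, h0, h1, or_self, if_false]
    norm_num
  intro z
  set D := z.support.sup List.length with hD
  have e1 : ι (z.sum fun w a => a • wv Y w) Ω = z.sum fun w a => a • wv Yo w Ω := by
    simp only [Finsupp.sum, map_sum, map_smul, ContinuousLinearMap.sum_apply, smul_apply, hw]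
  have hξ : ι (z.sum fun w a => a • wv Y w) Ω ∈ VV Ω Yo D := by
    rw [e1]
    exact Submodule.sum_mem _ fun w hw' => Submodule.smul_mem _ _
      (MidAux.word_mem (Finset.le_sup (f := List.length) hw'))
  have e2 : ⟪Ω, m i 0 (ι (z.sum fun w a => a • wv Y w) Ω)⟫_ℂ =
      z.sum fun w a => a * ssum i (fun a b => τ.φ (wv Y a) * τ.φ (wv Y b)) w := by
    rw [e1]
    simp only [Finsupp.sum, map_sum, map_smul, inner_sum, inner_smul_right, hmw,
      uz_zero (h.sa _), h.inner_Mv_one]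
  have := key D _ hξ
  rw [e2, hci, ← h.n2_eq] at this
  rw [div_mul_eq_mul_div, le_div_iff₀ (by linarith), mul_comm]
  exact this

end Crest.Agent.R89
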