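import Crest.Agent.R89.BdA

/-!
# Row 89: the conjugate variable of the small letter (task R89-BdOne)

PLAN.  `Y = YY X lam s`, `A = X (inl 1)`, `s₀ = X (inl 0)`, `ℓ = l (inl 1)`, `D = DD R ℓ`, `ξ w = ι (wv Y w) Ω`.
`FM.word` with `d = 1` and `asum_eq_sum`: `star ℓ (ξ w) = ∑ k, ssum k (R (wv b) (D (Y k) (ξ a))) w`, where
`D (Y 0) = 0`, `D (Y 1) = lam • PP Ω`, `D (Y j) = D (uz A g * s₀ * uz A (-g))` (`DD_zero`, `h.dual`).  For
`j ≠ 0, 1` call `K : H →L[ℂ] H` *`C`-good* if for all `c : List _ →₀ ℂ`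
`‖c.sum fun w z => z * ssum j (fun a b => ⟪Ω, R (wv Y b) (K (ξ a))⟫) w‖ ≤ C * n2 (c.sum fun w z => z • wv Y w)`.
The set of `C`-good `K` is norm closed, good is additive.  For `K = R y * PP Ω * R x` with
`x, y ∈ Cs (X '' {inl j}ᶜ)` the `ssum` is `⟪Ω, R y (star (l (inl j)) (ι x (ξ w)))⟫` (`Mv_inl`, `inner_Mv`) and `R y`
commutes with `star (l (inl j))` (`DD_zero`).  For a polynomial `q`,
`D (aeval A q) = dd q fun i j => R (A ^ j) * PP Ω * R (A ^ i)` (`DD_mul`), so for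
`K = R b * D (aeval A q) * R a` (`a, b ∈ Cs (X '' {inl j}ᶜ)`) the `ssum` equals
`⟪Ω, star (l (inl j)) (ι a (R b ((dd q fun i j => ι A ^ i * R A ^ j) (ξ w))))⟫`: `K` is
`‖a‖ ‖b‖ L`-good by `norm_dd_le`.  `D (q s₀ q') = D q' * R (q s₀) + R (s₀ q') * D q`; take `q, q'` from
`exists_poly_lip (±g) ε` (`fc_poly`, `norm_fc_le`: `‖q‖ ≤ 2`), let `ε → 0` (`continuous_DD`): `D (Y j)` is
`8 (2|g|+1)`-good.  Total `lam * |…| ≤ (1 + n * 8 (4 N³ + 1)) ‖ξ‖ ≤ 100 N⁴ ‖ξ‖` (`abs_gg_le`).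
Put auxiliary lemmas in `namespace OneAux`.
-/

set_option autoImplicit false

namespace Crest.Agent.R89

open Crest.Agent.R95 Crest.Agent.R134 Crest.OpAlg Polynomial
open scoped InnerProductSpace ComplexConjugate

variable {A : Type} [CStarAlgebra A] {H : Type} [NormedAddCommGroup H] [InnerProductSpace ℂ H]
  [CompleteSpace H] {τ : Tr A} {ι : A →⋆ₐ[ℂ] (H →L[ℂ] H)} {R : A →L[ℂ] (H →L[ℂ] H)} {Ω : H}
  {n : ℕ} {l : Fin (n + 2) ⊕ Fin (n + 2) → H →L[ℂ] H} {X : Fin (n + 2) ⊕ Fin (n + 2) → A}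
  {lam s : ℝ}

namespace OneAux

/-- the functional attached to an operator `T` inserted at the letter `j` -/
noncomputable def G (ι : A →⋆ₐ[ℂ] (H →L[ℂ] H)) (R : A →L[ℂ] (H →L[ℂ] H)) (Ω : H) {K : Type}
    [DecidableEq K] (Y : K → A) (j : K) (T : H →L[ℂ] H) (w : List K) : ℂ :=
  ssum j (fun a b => ⟪Ω, R (wv Y b) (T (ι (wv Y a) Ω))⟫_ℂ) w

section G

variable {K : Type} [DecidableEq K] {Y : K → A} {j : K}

theorem G_add (T T' : H →L[ℂ] H) (w : List K) :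
    G ι R Ω Y j (T + T') w = G ι R Ω Y j T w + G ι R Ω Y j T' w := by
  rw [G, G, G, ← ssum_add]
  exact ssum_congr fun a b _ => by rw [add_apply, map_add, inner_add_right]

theorem G_smul (c : ℂ) (T : H →L[ℂ] H) (w : List K) :
    G ι R Ω Y j (c • T) w = c * G ι R Ω Y j T w := by
  rw [G, G]
  have := map_ssum (LinearMap.mulLeft ℂ c) j
    (fun a b => ⟪Ω, R (wv Y b) (T (ι (wv Y a) Ω))⟫_ℂ) w
  rw [LinearMap.mulLeft_apply] at this
  rw [this]
  exact ssum_congr fun a b _ => by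
    rw [smul_apply, map_smul, inner_smul_right, LinearMap.mulLeft_apply]

theorem G_zero (w : List K) : G ι R Ω Y j 0 w = 0 := by
  have := G_smul (ι := ι) (R := R) (Ω := Ω) (Y := Y) (j := j) 0 0 w
  rwa [zero_smul, zero_mul] at this

theorem tendsto_G {T : ℕ → H →L[ℂ] H} {T₀ : H →L[ℂ] H}
    (hT : Filter.Tendsto T Filter.atTop (nhds T₀)) (w : List K) :
    Filter.Tendsto (fun m => G ι R Ω Y j (T m) w) Filter.atTop (nhds (G ι R Ω Y j T₀ w)) := by
  refine tendsto_ssum fun a b _ => ?_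
  have hc : Continuous fun S : H →L[ℂ] H => ⟪Ω, R (wv Y b) (S (ι (wv Y a) Ω))⟫_ℂ := by
    fun_prop
  exact (hc.tendsto T₀).comp hT

omit [DecidableEq K] in
theorem sum_inner (S : H →L[ℂ] H) (c : List K →₀ ℂ) :
    (c.sum fun w z => z * ⟪Ω, S (ι (wv Y w) Ω)⟫_ℂ) =
      ⟪Ω, S (ι (c.sum fun w z => z • wv Y w) Ω)⟫_ℂ := by
  simp only [Finsupp.sum, map_sum, map_smul, sum_apply, smul_apply, inner_sum, inner_smul_right]

omit [DecidableEq K] in
theorem norm_sum_inner (hΩ : ‖Ω‖ = 1) (S : H →L[ℂ] H) (c : List K →₀ ℂ) :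
    ‖c.sum fun w z => z * ⟪Ω, S (ι (wv Y w) Ω)⟫_ℂ‖ ≤
      ‖S‖ * ‖ι (c.sum fun w z => z • wv Y w) Ω‖ := by
  rw [sum_inner]
  refine (norm_inner_le_norm _ _).trans ?_
  rw [hΩ, one_mul]
  exact S.le_opNorm _

end G

/-- `G j T` is represented by the operator `S` -/
def Rp (ι : A →⋆ₐ[ℂ] (H →L[ℂ] H)) (R : A →L[ℂ] (H →L[ℂ] H)) (Ω : H) {K : Type}
    [DecidableEq K] (Y : K → A) (j : K) (l₀ T S : H →L[ℂ] H) : Prop :=
  ∀ w, G ι R Ω Y j T w = ⟪Ω, star l₀ (S (ι (wv Y w) Ω))⟫_ℂ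

section Rp

variable {K : Type} [DecidableEq K] {Y : K → A} {j : K} {l₀ : H →L[ℂ] H}

theorem Rp.add {T S T' S' : H →L[ℂ] H} (h : Rp ι R Ω Y j l₀ T S) (h' : Rp ι R Ω Y j l₀ T' S') :
    Rp ι R Ω Y j l₀ (T + T') (S + S') := fun w => by
  rw [G_add, h w, h' w, add_apply, map_add, inner_add_right]

theorem Rp.smul {T S : H →L[ℂ] H} (c : ℂ) (h : Rp ι R Ω Y j l₀ T S) :
    Rp ι R Ω Y j l₀ (c • T) (c • S) := fun w => by
  rw [G_smul, h w, smul_apply, map_smul, inner_smul_right]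

theorem Rp.zero : Rp ι R Ω Y j l₀ 0 0 := fun w => by
  rw [G_zero, zero_apply, map_zero, inner_zero_right]

theorem Rp.sum {J : Type} (s : Finset J) {T S : J → H →L[ℂ] H}
    (h : ∀ i ∈ s, Rp ι R Ω Y j l₀ (T i) (S i)) :
    Rp ι R Ω Y j l₀ (∑ i ∈ s, T i) (∑ i ∈ s, S i) := by
  classical
  induction s using Finset.induction_on with
  | empty => simpa using Rp.zero
  | insert a s ha ih =>
    rw [Finset.sum_insert ha, Finset.sum_insert ha]
    exact (h a (Finset.mem_insert_self a s)).add (ih fun i hi => h i (Finset.mem_insert_of_mem hi))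

end Rp

theorem rp_basic (h : FM τ ι R Ω l X) (lam s : ℝ) {j : Fin (n + 2)} (h0 : j ≠ 0) (h1 : j ≠ 1)
    {x y : A} (hx : x ∈ Cs (X '' {Sum.inl j}ᶜ)) (hy : y ∈ Cs (X '' {Sum.inl j}ᶜ)) :
    Rp ι R Ω (YY X lam s) j (l (.inl j)) (R y * PP Ω * R x) (R y * ι x) := fun w => by
  have e1 : star (l (.inl j)) ((R y * ι x) (ι (wv (YY X lam s) w) Ω)) =
      R y (star (l (.inl j)) (ι (x * wv (YY X lam s) w) Ω)) := by
    have e := h.DD_zero hy
    rw [DD, sub_eq_zero] at e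
    rw [map_mul]
    exact congrArg (fun T : H →L[ℂ] H => T (ι x (ι (wv (YY X lam s) w) Ω))) e
  rw [e1, h.Mv_inl lam s h0 h1 hx, h.inner_Mv, G]
  refine ssum_congr fun a b _ => ?_
  have e2 : (R y * PP Ω * R x) (ι (wv (YY X lam s) a) Ω) =
      τ.φ (wv (YY X lam s) a * x) • ι y Ω := by
    have : (R y * PP Ω * R x) (ι (wv (YY X lam s) a) Ω) =
        R y (PP Ω (R x (ι (wv (YY X lam s) a) Ω))) := rfl
    rw [this, h.right, PP_apply, map_smul, h.R_Ω, ← h.phi]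
  rw [e2, map_smul, inner_smul_right, h.right, ← h.phi, τ.comm _ x, τ.comm y]

theorem R_pow (h : FM τ ι R Ω l X) (a : A) (k : ℕ) : R (a ^ k) = R a ^ k := by
  induction k with
  | zero => rw [pow_zero, pow_zero, h.R_one]
  | succ k ih => rw [pow_succ', h.R_mul, ih, pow_succ]

theorem DD_one (h : FM τ ι R Ω l X) (l₀ : H →L[ℂ] H) : DD R l₀ 1 = 0 := by
  rw [DD, h.R_one, mul_one, one_mul, sub_self]

theorem DD_X (h : FM τ ι R Ω l X) (e f : Fin (n + 2) ⊕ Fin (n + 2)) :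
    DD R (l e) (X f) = if e = f then PP Ω else 0 := h.dual e f

theorem DD_pow (h : FM τ ι R Ω l X) (e : Fin (n + 2) ⊕ Fin (n + 2)) (k : ℕ) :
    DD R (l e) (X e ^ k) = ∑ i ∈ Finset.range k, R (X e ^ (k - 1 - i)) * PP Ω * R (X e ^ i) := by
  induction k with
  | zero => rw [pow_zero, DD_one h, Finset.sum_range_zero]
  | succ k ih =>
    rw [pow_succ', h.DD_mul, ih, Finset.sum_range_succ', DD_X h, if_pos rfl, Finset.sum_mul,
      pow_zero, h.R_one, mul_one, Nat.add_sub_cancel, Nat.sub_zero]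
    congr 1
    refine Finset.sum_congr rfl fun i _ => ?_
    rw [mul_assoc, ← h.R_mul, ← pow_succ', show k - (i + 1) = k - 1 - i by omega]

theorem dd_add {M : Type*} [AddCommMonoid M] [Module ℂ M] (p q : ℂ[X]) (f : ℕ → ℕ → M) :
    dd (p + q) f = dd p f + dd q f :=
  Polynomial.sum_add_index p q _ (fun _ => zero_smul ℂ _) fun _ _ _ => add_smul _ _ _

theorem dd_monomial {M : Type*} [AddCommMonoid M] [Module ℂ M] (k : ℕ) (c : ℂ) (f : ℕ → ℕ → M) :
    dd (monomial k c) f = c • ∑ i ∈ Finset.range k, f i (k - 1 - i) :=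
  Polynomial.sum_monomial_index c _ (zero_smul ℂ _)

theorem rp_poly (h : FM τ ι R Ω l X) (lam s : ℝ) {j : Fin (n + 2)} (h0 : j ≠ 0) (h1 : j ≠ 1)
    {a b : A} (ha : a ∈ Cs (X '' {Sum.inl j}ᶜ)) (hb : b ∈ Cs (X '' {Sum.inl j}ᶜ)) (q : ℂ[X]) :
    Rp ι R Ω (YY X lam s) j (l (.inl j))
      (R b * DD R (l (.inl 1)) (aeval (X (.inl 1)) q) * R a)
      (R b * ι a * dd q fun i k => ι (X (.inl 1)) ^ i * R (X (.inl 1)) ^ k) := by
  have hA : X (.inl 1) ∈ Cs (X '' {Sum.inl j}ᶜ) :=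
    mem_Cs ⟨.inl 1, fun e => h1 (Sum.inl_injective e).symm, rfl⟩
  induction q using Polynomial.induction_on' with
  | add p q hp hq =>
    rw [map_add, DD_add, dd_add, mul_add, add_mul, mul_add]
    exact hp.add hq
  | monomial k c =>
    rw [aeval_monomial, ← Algebra.smul_def, DD_smul, dd_monomial, mul_smul_comm, smul_mul_assoc,
      mul_smul_comm, DD_pow h, Finset.mul_sum, Finset.sum_mul, Finset.mul_sum]
    refine Rp.smul c (Rp.sum _ fun i _ => ?_)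
    have := rp_basic h lam s h0 h1 (mul_mem ha (pow_mem hA i)) (mul_mem (pow_mem hA (k - 1 - i)) hb)
    have e1 : R (X (.inl 1) ^ (k - 1 - i) * b) * PP Ω * R (a * X (.inl 1) ^ i) =
        R b * (R (X (.inl 1) ^ (k - 1 - i)) * PP Ω * R (X (.inl 1) ^ i)) * R a := by
      rw [h.R_mul, h.R_mul]; simp only [mul_assoc]
    have e2 : R (X (.inl 1) ^ (k - 1 - i) * b) * ι (a * X (.inl 1) ^ i) =
        R b * ι a * (ι (X (.inl 1)) ^ i * R (X (.inl 1)) ^ (k - 1 - i)) := by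
      rw [h.R_mul, mul_assoc, h.R_comm, map_mul, map_pow, R_pow h]; simp only [mul_assoc]
    rwa [e1, e2] at this

theorem norm_ι_le (ι : A →⋆ₐ[ℂ] (H →L[ℂ] H)) (a : A) : ‖ι a‖ ≤ ‖a‖ :=
  NonUnitalStarAlgHom.norm_apply_le ι a

theorem norm_dd_le' (h : FM τ ι R Ω l X) {q : ℂ[X]} {L : ℝ}
    (hq : ∀ x : ℝ, |x| ≤ 2 → ‖(derivative q).eval (x : ℂ)‖ ≤ L) :
    ‖dd q fun i k => ι (X (.inl 1)) ^ i * R (X (.inl 1)) ^ k‖ ≤ L := by
  refine norm_dd_le ((h.sa _).map ι) ?_ (h.R_comm _ _).symm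
    ((norm_ι_le ι _).trans (h.semi _).norm_le) ((h.norm_R_le _).trans (h.semi _).norm_le) hq
  rw [IsSelfAdjoint, ← h.R_star, (h.sa _).star_eq]

theorem aeval_mem {N : StarSubalgebra ℂ A} {a : A} (ha : a ∈ N) (q : ℂ[X]) : aeval a q ∈ N := by
  induction q using Polynomial.induction_on' with
  | add p q hp hq => rw [map_add]; exact add_mem hp hq
  | monomial k c =>
    rw [aeval_monomial, ← Algebra.smul_def]
    exact SMulMemClass.smul_mem c (pow_mem ha k)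

theorem good_poly (h : FM τ ι R Ω l X) (lam s : ℝ) {j : Fin (n + 2)} (h0 : j ≠ 0) (h1 : j ≠ 1)
    {q q' : ℂ[X]} {L : ℝ} (hL : 0 ≤ L)
    (hq : ∀ x : ℝ, |x| ≤ 2 → ‖(derivative q).eval (x : ℂ)‖ ≤ L)
    (hq' : ∀ x : ℝ, |x| ≤ 2 → ‖(derivative q').eval (x : ℂ)‖ ≤ L)
    (hn : ‖aeval (X (.inl 1)) q‖ ≤ 2) (hn' : ‖aeval (X (.inl 1)) q'‖ ≤ 2)
    (c : List (Fin (n + 2)) →₀ ℂ) :
    ‖c.sum fun w z => z * G ι R Ω (YY X lam s) j
        (DD R (l (.inl 1)) (aeval (X (.inl 1)) q * X (.inl 0) * aeval (X (.inl 1)) q')) w‖ ≤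
      8 * L * ‖ι (c.sum fun w z => z • wv (YY X lam s) w) Ω‖ := by
  have hA : X (.inl 1) ∈ Cs (X '' {Sum.inl j}ᶜ) :=
    mem_Cs ⟨.inl 1, fun e => h1 (Sum.inl_injective e).symm, rfl⟩
  have hs : X (.inl 0) ∈ Cs (X '' {Sum.inl j}ᶜ) :=
    mem_Cs ⟨.inl 0, fun e => h0 (Sum.inl_injective e).symm, rfl⟩
  set p := aeval (X (.inl 1)) q with hp
  set p' := aeval (X (.inl 1)) q' with hp'
  have r1 := rp_poly h lam s h0 h1 (mul_mem (aeval_mem hA q) hs) (one_mem _) q'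
  have r2 := rp_poly h lam s h0 h1 (one_mem _) (mul_mem hs (aeval_mem hA q')) q
  have r := r1.add r2
  have h01 : (Sum.inl 1 : Fin (n + 2) ⊕ Fin (n + 2)) ≠ Sum.inl 0 := fun e =>
    one_ne_zero (Sum.inl_injective e)
  have e : DD R (l (.inl 1)) (p * X (.inl 0) * p') =
      R 1 * DD R (l (.inl 1)) p' * R (p * X (.inl 0)) +
        R (X (.inl 0) * p') * DD R (l (.inl 1)) p * R 1 := by
    rw [h.DD_mul, h.DD_mul, DD_X h, if_neg h01, zero_mul, zero_add, h.R_one, one_mul, mul_one,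
      h.R_mul (X (.inl 0)) p', mul_assoc]
  rw [← hp, ← hp', ← e] at r
  simp only [r _]
  refine (norm_sum_inner h.norm_Ω (star (l (.inl j)) * _) c).trans
    (mul_le_mul_of_nonneg_right ?_ (norm_nonneg _))
  have n1 : ‖star (l (.inl j))‖ ≤ 1 := by rw [norm_star]; exact h.norm_l_le _
  have n2 := norm_dd_le' h hq
  have n3 := norm_dd_le' h hq'
  have n4 : ‖X (.inl 0)‖ ≤ 2 := (h.semi _).norm_le
  have n5 : ‖ι (p * X (.inl 0))‖ ≤ 4 := ((norm_ι_le ι _).trans (norm_mul_le _ _)).trans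
    ((mul_le_mul hn n4 (norm_nonneg _) zero_le_two).trans (by norm_num))
  have n6 : ‖R (X (.inl 0) * p')‖ ≤ 4 := ((h.norm_R_le _).trans (norm_mul_le _ _)).trans
    ((mul_le_mul n4 hn' (norm_nonneg _) zero_le_two).trans (by norm_num))
  rw [h.R_one, one_mul, map_one, mul_one]
  refine (norm_mul_le _ _).trans ((mul_le_of_le_one_left (norm_nonneg _) n1).trans ?_)
  refine (norm_add_le _ _).trans ?_
  have n7 := (norm_mul_le _ _).trans (mul_le_mul n5 n3 (norm_nonneg _) (by norm_num))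
  have n8 := (norm_mul_le _ _).trans (mul_le_mul n6 n2 (norm_nonneg _) (by norm_num))
  linarith

theorem exists_seq (h : FM τ ι R Ω l X) (g : ℤ) :
    ∃ q : ℕ → ℂ[X], (∀ m (x : ℝ), |x| ≤ 2 → ‖(derivative (q m)).eval (x : ℂ)‖ ≤ 2 * |(g : ℝ)| + 1) ∧
      (∀ m, ‖aeval (X (.inl 1)) (q m)‖ ≤ 2) ∧
      Filter.Tendsto (fun m => aeval (X (.inl 1)) (q m)) Filter.atTop
        (nhds (uz (X (.inl 1)) g)) := by
  choose q hq hq' using fun m : ℕ =>
    exists_poly_lip g (show (0 : ℝ) < 1 / ((m : ℝ) + 1) by positivity)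
  have key : ∀ m, ‖aeval (X (.inl 1)) (q m) - uz (X (.inl 1)) g‖ ≤ 1 / ((m : ℝ) + 1) := by
    intro m
    have hF := continuous_FF
    rw [← fc_poly (h.sa _), uz, ← fc_sub (by fun_prop) (by fun_prop)]
    exact norm_fc_le (by positivity) fun x hx => hq m x (hx.trans (h.semi _).norm_le)
  refine ⟨q, hq', fun m => ?_, ?_⟩
  · have h1 : 1 / ((m : ℝ) + 1) ≤ 1 := by
      rw [div_le_one (by positivity)]; linarith [Nat.cast_nonneg (α := ℝ) m]
    have h2 := norm_uz_le (X (.inl 1)) g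
    have h3 := norm_le_norm_add_norm_sub' (aeval (X (.inl 1)) (q m)) (uz (X (.inl 1)) g)
    linarith [key m]
  · rw [tendsto_iff_norm_sub_tendsto_zero]
    exact squeeze_zero (fun _ => norm_nonneg _) key tendsto_one_div_add_atTop_nhds_zero_nat

theorem good_uz (h : FM τ ι R Ω l X) (lam s : ℝ) {j : Fin (n + 2)} (h0 : j ≠ 0) (h1 : j ≠ 1)
    (g : ℤ) (c : List (Fin (n + 2)) →₀ ℂ) :
    ‖c.sum fun w z => z * G ι R Ω (YY X lam s) j
        (DD R (l (.inl 1)) (uz (X (.inl 1)) g * X (.inl 0) * uz (X (.inl 1)) (-g))) w‖ ≤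
      8 * (2 * |(g : ℝ)| + 1) * ‖ι (c.sum fun w z => z • wv (YY X lam s) w) Ω‖ := by
  obtain ⟨q, hq1, hq2, hq3⟩ := exists_seq h g
  obtain ⟨q', hq1', hq2', hq3'⟩ := exists_seq h (-g)
  simp only [Int.cast_neg, abs_neg] at hq1'
  have t1 := ((continuous_DD R (l (.inl 1))).tendsto _).comp
    ((hq3.mul_const (X (.inl 0))).mul hq3')
  have t2 : Filter.Tendsto (fun m => ‖c.sum fun w z => z * G ι R Ω (YY X lam s) j
      (DD R (l (.inl 1)) (aeval (X (.inl 1)) (q m) * X (.inl 0) * aeval (X (.inl 1)) (q' m))) w‖)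
      Filter.atTop (nhds ‖c.sum fun w z => z * G ι R Ω (YY X lam s) j
        (DD R (l (.inl 1)) (uz (X (.inl 1)) g * X (.inl 0) * uz (X (.inl 1)) (-g))) w‖) := by
    refine Filter.Tendsto.norm ?_
    simp only [Finsupp.sum]
    exact tendsto_finset_sum _ fun w _ => (tendsto_G t1 w).const_mul _
  exact le_of_tendsto' t2 fun m =>
    good_poly h lam s h0 h1 (by positivity) (hq1 m) (hq1' m) (hq2 m) (hq2' m) c

theorem DD_YY (h : FM τ ι R Ω l X) (lam s : ℝ) (k : Fin (n + 2)) :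
    DD R (l (.inl 1)) (YY X lam s k) = al lam k • PP Ω +
      th k • DD R (l (.inl 1)) (uz (X (.inl 1)) (gg k) * X (.inl 0) * uz (X (.inl 1)) (-gg k)) := by
  have e : YY X lam s k = al lam k • X (.inl 1) + ep k • X (.inl k) +
      th k • (uz (X (.inl 1)) (gg k) * X (.inl 0) * uz (X (.inl 1)) (-gg k)) +
      (√s : ℂ) • X (.inr k) := rfl
  have e2 : ep k • DD R (l (.inl 1)) (X (.inl k)) = 0 := by
    rw [DD_X h]
    split_ifs with hk
    · rw [← Sum.inl_injective hk, ep, if_pos (Or.inr rfl), zero_smul]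
    · exact smul_zero _
  rw [e, DD_add, DD_add, DD_add, DD_smul, DD_smul, DD_smul, DD_smul, e2, DD_X h, if_pos rfl,
    DD_X h, if_neg Sum.inl_ne_inr, smul_zero, add_zero, add_zero]

theorem main_eq (h : FM τ ι R Ω l X) (lam s : ℝ) (w : List (Fin (n + 2))) :
    (lam : ℂ) * ssum 1 (fun a b => τ.φ (wv (YY X lam s) a) * τ.φ (wv (YY X lam s) b)) w =
      ⟪Ω, star (l (.inl 1)) (ι (wv (YY X lam s) w) Ω)⟫_ℂ -
        ∑ k ∈ Finset.univ.erase 1, G ι R Ω (YY X lam s) k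
          (DD R (l (.inl 1)) (uz (X (.inl 1)) (gg k) * X (.inl 0) * uz (X (.inl 1)) (-gg k))) w := by
  have e := h.word (l (.inl 1)) (YY X lam s) 1 w
  rw [one_mul, map_one, ContinuousLinearMap.one_apply, h.vac, map_zero, zero_add, asum_eq_sum] at e
  have e1 : ⟪Ω, star (l (.inl 1)) (ι (wv (YY X lam s) w) Ω)⟫_ℂ =
      ∑ k, G ι R Ω (YY X lam s) k (DD R (l (.inl 1)) (YY X lam s k)) w := by
    rw [e, inner_sum]
    refine Finset.sum_congr rfl fun k _ => ?_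
    have := map_ssum (innerSL ℂ Ω) k (fun a b => R (wv (YY X lam s) b)
      (DD R (l (.inl 1)) (YY X lam s k) (ι (1 * wv (YY X lam s) a) Ω))) w
    rw [innerSL_apply_apply] at this
    rw [this, G]
    exact ssum_congr fun a b _ => by rw [one_mul, innerSL_apply_apply]
  rw [e1, ← Finset.add_sum_erase _ _ (Finset.mem_univ (1 : Fin (n + 2))), eq_sub_iff_add_eq]
  congr 1
  · rw [DD_YY h, al, th, if_pos rfl, if_pos rfl, zero_smul, add_zero, G_smul, G]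
    congr 1
    refine ssum_congr fun a b _ => ?_
    rw [PP_apply, map_smul, inner_smul_right, h.R_Ω, ← h.phi, ← h.phi]
  · refine Finset.sum_congr rfl fun k hk => ?_
    have hk1 := Finset.ne_of_mem_erase hk
    rw [DD_YY h, al, th, if_neg hk1, if_neg hk1, zero_smul, zero_add, one_smul]

end OneAux

open OneAux in
theorem FM.bd_one (h : FM τ ι R Ω l X) (hl : 0 < lam) (s : ℝ) :
    Bd τ (YY X lam s) 1 (100 * ((n : ℝ) + 2) ^ 4 / lam) := by
  intro c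
  rw [h.n2_eq]
  set ν := ‖ι (c.sum fun w z => z • wv (YY X lam s) w) Ω‖ with hν
  have hν0 : 0 ≤ ν := norm_nonneg _
  set N : ℝ := (n : ℝ) + 2 with hN
  have hN2 : 2 ≤ N := by rw [hN]; linarith [Nat.cast_nonneg (α := ℝ) n]
  have e : (lam : ℂ) * (c.sum fun w z => z *
      ssum 1 (fun a b => τ.φ (wv (YY X lam s) a) * τ.φ (wv (YY X lam s) b)) w) =
      (c.sum fun w z => z * ⟪Ω, star (l (.inl 1)) (ι (wv (YY X lam s) w) Ω)⟫_ℂ) -
        ∑ k ∈ Finset.univ.erase 1, c.sum fun w z => z * G ι R Ω (YY X lam s) k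
          (DD R (l (.inl 1)) (uz (X (.inl 1)) (gg k) * X (.inl 0) * uz (X (.inl 1)) (-gg k))) w := by
    simp only [Finsupp.sum]
    rw [Finset.mul_sum, Finset.sum_comm, ← Finset.sum_sub_distrib]
    refine Finset.sum_congr rfl fun w _ => ?_
    rw [mul_left_comm, main_eq h, mul_sub, Finset.mul_sum]
  have b1 : ‖c.sum fun w z => z * ⟪Ω, star (l (.inl 1)) (ι (wv (YY X lam s) w) Ω)⟫_ℂ‖ ≤ ν := by
    refine (norm_sum_inner h.norm_Ω _ c).trans (mul_le_of_le_one_left hν0 ?_)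
    rw [norm_star]; exact h.norm_l_le _
  have b2 : ∀ k ∈ Finset.univ.erase (1 : Fin (n + 2)),
      ‖c.sum fun w z => z * G ι R Ω (YY X lam s) k (DD R (l (.inl 1))
        (uz (X (.inl 1)) (gg k) * X (.inl 0) * uz (X (.inl 1)) (-gg k))) w‖ ≤
        8 * (4 * N ^ 3 + 1) * ν := by
    intro k hk
    by_cases hk0 : k = 0
    · have h01 : (Sum.inl 1 : Fin (n + 2) ⊕ Fin (n + 2)) ≠ Sum.inl 0 := fun e =>
        one_ne_zero (Sum.inl_injective e)
      rw [hk0, gg_zero, neg_zero, uz_zero (h.sa _), one_mul, mul_one, DD_X h, if_neg h01]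
      simp only [G_zero, mul_zero, Finsupp.sum_fun_zero, norm_zero]
      positivity
    · refine (good_uz h lam s hk0 (Finset.ne_of_mem_erase hk) (gg k) c).trans
        (mul_le_mul_of_nonneg_right ?_ hν0)
      linarith [abs_gg_le k]
  have b3 := (norm_sum_le_of_le _ b2).trans (Finset.sum_le_sum_of_subset_of_nonneg
    (Finset.erase_subset 1 Finset.univ) fun _ _ _ => by positivity)
  rw [Finset.sum_const, Finset.card_univ, Fintype.card_fin, nsmul_eq_mul] at b3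
  have hc : ((n + 2 : ℕ) : ℝ) = N := by rw [hN]; push_cast; rfl
  rw [hc] at b3
  have b4 := (norm_sub_le _ _).trans (add_le_add b1 b3)
  rw [← e, norm_mul, Complex.norm_real, Real.norm_of_nonneg hl.le] at b4
  rw [div_mul_eq_mul_div, le_div_iff₀ hl, mul_comm]
  refine b4.trans ?_
  have hN3 : 8 ≤ N ^ 3 := by
    have := pow_le_pow_left₀ zero_le_two hN2 3
    linarith
  have hN4 : N ^ 4 = N * N ^ 3 := by ring
  have : 1 + N * (8 * (4 * N ^ 3 + 1)) ≤ 100 * N ^ 4 := by rw [hN4]; nlinarith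
  nlinarith

end Crest.Agent.R89
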