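import Crest.Agent.R89.Defs

/-!
# Row 89: consequences of the Fock model axioms (task R89-Dual)

PLANS.
* `ext`: `h.dense`.  All `R_*` lemmas by `ext` (`R_star`: compare `⟪ι a Ω, · (ι b Ω)⟫`, traciality).
* `DD_zero`: `{m | DD R (l e) m = 0 ∧ DD R (l e) (star m) = 0}` is a closed ⋆-subalgebra (`DD_mul`,
  `Cs_le`; or adjoin induction + closure), it contains `X f` (`f ≠ e`, `h.dual`, `sa`).
* `vac'`: `ι m Ω = R m Ω`.  `rel`: `T = star (l e) * ι m * l f` commutes with every `R (X g)`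
  (`h.dual`, its adjoint, `star (l e) * ι m * PP Ω = 0` and `PP Ω * ι m * l f = 0` by `vac'`), hence with
  `R a` for `a` in the adjoin; `T Ω = star (l e) (R (X f) (ι m Ω)) = δ τ(m) Ω`; so
  `T (ι a Ω) = T (R a Ω) = R a (T Ω)`; conclude by `h.dense`.
* `semi`: `Cre1.semi` with `ω T = ⟪Ω, T Ω⟫` (`Rep`, `Cre1` over `Cs (X '' {e}ᶜ)`).
* `word`: induction on `w` generalizing `d` (`ι (d * Y k) Ω = R (Y k) (ι d Ω)`).
* `word_affine`, `word_single`: `word`, `DD (x * X e * y) = R y * PP Ω * R x`, `asum_eq_sum`, `map_ssum`.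
* `sd`: `τ (X e * a) = ⟪l e Ω, ι a Ω⟫`, `word_single` with `c = 1`, `d = 1`, `inner_Mv`.
Put auxiliary lemmas in `namespace DualAux`.
-/

set_option autoImplicit false
set_option linter.deprecated false

namespace Crest.Agent.R89

open Crest.Agent.R95 Crest.Agent.R134 Crest.OpAlg Polynomial
open scoped InnerProductSpace ComplexConjugate

variable {A : Type} [CStarAlgebra A] {H : Type} [NormedAddCommGroup H] [InnerProductSpace ℂ H]
  [CompleteSpace H] {τ : Tr A} {ι : A →⋆ₐ[ℂ] (H →L[ℂ] H)} {R : A →L[ℂ] (H →L[ℂ] H)} {Ω : H}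
  {I : Type} [DecidableEq I] {l : I → H →L[ℂ] H} {X : I → A}

theorem continuous_DD (R : A →L[ℂ] (H →L[ℂ] H)) (l₀ : H →L[ℂ] H) : Continuous (DD R l₀) := by
  unfold DD
  fun_prop

theorem DD_add (R : A →L[ℂ] (H →L[ℂ] H)) (l₀ : H →L[ℂ] H) (a b : A) :
    DD R l₀ (a + b) = DD R l₀ a + DD R l₀ b := by
  simp only [DD, map_add, mul_add, add_mul]
  abel

theorem DD_smul (R : A →L[ℂ] (H →L[ℂ] H)) (l₀ : H →L[ℂ] H) (c : ℂ) (a : A) :
    DD R l₀ (c • a) = c • DD R l₀ a := by
  simp only [DD, map_smul, mul_smul_comm, smul_mul_assoc, smul_sub]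

namespace DualAux

theorem star_PP (Ω : H) : star (PP Ω) = PP Ω := by
  refine ContinuousLinearMap.ext fun v => ext_inner_left ℂ fun w => ?_
  rw [ContinuousLinearMap.star_eq_adjoint, ContinuousLinearMap.adjoint_inner_right, PP_apply,
    PP_apply, inner_smul_left, inner_smul_right, inner_conj_symm, mul_comm]

theorem inner_star_left (T : H →L[ℂ] H) (v w : H) : ⟪star T v, w⟫_ℂ = ⟪v, T w⟫_ℂ := by
  rw [ContinuousLinearMap.star_eq_adjoint, ContinuousLinearMap.adjoint_inner_left]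

theorem inner_star_right (T : H →L[ℂ] H) (v w : H) : ⟪v, star T w⟫_ℂ = ⟪T v, w⟫_ℂ := by
  rw [ContinuousLinearMap.star_eq_adjoint, ContinuousLinearMap.adjoint_inner_right]

theorem Cs_induction {S : Set A} {p : A → Prop} (hS : ∀ x ∈ S, p x ∧ p (star x)) (h1 : p 1)
    (hadd : ∀ x y, p x → p y → p (x + y)) (hsm : ∀ (c : ℂ) x, p x → p (c • x))
    (hmul : ∀ x y, p x → p y → p (x * y)) (hc : IsClosed {x | p x}) {x : A} (hx : x ∈ Cs S) :
    p x := by
  refine closure_minimal (s := (StarAlgebra.adjoin ℂ S : Set A)) (fun y hy => ?_) hc hx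
  suffices p y ∧ p (star y) from this.1
  induction hy using StarAlgebra.adjoin_induction with
  | mem x hx => exact hS x hx
  | algebraMap r =>
    rw [Algebra.algebraMap_eq_smul_one, star_smul, star_one]
    exact ⟨hsm _ _ h1, hsm _ _ h1⟩
  | add x y _ _ hx hy => rw [star_add]; exact ⟨hadd _ _ hx.1 hy.1, hadd _ _ hx.2 hy.2⟩
  | mul x y _ _ hx hy => rw [star_mul]; exact ⟨hmul _ _ hx.1 hy.1, hmul _ _ hy.2 hx.2⟩
  | star x _ hx => rw [star_star]; exact ⟨hx.2, hx.1⟩

end DualAux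

open DualAux

namespace FM

theorem inner_ι (h : FM τ ι R Ω l X) (a b : A) : ⟪ι a Ω, ι b Ω⟫_ℂ = τ.φ (star a * b) := by
  rw [h.phi, map_mul, map_star, ContinuousLinearMap.mul_apply, inner_star_right]

theorem n2_eq (h : FM τ ι R Ω l X) (a : A) : τ.n2 a = ‖ι a Ω‖ := by
  rw [Tr.n2, ← h.inner_ι, norm_eq_sqrt_re_inner (𝕜 := ℂ)]
  rfl

theorem norm_Ω (h : FM τ ι R Ω l X) : ‖Ω‖ = 1 := by
  have := h.n2_eq 1
  rw [τ.n2_one, map_one] at this
  exact this.symm

theorem ext' (h : FM τ ι R Ω l X) {T T' : H →L[ℂ] H}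
    (hT : ∀ a ∈ StarAlgebra.adjoin ℂ (Set.range X), T (ι a Ω) = T' (ι a Ω)) : T = T' := by
  ext v
  refine Dense.induction (P := fun v => T v = T' v) h.dense ?_
    (isClosed_eq T.continuous T'.continuous) v
  rintro _ ⟨a, ha, rfl⟩
  exact hT a ha

theorem ext (h : FM τ ι R Ω l X) {T T' : H →L[ℂ] H} (hT : ∀ a, T (ι a Ω) = T' (ι a Ω)) :
    T = T' := h.ext' fun a _ => hT a

theorem R_mul (h : FM τ ι R Ω l X) (a b : A) : R (a * b) = R b * R a :=
  h.ext fun c => by rw [ContinuousLinearMap.mul_apply, h.right, h.right, h.right, mul_assoc]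

theorem R_one (h : FM τ ι R Ω l X) : R 1 = 1 :=
  h.ext fun c => by rw [h.right, mul_one, ContinuousLinearMap.one_apply]

theorem R_star (h : FM τ ι R Ω l X) (a : A) : R (star a) = star (R a) := by
  refine h.ext fun c => ?_
  refine h.dense.eq_of_inner_right (𝕜 := ℂ) ?_
  rintro _ ⟨b, -, rfl⟩
  simp only
  rw [inner_star_right, h.right, h.right, h.inner_ι, h.inner_ι, star_mul, ← mul_assoc,
    τ.comm, mul_assoc]

theorem R_comm (h : FM τ ι R Ω l X) (m a : A) : R m * ι a = ι a * R m :=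
  h.ext fun c => by
    rw [ContinuousLinearMap.mul_apply, ContinuousLinearMap.mul_apply, h.right,
      ← ContinuousLinearMap.mul_apply (ι a), ← map_mul, h.right,
      ← ContinuousLinearMap.mul_apply (ι a), ← map_mul, mul_assoc]

theorem R_Ω (h : FM τ ι R Ω l X) (m : A) : R m Ω = ι m Ω := by
  have := h.right m 1
  rwa [map_one, one_mul] at this

theorem norm_R_le (h : FM τ ι R Ω l X) (m : A) : ‖R m‖ ≤ ‖m‖ := by
  refine ContinuousLinearMap.opNorm_le_bound _ (norm_nonneg _) fun v => ?_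
  refine Dense.induction (P := fun v => ‖R m v‖ ≤ ‖m‖ * ‖v‖) h.dense ?_
    (isClosed_le (by fun_prop) (by fun_prop)) v
  rintro _ ⟨a, -, rfl⟩
  simp only
  rw [h.right, ← h.n2_eq, ← h.n2_eq, mul_comm]
  exact τ.n2_mul_le_right a m

theorem inj (h : FM τ ι R Ω l X) : Function.Injective ι := by
  rw [injective_iff_map_eq_zero]
  intro a ha
  refine h.faithful a ?_
  rw [h.n2_eq, ha, ContinuousLinearMap.zero_apply, norm_zero]

theorem sa (h : FM τ ι R Ω l X) (e : I) : IsSelfAdjoint (X e) :=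
  h.inj (by rw [map_star, h.gen, star_add, star_star, add_comm])

theorem DD_mul (h : FM τ ι R Ω l X) (l₀ : H →L[ℂ] H) (a b : A) :
    DD R l₀ (a * b) = DD R l₀ b * R a + R b * DD R l₀ a := by
  simp only [DD, h.R_mul]
  noncomm_ring

theorem DD_zero (h : FM τ ι R Ω l X) {e : I} {m : A} (hm : m ∈ Cs (X '' {e}ᶜ)) :
    DD R (l e) m = 0 := by
  refine Cs_induction (p := fun m => DD R (l e) m = 0) ?_ ?_ (fun x y hx hy => ?_)
    (fun c x hx => ?_) (fun x y hx hy => ?_) (isClosed_eq (continuous_DD _ _) continuous_const) hm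
  · rintro _ ⟨f, hf, rfl⟩
    rw [(h.sa f).star_eq, and_self]
    exact (h.dual e f).trans (if_neg fun e => hf e.symm)
  · simp [DD, h.R_one]
  · rw [DD_add, hx, hy, add_zero]
  · rw [DD_smul, hx, smul_zero]
  · rw [h.DD_mul, hx, hy, zero_mul, mul_zero, add_zero]

theorem star_R (l₀ : H →L[ℂ] H) (m : A) (v : H) :
    star l₀ (R m v) = R m (star l₀ v) + DD R l₀ m v := by
  simp [DD]

theorem vac' (h : FM τ ι R Ω l X) {e : I} {m : A} (hm : m ∈ Cs (X '' {e}ᶜ)) :
    star (l e) (ι m Ω) = 0 := by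
  rw [← h.R_Ω, star_R, h.vac, h.DD_zero hm, map_zero, zero_add, ContinuousLinearMap.zero_apply]

theorem l_Ω (h : FM τ ι R Ω l X) (e : I) : l e Ω = ι (X e) Ω := by
  rw [h.gen, ContinuousLinearMap.add_apply, h.vac, add_zero]

theorem rel (h : FM τ ι R Ω l X) {e f : I} {m : A} (hm : m ∈ Cs (X '' {e, f}ᶜ)) :
    star (l e) * ι m * l f = if e = f then τ.φ m • (1 : H →L[ℂ] H) else 0 := by
  have he : m ∈ Cs (X '' {e}ᶜ) := Cs_mono (by gcongr; simp) hm
  have hf : m ∈ Cs (X '' {f}ᶜ) := Cs_mono (by gcongr; simp) hm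
  have p1 : star (l e) * ι m * PP Ω = 0 := by
    ext v
    simp [PP_apply, h.vac' he]
  have p2 : PP Ω * ι m * l f = 0 := by
    have : star (l f) * ι (star m) * PP Ω = 0 := by
      ext v
      simp only [ContinuousLinearMap.mul_apply, PP_apply, map_smul, h.vac' (star_mem hf), smul_zero,
        ContinuousLinearMap.zero_apply]
    have := congrArg star this
    rwa [star_mul, star_mul, star_star, map_star, star_star, star_PP, star_zero, ← mul_assoc] at this
  set T := star (l e) * ι m * l f with hT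
  have c1 : ∀ g, T * R (X g) = R (X g) * T := fun g => by
    have a1 := h.dual e g
    have a2 := congrArg star (h.dual f g)
    rw [star_sub, star_mul, star_mul, star_star, ← h.R_star, (h.sa g).star_eq] at a2
    have a3 : star (l e) * ι m * (R (X g) * l f - l f * R (X g)) = 0 := by
      rw [a2]
      split_ifs
      · rw [star_PP, p1]
      · simp
    have a4 : (star (l e) * R (X g) - R (X g) * star (l e)) * ι m * l f = 0 := by
      rw [a1]
      split_ifs
      · exact p2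
      · simp
    have a5 := h.R_comm (X g) m
    have : T * R (X g) - R (X g) * T = (star (l e) * R (X g) - R (X g) * star (l e)) * ι m * l f -
        star (l e) * ι m * (R (X g) * l f - l f * R (X g)) -
        star (l e) * (R (X g) * ι m - ι m * R (X g)) * l f := by
      rw [hT]; noncomm_ring
    rw [← sub_eq_zero, this, a3, a4, a5]
    simp
  have c2 : ∀ a ∈ StarAlgebra.adjoin ℂ (Set.range X), T * R a = R a * T := fun a ha => by
    refine Cs_induction (S := Set.range X) (p := fun a => T * R a = R a * T) ?_ ?_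
      (fun x y hx hy => ?_) (fun c x hx => ?_) (fun x y hx hy => ?_)
      (isClosed_eq (by fun_prop) (by fun_prop)) (StarSubalgebra.le_topologicalClosure _ ha)
    · rintro _ ⟨g, rfl⟩
      rw [(h.sa g).star_eq, and_self]
      exact c1 g
    · rw [h.R_one, mul_one, one_mul]
    · rw [map_add, mul_add, add_mul, hx, hy]
    · rw [map_smul, mul_smul_comm, smul_mul_assoc, hx]
    · rw [h.R_mul, ← mul_assoc, hy, mul_assoc, hx, mul_assoc]
  have c3 : T Ω = (if e = f then τ.φ m • (1 : H →L[ℂ] H) else 0) Ω := by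
    rw [hT, ContinuousLinearMap.mul_apply, ContinuousLinearMap.mul_apply, h.l_Ω,
      ← ContinuousLinearMap.mul_apply (ι m), ← map_mul, ← h.right, star_R, h.vac' he, map_zero,
      zero_add, DD, h.dual]
    split_ifs
    · rw [PP_apply, h.phi]; rfl
    · rfl
  refine h.ext' fun a ha => ?_
  rw [← h.R_Ω, ← ContinuousLinearMap.mul_apply, c2 a ha, ContinuousLinearMap.mul_apply, c3]
  split_ifs <;> simp

/-- the vacuum state -/
noncomputable def om (Ω : H) : (H →L[ℂ] H) →ₗ[ℂ] ℂ where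
  toFun T := ⟪Ω, T Ω⟫_ℂ
  map_add' S T := by simp
  map_smul' c T := by simp

theorem rep (h : FM τ ι R Ω l X) : Rep τ ι (om Ω) :=
  ⟨fun a => (h.phi a).symm, fun T => by
    change ⟪Ω, star T Ω⟫_ℂ = conj ⟪Ω, T Ω⟫_ℂ
    rw [inner_star_right, inner_conj_symm]⟩

theorem cre (h : FM τ ι R Ω l X) (e : I) : Cre1 τ ι (om Ω) (Cs (X '' {e}ᶜ)) (l e) (X e) :=
  ⟨fun a ha => (h.rel (by rwa [Set.pair_eq_singleton])).trans (if_pos rfl), fun T a ha => by
    change ⟪Ω, T (star (l e) (ι a Ω))⟫_ℂ = 0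
    rw [h.vac' ha, map_zero, inner_zero_right], h.gen e⟩

theorem norm_l_le (h : FM τ ι R Ω l X) (e : I) : ‖l e‖ ≤ 1 := by
  have h2 : ‖l e‖ * ‖l e‖ ≤ 1 := by
    rw [← CStarRing.norm_star_mul_self, CreAux.isom (h.cre e)]
    exact ContinuousLinearMap.norm_id_le
  nlinarith [norm_nonneg (l e)]

theorem semi (h : FM τ ι R Ω l X) (e : I) : Semi τ (X e) := (h.cre e).semi h.faithful h.rep

theorem free (h : FM τ ι R Ω l X) (e : I) : Free τ (Cs (X '' {e}ᶜ)) (W τ {X e}) :=
  ((h.cre e).free h.faithful h.rep).mono (le_clo _) le_rfl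

/-- an annihilation operator applied to a word -/
theorem word (h : FM τ ι R Ω l X) (l₀ : H →L[ℂ] H) {K : Type} (Y : K → A) (d : A) (w : List K) :
    star l₀ (ι (d * wv Y w) Ω) = R (wv Y w) (star l₀ (ι d Ω)) +
      asum (fun a k b => R (wv Y b) (DD R l₀ (Y k) (ι (d * wv Y a) Ω))) w := by
  induction w generalizing d with
  | nil => rw [wv_nil, mul_one, h.R_one, asum_nil, add_zero, ContinuousLinearMap.one_apply]
  | cons k w ih =>
    rw [wv_cons, ← mul_assoc, ih, asum_cons, wv_nil, mul_one, ← h.right (Y k) d, star_R, map_add,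
      h.R_mul, ContinuousLinearMap.mul_apply, add_assoc]
    simp only [wv_cons, mul_assoc]

theorem DD_affine (h : FM τ ι R Ω l X) {e : I} {x y z : A} (hx : x ∈ Cs (X '' {e}ᶜ))
    (hy : y ∈ Cs (X '' {e}ᶜ)) (hz : z - x * X e * y ∈ Cs (X '' {e}ᶜ)) (d b : A) :
    R b (DD R (l e) z (ι d Ω)) = ι y (τ.φ (x * d) • ι b Ω) := by
  have e1 : DD R (l e) (X e) = PP Ω := (h.dual e e).trans (if_pos rfl)
  rw [← sub_add_cancel z (x * X e * y), DD_add, h.DD_zero hz, zero_add, h.DD_mul, h.DD_mul,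
    h.DD_zero hx, h.DD_zero hy, e1, zero_mul, mul_zero, zero_add, add_zero,
    ContinuousLinearMap.mul_apply, ContinuousLinearMap.mul_apply, h.right, PP_apply, ← h.phi,
    map_smul, map_smul, h.R_Ω, h.right, map_smul, τ.comm, map_mul ι, ContinuousLinearMap.mul_apply]

theorem word_affine (h : FM τ ι R Ω l X) {e : I} {K : Type} [Fintype K] [DecidableEq K]
    {Y x y : K → A} (hx : ∀ k, x k ∈ Cs (X '' {e}ᶜ)) (hy : ∀ k, y k ∈ Cs (X '' {e}ᶜ))
    (hY : ∀ k, Y k - x k * X e * y k ∈ Cs (X '' {e}ᶜ)) {d : A} (hd : d ∈ Cs (X '' {e}ᶜ))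
    (w : List K) :
    star (l e) (ι (d * wv Y w) Ω) = ∑ k, ι (y k) (Mv τ ι Ω Y k (x k * d) w) := by
  rw [h.word, h.vac' hd, map_zero, zero_add, asum_eq_sum]
  refine Finset.sum_congr rfl fun k _ => ?_
  rw [Mv, map_ssum]
  exact ssum_congr fun a b _ => by rw [h.DD_affine (hx k) (hy k) (hY k), mul_assoc]

theorem word_single (h : FM τ ι R Ω l X) {e : I} {K : Type} [DecidableEq K] {Y : K → A} {k : K}
    {c : ℂ} (hk : Y k - c • X e ∈ Cs (X '' {e}ᶜ)) (hY : ∀ j, j ≠ k → Y j ∈ Cs (X '' {e}ᶜ))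
    {d : A} (hd : d ∈ Cs (X '' {e}ᶜ)) (w : List K) :
    star (l e) (ι (d * wv Y w) Ω) = c • Mv τ ι Ω Y k d w := by
  rw [h.word, h.vac' hd, map_zero, zero_add, Mv, ssum, ← DistribSMul.toAddMonoidHom_apply, map_asum]
  refine asum_congr fun a j b _ => ?_
  rw [DistribSMul.toAddMonoidHom_apply]
  split_ifs with hj
  · subst hj
    rw [h.DD_affine (x := c • 1) (y := 1) (SMulMemClass.smul_mem c (one_mem _)) (one_mem _)
      (by rwa [mul_one, smul_mul_assoc, one_mul]), map_one, smul_mul_assoc, one_mul,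
      ContinuousLinearMap.one_apply, map_smul τ.φ, smul_eq_mul, mul_smul]
  · rw [h.DD_zero (hY j hj), ContinuousLinearMap.zero_apply, map_zero, smul_zero]

theorem inner_Mv (h : FM τ ι R Ω l X) {K : Type} [DecidableEq K] (Y : K → A) (k : K) (d y : A)
    (w : List K) :
    ⟪Ω, R y (Mv τ ι Ω Y k d w)⟫_ℂ = ssum k (fun a b => τ.φ (d * wv Y a) * τ.φ (wv Y b * y)) w := by
  rw [Mv, map_ssum, ← innerSL_apply_apply, map_ssum]
  exact ssum_congr fun a b _ => by
    rw [map_smul, map_smul, h.right, innerSL_apply_apply, ← h.phi, smul_eq_mul]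

theorem inner_Mv_one (h : FM τ ι R Ω l X) {K : Type} [DecidableEq K] (Y : K → A) (k : K)
    (w : List K) :
    ⟪Ω, Mv τ ι Ω Y k 1 w⟫_ℂ = ssum k (fun a b => τ.φ (wv Y a) * τ.φ (wv Y b)) w := by
  simpa only [h.R_one, ContinuousLinearMap.one_apply, one_mul, mul_one] using h.inner_Mv Y k 1 1 w

/-- the Schwinger-Dyson equation -/
theorem sd (h : FM τ ι R Ω l X) {K : Type} [DecidableEq K] {f : K → I} (hf : Function.Injective f)
    (k : K) (w : List K) :
    τ.φ (wv (fun j => X (f j)) (k :: w)) =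
      ssum k (fun a b => τ.φ (wv (fun j => X (f j)) a) * τ.φ (wv (fun j => X (f j)) b)) w := by
  have := h.word_single (e := f k) (Y := fun j => X (f j)) (k := k) (c := 1) (by simp)
    (fun j hj => mem_Cs ⟨f j, hf.ne hj, rfl⟩) (one_mem _) w
  rw [one_mul, one_smul] at this
  rw [← h.inner_Mv_one, ← this, inner_star_right, h.l_Ω, h.inner_ι, (h.sa _).star_eq, wv_cons]

/-- a conjugate variable bound from an operator -/
theorem bd_of_op (h : FM τ ι R Ω l X) {K : Type} [DecidableEq K] {Y : K → A} {i : K} {B : ℝ}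
    (T : H →L[ℂ] H) (hT : ∀ w, Mv τ ι Ω Y i 1 w = T (ι (wv Y w) Ω)) (hB : ‖T‖ ≤ B) :
    Bd τ Y i B := by
  intro c
  have e : (c.sum fun w z => z * ssum i (fun a b => τ.φ (wv Y a) * τ.φ (wv Y b)) w) =
      ⟪Ω, T (ι (c.sum fun w z => z • wv Y w) Ω)⟫_ℂ := by
    simp only [Finsupp.sum, map_sum, ContinuousLinearMap.sum_apply, inner_sum, map_smul,
      ContinuousLinearMap.smul_apply, inner_smul_right, ← hT, h.inner_Mv_one]
  rw [e, h.n2_eq]
  refine (norm_inner_le_norm _ _).trans ?_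
  rw [h.norm_Ω, one_mul]
  exact T.le_of_opNorm_le hB _

end FM

end Crest.Agent.R89
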