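import Crest.Agent.R89.Defs

/-!
# Row 89: the variational free Fisher information (task R89-Fisher)

PLANS.
* `split_eq`: the sum over positions is `ssum` (induction on the list, `Finset.sum_range_succ'`,
  generalizing the function of the prefix); `polyEval_eq`: `MonoidAlgebra.lift_apply`, `wordEval_eq`.
  Transport the coefficients with `Finsupp.equivMapDomain FreeMonoid.toList` (or use defeq
  `FreeMonoid K = List K`).
* `fisher_le`: `polyStar P = P` gives `star (polyEval Y P) = polyEval Y P` (`star_wv`), so
  `τ (P P) = n2 ^ 2` and `2 B x - x² ≤ B²`.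
* `le_fisher`: `P i = single (of i) V⁻¹`.
* `measurable_fisher`: `lowerSemicontinuous_iSup` twice (or `lowerSemicontinuous_biSup`), each term is
  continuous in `s` (`split_eq`, `tendsto_ssum`, words are continuous); `LowerSemicontinuous.measurable`.
Put auxiliary lemmas in `namespace FisherAux`.
-/

set_option autoImplicit false

namespace Crest.Agent.R89

open Crest.Agent.R95 Crest.Agent.R134 Crest.OpAlg Polynomial
open scoped InnerProductSpace ComplexConjugate

variable {A : Type} [CStarAlgebra A] {N : ℕ}

namespace FisherAux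

theorem sum_eq_ssum {K M : Type*} [DecidableEq K] [AddCommMonoid M] (i : K)
    (f : List K → List K → M) (w : List K) :
    (∑ k ∈ Finset.range w.length, if w[k]? = some i then f (w.take k) (w.drop (k + 1)) else 0) =
      ssum i f w := by
  induction w generalizing f with
  | nil => rfl
  | cons a w ih =>
    rw [List.length_cons, Finset.sum_range_succ', ssum_cons, ← ih, add_comm]
    simp only [List.getElem?_cons_zero, Option.some.injEq, List.take_zero, zero_add,
      List.drop_succ_cons, List.drop_zero, List.getElem?_cons_succ, List.take_succ_cons]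

theorem continuous_wv {T M K : Type*} [TopologicalSpace T] [TopologicalSpace M] [Monoid M]
    [ContinuousMul M] {Y : T → K → M} (hY : ∀ k, Continuous fun t => Y t k) (w : List K) :
    Continuous fun t => wv (Y t) w := by
  induction w with
  | nil => exact continuous_const
  | cons k w ih => simp only [wv_cons]; exact (hY k).mul ih

theorem continuous_ssum {T M K : Type*} [TopologicalSpace T] [TopologicalSpace M]
    [AddCommMonoid M] [ContinuousAdd M] [DecidableEq K] {e : K} {f : T → List K → List K → M}
    (hf : ∀ a b, Continuous fun t => f t a b) (w : List K) :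
    Continuous fun t => ssum e (f t) w :=
  continuous_iff_continuousAt.2 fun t => tendsto_ssum fun a b _ => (hf a b).tendsto t

end FisherAux

open FisherAux

theorem polyEval_eq {R : Type*} [Ring R] [Algebra ℂ R] (Y : Fin N → R) (P : NCPoly N) :
    polyEval Y P = P.coeff.sum fun w c => c • wv Y (FreeMonoid.toList w) := by
  rw [polyEval, MonoidAlgebra.lift_apply]
  exact Finsupp.sum_congr fun w _ => congrArg _ (wordEval_eq Y w)

theorem split_eq {R : Type*} [Ring R] [Algebra ℂ R] (τ : R →ₗ[ℂ] ℂ) (Y : Fin N → R) (i : Fin N)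
    (P : NCPoly N) :
    splitPairing τ Y i P = P.coeff.sum fun w c =>
      c * ssum i (fun a b => τ (wv Y a) * τ (wv Y b)) (FreeMonoid.toList w) := by
  rw [splitPairing]
  refine Finsupp.sum_congr fun w _ => ?_
  rw [← sum_eq_ssum]
  simp only [wordEval_eq, Equiv.apply_symm_apply]

namespace FisherAux

theorem polyEval_polyStar {Y : Fin N → A} (hY : ∀ i, IsSelfAdjoint (Y i)) (P : NCPoly N) :
    polyEval Y (polyStar P) = star (polyEval Y P) := by
  rw [polyEval_eq Y P, polyEval, polyStar, map_finsuppSum, Finsupp.sum, Finsupp.sum, star_sum]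
  refine Finset.sum_congr rfl fun w _ => ?_
  rw [MonoidAlgebra.lift_single, star_smul, star_wv fun k => (hY k).star_eq]
  exact congrArg _ (wordEval_eq Y _)

theorem phi_sq (τ : Tr A) {Y : Fin N → A} (hY : ∀ i, IsSelfAdjoint (Y i)) {P : NCPoly N}
    (hP : polyStar P = P) :
    (tl τ (polyEval Y P * polyEval Y P)).re = τ.n2 (polyEval Y P) ^ 2 := by
  rw [τ.n2_sq, ← polyEval_polyStar hY, hP]
  rfl

end FisherAux

theorem fisher_le (τ : Tr A) {Y : Fin N → A} (hY : ∀ i, IsSelfAdjoint (Y i)) {B : Fin N → ℝ}
    (h : ∀ i, Bd τ Y i (B i)) : freeFisher (tl τ) Y ≤ ENNReal.ofReal (∑ i, B i ^ 2) := by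
  refine iSup₂_le fun P hP => ENNReal.ofReal_le_ofReal ?_
  rw [Complex.re_sum]
  refine Finset.sum_le_sum fun i _ => ?_
  have h1 := h i (Finsupp.equivMapDomain FreeMonoid.toList (P i).coeff)
  rw [Finsupp.sum_equivMapDomain, Finsupp.sum_equivMapDomain, ← polyEval_eq] at h1
  have h2 : ‖splitPairing (tl τ) Y i (P i)‖ ≤ B i * τ.n2 (polyEval Y (P i)) := by
    rw [split_eq]
    exact h1
  have h3 := (Complex.re_le_norm _).trans h2
  rw [Complex.sub_re, phi_sq τ hY (hP i), two_mul, Complex.add_re]
  nlinarith [sq_nonneg (B i - τ.n2 (polyEval Y (P i)))]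

theorem le_fisher (τ : Tr A) {Y : Fin N → A} (hY : ∀ i, IsSelfAdjoint (Y i)) {V : ℝ} (hV : 0 < V)
    (h : ∀ i, τ.n2 (Y i) ^ 2 ≤ V) : ENNReal.ofReal (N / V) ≤ freeFisher (tl τ) Y := by
  let P : Fin N → NCPoly N := fun i => MonoidAlgebra.single (FreeMonoid.of i) ((V⁻¹ : ℝ) : ℂ)
  have hP : ∀ i, polyStar (P i) = P i := fun i => by
    simp only [P, polyStar, MonoidAlgebra.coeff_single]
    rw [Finsupp.sum_single_index (by simp), Complex.conj_ofReal]
    rfl
  refine le_iSup₂_of_le P hP (ENNReal.ofReal_le_ofReal ?_)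
  rw [Complex.re_sum]
  have hterm : ∀ i, V⁻¹ ≤ (2 * splitPairing (tl τ) Y i (P i) -
      tl τ (polyEval Y (P i) * polyEval Y (P i))).re := fun i => by
    have e1 : splitPairing (tl τ) Y i (P i) = ((V⁻¹ : ℝ) : ℂ) := by
      rw [split_eq]
      simp only [P, MonoidAlgebra.coeff_single]
      rw [Finsupp.sum_single_index (zero_mul _), FreeMonoid.toList_of, ssum_cons, if_pos rfl,
        ssum_nil, wv_nil, add_zero]
      have : tl τ 1 = 1 := τ.one
      rw [this, mul_one, mul_one]
    have e2 : polyEval Y (P i) = ((V⁻¹ : ℝ) : ℂ) • Y i := by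
      simp only [P, polyEval, MonoidAlgebra.lift_single, FreeMonoid.lift_eval_of]
    rw [Complex.sub_re, phi_sq τ hY (hP i), e1, e2, τ.n2_smul, two_mul, Complex.add_re,
      Complex.ofReal_re, Complex.norm_real, Real.norm_eq_abs, abs_of_pos (inv_pos.2 hV), mul_pow]
    have h1 : V⁻¹ ^ 2 * τ.n2 (Y i) ^ 2 ≤ V⁻¹ ^ 2 * V :=
      mul_le_mul_of_nonneg_left (h i) (sq_nonneg _)
    have h2 : V⁻¹ ^ 2 * V = V⁻¹ := by field_simp
    linarith
  refine le_trans (le_of_eq ?_) (Finset.sum_le_sum fun i _ => hterm i)
  rw [Finset.sum_const, Finset.card_univ, Fintype.card_fin, nsmul_eq_mul, div_eq_mul_inv]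

theorem measurable_fisher (τ : Tr A) (Z S : Fin N → A) :
    Measurable fun s : ℝ => freeFisher (tl τ) (heatTuple Z S s) := by
  have hY : ∀ k, Continuous fun s : ℝ => heatTuple Z S s k := fun k => by
    unfold heatTuple
    fun_prop
  have hw := continuous_wv hY
  have hφ : ∀ w, Continuous fun s : ℝ => tl τ (wv (heatTuple Z S s) w) := fun w =>
    τ.φ.continuous.comp (hw w)
  have hev : ∀ P : NCPoly N, Continuous fun s : ℝ => polyEval (heatTuple Z S s) P := fun P => by
    simp only [polyEval_eq, Finsupp.sum]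
    exact continuous_finsetSum _ fun w _ => (hw _).const_smul _
  have hsp : ∀ i (P : NCPoly N),
      Continuous fun s : ℝ => splitPairing (tl τ) (heatTuple Z S s) i P := fun i P => by
    simp only [split_eq, Finsupp.sum]
    exact continuous_finsetSum _ fun w _ =>
      continuous_const.mul (continuous_ssum (fun a b => (hφ a).mul (hφ b)) _)
  refine LowerSemicontinuous.measurable ?_
  unfold freeFisher
  refine lowerSemicontinuous_iSup fun P => lowerSemicontinuous_iSup fun _ =>
    Continuous.lowerSemicontinuous (ENNReal.continuous_ofReal.comp (Complex.continuous_re.comp ?_))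
  exact continuous_finsetSum _ fun i _ => (continuous_const.mul (hsp i _)).sub
    (τ.φ.continuous.comp ((hev _).mul (hev _)))

end Crest.Agent.R89
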