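import Crest.Agent.R89.Dual

/-!
# Row 89: the side conditions of the statement (task R89-FreeFam)

PLANS.
* `stdSemi`: `m n = τ (X e ^ n)` satisfies `m (n + 1) = ∑_{i < n} m i * m (n - 1 - i)` (`FM.sd` with
  `K = Unit`, `w = List.replicate n ()`); strong induction, `catalan_succ'`.
* `freeFam`, route 1 (Fock space): for an alternating centred list `L` with product `P` show by
  induction on `L`: `τ P = 0` if `L ≠ []`; if the head has index `some j` then `ι P Ω ∈ range (l (f j))`;
  otherwise (`L = []` or head index `none`) `star (l (f i)) (ι P Ω) = 0` for all `i`.  Use `FM.rel`,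
  `FM.vac'` for `a = polyEval Z p ∈ Cs (X '' (range f)ᶜ)` and: a centred polynomial in `X e` lies in
  `span {cheb (X e) (n+1)}` (`FM.semi`), and `star (l e) ζ = 0 → ι (cheb (X e) n) ζ = (l e ^ n) ζ`.
  Route 2: induction on the length, split the list at the entries with a fixed index `some i`, use
  `FM.free` (`Fr`) and traciality.
Put auxiliary lemmas in `namespace FreeAux`.
-/

set_option autoImplicit false

namespace Crest.Agent.R89

open Crest.Agent.R95 Crest.Agent.R134 Crest.OpAlg Polynomial
open scoped InnerProductSpace ComplexConjugate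

variable {A : Type} [CStarAlgebra A] {H : Type} [NormedAddCommGroup H] [InnerProductSpace ℂ H]
  [CompleteSpace H] {τ : Tr A} {ι : A →⋆ₐ[ℂ] (H →L[ℂ] H)} {R : A →L[ℂ] (H →L[ℂ] H)} {Ω : H}
  {I : Type} [DecidableEq I] {l : I → H →L[ℂ] H} {X : I → A}

namespace FreeAux

theorem ssum_replicate {M : Type*} [AddCommMonoid M] (f : List Unit → List Unit → M) (k : ℕ) :
    ssum () f (List.replicate k ()) =
      ∑ i ∈ Finset.range k, f (List.replicate i ()) (List.replicate (k - 1 - i) ()) := by
  induction k generalizing f with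
  | zero => rfl
  | succ k ih =>
    rw [List.replicate_succ, ssum_cons, if_pos rfl, ih, Finset.sum_range_succ', add_comm]
    congr 1
    refine Finset.sum_congr rfl fun i _ => ?_
    rw [List.replicate_succ, show k + 1 - 1 - (i + 1) = k - 1 - i by omega]

theorem wv_replicate {M : Type*} [Monoid M] (x : M) (k : ℕ) :
    wv (fun _ : Unit => x) (List.replicate k ()) = x ^ k := by
  simp [wv]

theorem sum_even {g : ℕ → ℂ} (k : ℕ) (hg : ∀ j < k, g (2 * j + 1) = 0) :
    ∑ i ∈ Finset.range (2 * k + 1), g i = ∑ j ∈ Finset.range (k + 1), g (2 * j) := by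
  induction k with
  | zero => simp
  | succ k ih =>
    rw [show 2 * (k + 1) + 1 = 2 * k + 1 + 1 + 1 by ring, Finset.sum_range_succ,
      Finset.sum_range_succ, ih fun j hj => hg j (by omega), hg k (by omega), add_zero,
      Finset.sum_range_succ _ (k + 1), show 2 * k + 1 + 1 = 2 * (k + 1) by ring]

theorem catalan_of_rec {m : ℕ → ℂ} (h0 : m 0 = 1)
    (hs : ∀ k, m (k + 1) = ∑ i ∈ Finset.range k, m i * m (k - 1 - i)) (n : ℕ) :
    ∀ k, (n = 2 * k → m n = catalan k) ∧ (n = 2 * k + 1 → m n = 0) := by
  induction n using Nat.strong_induction_on with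
  | _ n ih =>
    intro k
    constructor
    · intro hn
      cases k with
      | zero => rw [hn, mul_zero, h0, catalan_zero, Nat.cast_one]
      | succ k =>
        rw [hn, show 2 * (k + 1) = 2 * k + 1 + 1 by ring, hs, sum_even k fun j hj => by
          rw [(ih (2 * j + 1) (by omega) j).2 rfl, zero_mul], catalan_succ',
          Finset.Nat.sum_antidiagonal_eq_sum_range_succ (fun x y => catalan x * catalan y) k,
          Nat.cast_sum]
        refine Finset.sum_congr rfl fun j hj => ?_
        have hj' := Finset.mem_range.mp hj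
        rw [(ih (2 * j) (by omega) j).1 rfl,
          (ih (2 * k + 1 - 1 - 2 * j) (by omega) (k - j)).1 (by omega), Nat.cast_mul]
    · intro hn
      rw [hn, hs]
      refine Finset.sum_eq_zero fun i hi => ?_
      have hi' := Finset.mem_range.mp hi
      rcases Nat.even_or_odd' i with ⟨j, hj | hj⟩
      · rw [(ih (2 * k - 1 - i) (by omega) (k - j - 1)).2 (by omega), mul_zero]
      · rw [(ih i (by omega) j).2 hj, zero_mul]

theorem polyEval_induction {N : ℕ} {Y : Fin N → A} {p : A → Prop} (h1 : p 1)
    (hadd : ∀ x y, p x → p y → p (x + y)) (hsm : ∀ (c : ℂ) x, p x → p (c • x))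
    (hmul : ∀ j x, p x → p (Y j * x)) (P : NCPoly N) : p (polyEval Y P) := by
  induction P using MonoidAlgebra.induction_on with
  | of w =>
    rw [polyEval, MonoidAlgebra.lift_of]
    have e : FreeMonoid.lift Y w = wv Y (FreeMonoid.toList w) := wordEval_eq Y w
    rw [e]
    induction FreeMonoid.toList w with
    | nil => exact h1
    | cons k v ih => rw [wv_cons]; exact hmul _ _ ih
  | add x y hx hy => rw [polyEval, map_add]; exact hadd _ _ hx hy
  | smul c x hx => rw [polyEval, map_smul]; exact hsm _ _ hx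

theorem rel_one (h : FM τ ι R Ω l X) (e f : I) :
    star (l e) * l f = if e = f then (1 : H →L[ℂ] H) else 0 := by
  have := h.rel (e := e) (f := f) (one_mem _)
  rwa [map_one, mul_one, τ.one, one_smul] at this

omit [CompleteSpace H] in
theorem aeval_split (T : H →L[ℂ] H) (p : ℂ[X]) (ζ : H) :
    aeval T p ζ = T (aeval T (divX p) ζ) + p.coeff 0 • ζ := by
  conv_lhs => rw [← X_mul_divX_add p]
  rw [map_add, map_mul, aeval_X, aeval_C, Algebra.algebraMap_eq_smul_one]
  rfl

theorem exists_poly (h : FM τ ι R Ω l X) (e : I) {N : ℕ} (P : NCPoly N) :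
    ∃ p : ℂ[X], ∀ ζ, star (l e) ζ = 0 → ι (polyEval (fun _ => X e) P) ζ = aeval (l e) p ζ := by
  refine polyEval_induction
    (p := fun a => ∃ p : ℂ[X], ∀ ζ, star (l e) ζ = 0 → ι a ζ = aeval (l e) p ζ)
    ⟨1, fun ζ _ => by rw [map_one, map_one]⟩ ?_ ?_ ?_ P
  · rintro x y ⟨p, hp⟩ ⟨q, hq⟩
    exact ⟨p + q, fun ζ hζ => by
      rw [map_add, map_add, ContinuousLinearMap.add_apply, ContinuousLinearMap.add_apply,
        hp ζ hζ, hq ζ hζ]⟩
  · rintro c x ⟨p, hp⟩
    exact ⟨c • p, fun ζ hζ => by
      rw [map_smul, map_smul, ContinuousLinearMap.smul_apply, ContinuousLinearMap.smul_apply,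
        hp ζ hζ]⟩
  · rintro j x ⟨p, hp⟩
    refine ⟨Polynomial.X * p + divX p, fun ζ hζ => ?_⟩
    have e1 : star (l e) (aeval (l e) p ζ) = aeval (l e) (divX p) ζ := by
      rw [aeval_split, map_add, map_smul, hζ, smul_zero, add_zero,
        ← ContinuousLinearMap.mul_apply, rel_one h, if_pos rfl, ContinuousLinearMap.one_apply]
    rw [map_mul, ContinuousLinearMap.mul_apply, hp ζ hζ, h.gen, ContinuousLinearMap.add_apply, e1,
      map_add, map_mul, aeval_X]
    rfl

theorem inner_l (h : FM τ ι R Ω l X) (e : I) (v : H) : ⟪Ω, l e v⟫_ℂ = 0 := by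
  rw [← DualAux.inner_star_left, h.vac, inner_zero_left]

theorem mem_range (h : FM τ ι R Ω l X) (e : I) {N : ℕ} (P : NCPoly N)
    (hP : τ.φ (polyEval (fun _ => X e) P) = 0) {ζ : H} (hζ : star (l e) ζ = 0) :
    ∃ v, ι (polyEval (fun _ => X e) P) ζ = l e v := by
  obtain ⟨p, hp⟩ := exists_poly h e P
  have h0 : p.coeff 0 = 0 := by
    rw [h.phi, hp Ω (h.vac e), aeval_split, inner_add_right, inner_l h, zero_add, inner_smul_right,
      inner_self_eq_norm_sq_to_K, h.norm_Ω] at hP
    simpa using hP
  exact ⟨_, by rw [hp ζ hζ, aeval_split, h0, zero_smul, add_zero]⟩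

theorem polyEval_mem {N : ℕ} {Z : Fin N → A} {S : StarSubalgebra ℂ A} (hZ : ∀ j, Z j ∈ S)
    (P : NCPoly N) : polyEval Z P ∈ S :=
  polyEval_induction (p := fun a => a ∈ S) (one_mem S) (fun _ _ => add_mem)
    (fun c _ => SMulMemClass.smul_mem c) (fun j _ => mul_mem (hZ j)) P

theorem inv (h : FM τ ι R Ω l X) {N : ℕ} {f : Fin N → I} (hf : Function.Injective f)
    {Z : Fin N → A} (hZ : ∀ j, Z j ∈ Cs (X '' (Set.range f)ᶜ))
    (L : List (Option (Fin N) × NCPoly N)) (hL : L.IsChain fun a b => a.1 ≠ b.1)
    (hc : ∀ e ∈ L, τ.φ (polyEval (withNoise Z (fun i => X (f i)) e.1) e.2) = 0) :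
    (∀ j, L.head?.map Prod.fst = some (some j) → ∃ v,
      ι (L.map fun e => polyEval (withNoise Z (fun i => X (f i)) e.1) e.2).prod Ω = l (f j) v) ∧
    ((∀ j, L.head?.map Prod.fst ≠ some (some j)) → ∀ i, star (l (f i))
      (ι (L.map fun e => polyEval (withNoise Z (fun i => X (f i)) e.1) e.2).prod Ω) = 0) ∧
    (L ≠ [] → τ.φ (L.map fun e => polyEval (withNoise Z (fun i => X (f i)) e.1) e.2).prod = 0) := by
  induction L with
  | nil =>
    refine ⟨fun j hj => by simp at hj, fun _ i => ?_, fun hn => (hn rfl).elim⟩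
    rw [List.map_nil, List.prod_nil, map_one, ContinuousLinearMap.one_apply, h.vac]
  | cons e L ih =>
    obtain ⟨ih1, ih2, -⟩ := ih hL.tail fun x hx => hc x (List.mem_cons_of_mem _ hx)
    have hne : L.head?.map Prod.fst ≠ some e.1 := by
      cases L with
      | nil => simp
      | cons b L =>
        have := (List.isChain_cons_cons.mp hL).1
        simpa using this.symm
    have he := hc e List.mem_cons_self
    set ζ := ι (L.map fun e => polyEval (withNoise Z (fun i => X (f i)) e.1) e.2).prod Ω with hζ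
    have e0 : ι ((e :: L).map fun e => polyEval (withNoise Z (fun i => X (f i)) e.1) e.2).prod Ω =
        ι (polyEval (withNoise Z (fun i => X (f i)) e.1) e.2) ζ := by
      rw [List.map_cons, List.prod_cons, map_mul, ContinuousLinearMap.mul_apply]
    rw [h.phi (List.prod _), e0]
    obtain ⟨t, P⟩ := e
    cases t with
    | some j =>
      have hz : star (l (f j)) ζ = 0 := by
        by_cases hex : ∃ j', L.head?.map Prod.fst = some (some j')
        · obtain ⟨j', hj'⟩ := hex
          obtain ⟨v, hv⟩ := ih1 j' hj'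
          have : f j ≠ f j' := fun hh => hne (by rw [hj', hf hh])
          rw [hv, ← ContinuousLinearMap.mul_apply, rel_one h, if_neg this,
            ContinuousLinearMap.zero_apply]
        · exact ih2 (fun j' hj' => hex ⟨j', hj'⟩) j
      obtain ⟨v, hv⟩ := mem_range h (f j) P he hz
      have hv' : ι (polyEval (withNoise Z (fun i => X (f i)) (some j)) P) ζ = l (f j) v := hv
      refine ⟨fun j' hj' => ?_, fun hn => (hn j rfl).elim, fun _ => ?_⟩
      · have : j = j' := by simpa using hj'
        exact ⟨v, this ▸ hv'⟩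
      · rw [hv', inner_l h]
    | none =>
      have ha : polyEval Z P ∈ Cs (X '' (Set.range f)ᶜ) := polyEval_mem hZ P
      have he' : τ.φ (polyEval Z P) = 0 := he
      have ha1 : ∀ i, polyEval Z P ∈ Cs (X '' {f i}ᶜ) := fun i =>
        Cs_mono (Set.image_mono (Set.compl_subset_compl.mpr (by simp))) ha
      change (∀ j, _ → _) ∧ (_ → ∀ i, star (l (f i)) (ι (polyEval Z P) ζ) = 0) ∧
        (_ → ⟪Ω, ι (polyEval Z P) ζ⟫_ℂ = 0)
      cases L with
      | nil =>
        have : ζ = Ω := by
          rw [hζ, List.map_nil, List.prod_nil, map_one, ContinuousLinearMap.one_apply]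
        rw [this]
        exact ⟨fun j hj => by simp at hj, fun _ i => h.vac' (ha1 i), fun _ => by rw [← h.phi, he']⟩
      | cons b L =>
        obtain ⟨t, Q⟩ := b
        cases t with
        | none => exact (hne rfl).elim
        | some j =>
          obtain ⟨v, hv⟩ := ih1 j rfl
          rw [hv]
          refine ⟨fun j hj => by simp at hj, fun _ i => ?_, fun _ => ?_⟩
          · have := h.rel (e := f i) (f := f j) (m := polyEval Z P)
              (Cs_mono (Set.image_mono (Set.compl_subset_compl.mpr
                (by rintro _ (rfl | rfl) <;> simp))) ha)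
            rw [he', zero_smul, ite_self] at this
            exact congrArg (fun T : H →L[ℂ] H => T v) this
          · rw [← DualAux.inner_star_left, ← DualAux.inner_star_left, ← map_star,
              h.vac' (star_mem (ha1 j)), inner_zero_left]

end FreeAux

theorem faithful_state (hτ : τ.Faithful) : IsFaithfulTracialState (tl τ) := by
  refine ⟨τ.one, fun a => ⟨?_, τ.pos a⟩, fun a ha => hτ a ?_, τ.comm⟩
  · change (τ.φ (star a * a)).im = 0
    rw [τ.phi_star_mul_self, Complex.ofReal_im]
  · have ha' : τ.φ (star a * a) = 0 := ha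
    rw [Tr.n2, ha', Complex.zero_re, Real.sqrt_zero]

theorem FM.stdSemi (h : FM τ ι R Ω l X) {N : ℕ} (f : Fin N → I) :
    IsStandardSemicircular (tl τ) fun i => X (f i) := by
  refine ⟨fun i => h.sa _, fun i k => ?_⟩
  have key := FreeAux.catalan_of_rec (m := fun n => τ.φ (X (f i) ^ n))
    (by rw [pow_zero, τ.one]) fun k => by
      have := h.sd (f := fun _ : Unit => f i) (fun _ _ _ => rfl) () (List.replicate k ())
      rw [← List.replicate_succ, FreeAux.ssum_replicate] at this
      simpa only [FreeAux.wv_replicate] using this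
  exact ⟨(key _ k).1 rfl, (key _ k).2 rfl⟩

theorem FM.freeFam (h : FM τ ι R Ω l X) {N : ℕ} {f : Fin N → I} (hf : Function.Injective f)
    {Z : Fin N → A} (hZ : ∀ j, Z j ∈ Cs (X '' (Set.range f)ᶜ)) :
    IsFreeFamily (tl τ) (withNoise Z fun i => X (f i)) :=
  fun L hL hch hc => (FreeAux.inv h hf hZ L hch hc).2.2 hL

end Crest.Agent.R89
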