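import Mathlib

/-!
# Row 89: the integral estimate (task R89-Integral; pure real analysis)

PLAN.  With `t = K⁻¹ ∈ (0, 1]`: `min K s⁻¹ ≤ (s + t)⁻¹ + 2 t / (s + t)²` for `s > 0` (cases `s ≤ t`, `t ≤ s`).
`ψ_t s = (1 + s)⁻¹ - (s + t)⁻¹ - 2 t / (s + t)²` is integrable on `Ioi 0` with integral `log t - 2`
(antiderivative `log ((1 + s)/(s + t)) + 2 t / (s + t)`, `integral_Ioi_of_hasDerivAt_of_tendsto`,
`integrableOn_Ioi_deriv_of_nonneg/nonpos`; e.g. `-ψ_t ≥ 0`).  The integrand lies between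
`ψ_{t₀} + ψ_{t₁} + (n/50) 1_{[4,5]}` and `(n+2) ((1+s)⁻¹ - (2+s)⁻¹)`, both integrable
(`Integrable.mono'` with the sum of the absolute values; `setIntegral_mono_on`).
Put auxiliary lemmas in `namespace IntAux`.
-/

set_option autoImplicit false

namespace Crest.Agent.R89

open MeasureTheory

namespace IntAux

open Filter Topology Set

theorem tendsto_inv_add (t : ℝ) : Tendsto (fun s : ℝ => (s + t)⁻¹) atTop (𝓝 0) :=
  tendsto_inv_atTop_zero.comp (tendsto_atTop_add_const_right _ t tendsto_id)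

/-- `log (1 + s) - log (s + t) → 0` -/
theorem tendsto_log (t : ℝ) :
    Tendsto (fun s : ℝ => Real.log (1 + s) - Real.log (s + t)) atTop (𝓝 0) := by
  have h1 : Tendsto (fun s : ℝ => 1 + (1 - t) * (s + t)⁻¹) atTop (𝓝 (1 + (1 - t) * 0)) :=
    ((tendsto_inv_add t).const_mul _).const_add _
  rw [mul_zero, add_zero] at h1
  have h2 := (Real.continuousAt_log one_ne_zero).tendsto.comp h1
  rw [Real.log_one] at h2
  refine h2.congr' ?_
  filter_upwards [eventually_gt_atTop 0, eventually_gt_atTop (-t)] with s hs hst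
  have h3 : 0 < s + t := by linarith
  simp only [Function.comp]
  rw [← Real.log_div (by positivity) h3.ne']
  congr 1
  field_simp
  ring

theorem hasDerivAt_log {t s : ℝ} (ht : 0 < t) (hs : 0 ≤ s) :
    HasDerivAt (fun s : ℝ => Real.log (1 + s) - Real.log (s + t)) ((1 + s)⁻¹ - (s + t)⁻¹) s := by
  have h1 : HasDerivAt (fun s : ℝ => Real.log (1 + s)) (1 / (1 + s)) s :=
    ((hasDerivAt_id' s).const_add 1).log (by positivity)
  have h2 : HasDerivAt (fun s : ℝ => Real.log (s + t)) (1 / (s + t)) s :=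
    ((hasDerivAt_id' s).add_const t).log (by positivity)
  simpa only [one_div] using h1.fun_sub h2

/-- the lower comparison function -/
noncomputable def psi (t s : ℝ) : ℝ := (1 + s)⁻¹ - (s + t)⁻¹ - 2 * t / (s + t) ^ 2

theorem hasDerivAt_psi {t s : ℝ} (ht : 0 < t) (hs : 0 ≤ s) :
    HasDerivAt (fun s : ℝ => Real.log (1 + s) - Real.log (s + t) + 2 * t * (s + t)⁻¹)
      (psi t s) s := by
  have h2 : HasDerivAt (fun s : ℝ => (s + t)⁻¹) (-1 / (s + t) ^ 2) s :=
    ((hasDerivAt_id' s).add_const t).fun_inv (by positivity)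
  have h3 := (hasDerivAt_log ht hs).fun_add (h2.const_mul (2 * t))
  refine h3.congr_deriv ?_
  unfold psi
  ring

theorem tendsto_psi (t : ℝ) :
    Tendsto (fun s : ℝ => Real.log (1 + s) - Real.log (s + t) + 2 * t * (s + t)⁻¹) atTop (𝓝 0) := by
  simpa using (tendsto_log t).add ((tendsto_inv_add t).const_mul (2 * t))

theorem psi_nonpos {t s : ℝ} (ht : 0 < t) (ht1 : t ≤ 1) (hs : 0 < s) : psi t s ≤ 0 := by
  have h1 : (1 + s)⁻¹ ≤ (s + t)⁻¹ := inv_anti₀ (by positivity) (by linarith)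
  have h2 : 0 ≤ 2 * t / (s + t) ^ 2 := by positivity
  unfold psi
  linarith

theorem integrable_psi {t : ℝ} (ht : 0 < t) (ht1 : t ≤ 1) : IntegrableOn (psi t) (Ioi 0) :=
  integrableOn_Ioi_deriv_of_nonpos' (fun _ hs => hasDerivAt_psi ht hs)
    (fun _ hs => psi_nonpos ht ht1 hs) (tendsto_psi t)

theorem integral_psi {t : ℝ} (ht : 0 < t) (ht1 : t ≤ 1) :
    ∫ s in Ioi 0, psi t s = Real.log t - 2 := by
  rw [integral_Ioi_of_hasDerivAt_of_nonpos' (fun _ hs => hasDerivAt_psi ht hs)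
    (fun _ hs => psi_nonpos ht ht1 hs) (tendsto_psi t)]
  simp only [add_zero, zero_add, Real.log_one]
  field_simp
  ring

theorem integrable_up : IntegrableOn (fun s : ℝ => (1 + s)⁻¹ - (s + 2)⁻¹) (Ioi 0) :=
  integrableOn_Ioi_deriv_of_nonneg' (fun _ hs => hasDerivAt_log two_pos hs)
    (fun s (hs : 0 < s) => sub_nonneg.2 (inv_anti₀ (by positivity) (by linarith))) (tendsto_log 2)

theorem min_le {K s : ℝ} (hK : 1 ≤ K) (hs : 0 < s) :
    min K s⁻¹ ≤ (1 + s)⁻¹ - psi K⁻¹ s := by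
  have hK0 : 0 < K := by linarith
  have ht : 0 < K⁻¹ := inv_pos.2 hK0
  have e : (1 + s)⁻¹ - psi K⁻¹ s = (s + 3 * K⁻¹) / (s + K⁻¹) ^ 2 := by
    unfold psi
    generalize K⁻¹ = t at ht
    field_simp
    ring
  rw [e]
  have e2 : K = (K⁻¹)⁻¹ := (inv_inv K).symm
  rcases le_total s K⁻¹ with h | h
  · refine (min_le_left _ _).trans ?_
    conv_lhs => rw [e2]
    generalize K⁻¹ = t at ht h
    rw [inv_eq_one_div, div_le_div_iff₀ ht (by positivity)]
    nlinarith
  · refine (min_le_right _ _).trans ?_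
    generalize K⁻¹ = t at ht h
    rw [inv_eq_one_div, div_le_div_iff₀ hs (by positivity)]
    nlinarith

end IntAux

open IntAux Set in
theorem integral_bound {Φ : ℝ → ℝ} (hΦ : Measurable Φ) {n K₀ K₁ : ℝ} (hn : 0 ≤ n) (h₀ : 1 ≤ K₀)
    (h₁ : 1 ≤ K₁) (hlo : ∀ s, 0 < s → (n + 2) / (2 + s) ≤ Φ s)
    (hup : ∀ s, 0 < s → Φ s ≤ min K₀ s⁻¹ + min K₁ s⁻¹ + n / (1 + s))
    (hmid : ∀ s, 4 ≤ s → s ≤ 5 → Φ s ≤ min K₀ s⁻¹ + min K₁ s⁻¹ + n / (1 + s) - n / 50) :
    IntegrableOn (fun s => (n + 2) / (1 + s) - Φ s) (Set.Ioi 0) ∧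
      n / 50 - 4 - Real.log K₀ - Real.log K₁ ≤ ∫ s in Set.Ioi 0, ((n + 2) / (1 + s) - Φ s) := by
  have hK₀ : 0 < K₀⁻¹ := inv_pos.2 (by linarith)
  have hK₁ : 0 < K₁⁻¹ := inv_pos.2 (by linarith)
  have hK₀' : K₀⁻¹ ≤ 1 := inv_le_one_of_one_le₀ h₀
  have hK₁' : K₁⁻¹ ≤ 1 := inv_le_one_of_one_le₀ h₁
  have hind : IntegrableOn ((Icc (4 : ℝ) 5).indicator fun _ => n / 50) (Ioi 0) :=
    ((integrable_indicator_iff measurableSet_Icc).2
      (integrableOn_const (by simp))).integrableOn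
  set L : ℝ → ℝ := fun s => psi K₀⁻¹ s + psi K₁⁻¹ s + (Icc (4 : ℝ) 5).indicator (fun _ => n / 50) s
    with hL
  have hLi : IntegrableOn L (Ioi 0) :=
    ((integrable_psi hK₀ hK₀').add (integrable_psi hK₁ hK₁')).add hind
  have hUi : IntegrableOn (fun s : ℝ => (n + 2) * ((1 + s)⁻¹ - (s + 2)⁻¹)) (Ioi 0) :=
    integrable_up.const_mul _
  have hlow : ∀ s ∈ Ioi (0 : ℝ), L s ≤ (n + 2) / (1 + s) - Φ s := by
    intro s (hs : 0 < s)
    have a0 := min_le h₀ hs
    have a1 := min_le h₁ hs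
    have e : (n + 2) / (1 + s) = n / (1 + s) + (1 + s)⁻¹ + (1 + s)⁻¹ := by
      field_simp
      ring
    rw [e]
    by_cases hs' : s ∈ Icc (4 : ℝ) 5
    · have := hmid s hs'.1 hs'.2
      simp only [hL, indicator_of_mem hs']
      linarith
    · have := hup s hs
      simp only [hL, indicator_of_notMem hs']
      linarith
  have hupp : ∀ s ∈ Ioi (0 : ℝ),
      (n + 2) / (1 + s) - Φ s ≤ (n + 2) * ((1 + s)⁻¹ - (s + 2)⁻¹) := by
    intro s (hs : 0 < s)
    have := hlo s hs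
    rw [mul_sub, ← div_eq_mul_inv, ← div_eq_mul_inv, add_comm s 2]
    linarith
  have hint : IntegrableOn (fun s => (n + 2) / (1 + s) - Φ s) (Ioi 0) := by
    refine Integrable.mono' (hLi.abs.add hUi.abs) ?_ ?_
    · exact ((measurable_const.div (measurable_const.add measurable_id)).sub
        hΦ).aestronglyMeasurable
    · refine (ae_restrict_iff' measurableSet_Ioi).2 (Filter.Eventually.of_forall fun s hs => ?_)
      have b1 := hlow s hs
      have b2 := hupp s hs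
      have b3 := neg_abs_le (L s)
      have b4 := le_abs_self ((n + 2) * ((1 + s)⁻¹ - (s + 2)⁻¹))
      have b5 := abs_nonneg (L s)
      have b6 := abs_nonneg ((n + 2) * ((1 + s)⁻¹ - (s + 2)⁻¹))
      rw [Real.norm_eq_abs, abs_le]
      simp only [Pi.add_apply]
      constructor <;> linarith
  refine ⟨hint, le_trans (le_of_eq ?_) (setIntegral_mono_on hLi hint measurableSet_Ioi hlow)⟩
  have e1 : ∫ s in Ioi (0 : ℝ), (Icc (4 : ℝ) 5).indicator (fun _ => n / 50) s = n / 50 := by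
    have hsub : Icc (4 : ℝ) 5 ⊆ Ioi 0 := fun x hx => lt_of_lt_of_le (by norm_num : (0 : ℝ) < 4) hx.1
    rw [setIntegral_indicator measurableSet_Icc, inter_eq_self_of_subset_right hsub,
      setIntegral_const]
    simp only [Real.volume_real_Icc]
    norm_num
  have h01 : IntegrableOn (fun s => psi K₀⁻¹ s + psi K₁⁻¹ s) (Ioi 0) :=
    (integrable_psi hK₀ hK₀').add (integrable_psi hK₁ hK₁')
  simp only [hL]
  rw [integral_add h01 hind,
    integral_add (integrable_psi hK₀ hK₀') (integrable_psi hK₁ hK₁'), integral_psi hK₀ hK₀',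
    integral_psi hK₁ hK₁', e1, Real.log_inv, Real.log_inv]
  ring

end Crest.Agent.R89
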