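import Crest.Agent.R89.Fisher

/-!
# Row 89: coordinates of Hermitian matrices, the shear (task R89-Shear)

PLANS.
* `herm_*`: entrywise (`lt_trichotomy`).  `exists_coords`: read off real and imaginary parts; the map is
  continuous.
* `exists_shear`: `T a = a + Ψ a` where `Ψ a (j, p)` is the `p`-th coordinate of
  `r • cj (q j) (M 1) (M 0)` (Hermitian by `cj_eq`); it vanishes for `j = 0, 1` and depends (continuously)
  only on the coordinates with `j = 0, 1`.  Measure preserving: transport to
  `(J₀ → ℝ) × (J₁ → ℝ)` (`MeasurableEquiv.piEquivPiSubtypeProd`, `volume_preserving_piEquivPiSubtypeProd`,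
  `PiLp.volume_preserving_toLp/ofLp`), `MeasurePreserving.skew_product` with translations.
* `approx_poly`: `polyEval_eq`, finitely many words; `m = sup of lengths`, `ε = η / (∑ ‖c‖ + 1)`.
Put auxiliary lemmas in `namespace ShearAux`.
-/

set_option autoImplicit false

namespace Crest.Agent.R89

open Crest.OpAlg Polynomial MeasureTheory
open scoped ComplexConjugate

variable {N d : ℕ}

theorem herm_star (a : EuclideanSpace ℝ (Fin d × Fin d)) :
    star (hermitianOfCoords a) = hermitianOfCoords a := by
  ext i j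
  rw [Matrix.star_apply]
  rcases lt_trichotomy i j with h | rfl | h
  · simp [hermitianOfCoords, h, h.ne, h.ne', h.not_gt]
  · simp [hermitianOfCoords]
  · simp [hermitianOfCoords, h, h.ne, h.ne', h.not_gt, sub_eq_add_neg]

theorem herm_add (a b : EuclideanSpace ℝ (Fin d × Fin d)) :
    hermitianOfCoords (a + b) = hermitianOfCoords a + hermitianOfCoords b := by
  ext i j
  simp only [hermitianOfCoords, Matrix.add_apply, PiLp.add_apply, Complex.ofReal_add]
  split_ifs <;> ring

theorem herm_smul (r : ℝ) (a : EuclideanSpace ℝ (Fin d × Fin d)) :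
    hermitianOfCoords (r • a) = (r : ℂ) • hermitianOfCoords a := by
  ext i j
  simp only [hermitianOfCoords, Matrix.smul_apply, PiLp.smul_apply, smul_eq_mul, Complex.ofReal_mul]
  split_ifs <;> ring

/-- the coordinates are orthonormal for the Hilbert-Schmidt norm -/
theorem herm_normSq (a : EuclideanSpace ℝ (Fin d × Fin d)) :
    ∑ i, ∑ j, ‖hermitianOfCoords a i j‖ ^ 2 = ∑ p, a p ^ 2 := by
  have h : ∀ i j, ‖hermitianOfCoords a i j‖ ^ 2 = (a (i, j) ^ 2 + a (j, i) ^ 2) / 2 := fun i j => by
    have e : ‖((√2 : ℝ) : ℂ)‖ ^ 2 = 2 := by simp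
    simp only [hermitianOfCoords]
    split_ifs with h1 h2
    · subst h1; simp
    · rw [norm_div, div_pow, e, Complex.sq_norm, Complex.normSq_add_mul_I]
    · rw [norm_div, div_pow, e, Complex.sq_norm, sub_eq_add_neg, ← neg_mul, ← Complex.ofReal_neg,
        Complex.normSq_add_mul_I]
      ring
  simp only [h, add_div, Finset.sum_add_distrib, Fintype.sum_prod_type]
  rw [Finset.sum_comm (f := fun i j => a (j, i) ^ 2 / 2), ← Finset.sum_add_distrib]
  refine Finset.sum_congr rfl fun i _ => ?_
  rw [← Finset.sum_add_distrib]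
  exact Finset.sum_congr rfl fun j _ => add_halves _

theorem herm_trace_sq (a : EuclideanSpace ℝ (Fin d × Fin d)) :
    Matrix.trace (hermitianOfCoords a ^ 2) = ((∑ p, a p ^ 2 : ℝ) : ℂ) := by
  rw [← herm_normSq, sq, Matrix.trace]
  push_cast
  refine Finset.sum_congr rfl fun i _ => ?_
  rw [Matrix.diag_apply, Matrix.mul_apply]
  refine Finset.sum_congr rfl fun j _ => ?_
  rw [← Complex.mul_conj']
  congr 1
  conv_lhs => rw [← herm_star a]
  rfl

theorem tuple_star (a : EuclideanSpace ℝ (Co N d)) (j : Fin N) :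
    star (matrixTuple a j) = matrixTuple a j := herm_star _

namespace ShearAux

theorem shear_mp {σ : Type} [Fintype σ] (p : σ → Prop) [DecidablePred p] {Ψ : (σ → ℝ) → σ → ℝ}
    (hm : Measurable Ψ) (h0 : ∀ a i, p i → Ψ a i = 0)
    (hdep : ∀ a b, (∀ i, p i → a i = b i) → Ψ a = Ψ b) :
    MeasurePreserving (fun a => a + Ψ a) volume volume := by
  let e := MeasurableEquiv.piEquivPiSubtypeProd (fun _ : σ => ℝ) p
  have he : MeasurePreserving e volume volume := volume_preserving_piEquivPiSubtypeProd _ p
  have h1 := (MeasurePreserving.id (volume : Measure (Subtype p → ℝ))).skew_product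
    (μc := (volume : Measure ({i // ¬p i} → ℝ))) (μd := volume)
    (g := fun x y => y + fun i : {i // ¬p i} => Ψ (e.symm (x, 0)) i)
    (measurable_snd.add (measurable_pi_lambda _ fun i => (measurable_pi_apply i.1).comp
      (hm.comp (e.symm.measurable.comp (measurable_fst.prodMk measurable_const)))))
    (Filter.Eventually.of_forall fun x => map_add_right_eq_self _ _)
  suffices (fun a => a + Ψ a) = _ from this ▸ (he.symm e).comp (h1.comp he)
  funext a
  have := hdep (e.symm ((e a).1, 0)) a fun i hi => by simp [e, hi]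
  simp only [Function.comp_apply, this, id]
  funext i
  by_cases hi : p i <;> simp [e, hi, h0]

/-- the coordinates of a Hermitian matrix -/
noncomputable def co (M : Matrix (Fin d) (Fin d) ℂ) (p : Fin d × Fin d) : ℝ :=
  if p.1 = p.2 then (M p.1 p.1).re else if p.1 < p.2 then √2 * (M p.1 p.2).re
    else √2 * (M p.2 p.1).im

theorem herm_co {M : Matrix (Fin d) (Fin d) ℂ} (hM : star M = M) :
    hermitianOfCoords (WithLp.toLp 2 (co M)) = M := by
  have h2 : ((√2 : ℝ) : ℂ) ≠ 0 := by simp
  ext i j
  have e : conj (M j i) = M i j := congrFun (congrFun hM i) j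
  rcases lt_trichotomy i j with h | rfl | h
  · simp only [hermitianOfCoords, co, h, h.ne, h.ne', h.not_gt, if_true, if_false,
      Complex.ofReal_mul]
    rw [div_eq_iff h2]
    conv_rhs => rw [← Complex.re_add_im (M i j)]
    ring
  · simp only [hermitianOfCoords, co, if_true]
    exact Complex.conj_eq_iff_re.1 e
  · simp only [hermitianOfCoords, co, h, h.ne, h.ne', h.not_gt, if_true, if_false,
      Complex.ofReal_mul]
    rw [div_eq_iff h2, ← e]
    conv_rhs => rw [← Complex.re_add_im (M j i)]
    simp only [map_add, map_mul, Complex.conj_ofReal, Complex.conj_I]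
    ring

theorem continuous_co : Continuous (co (d := d)) := by
  refine continuous_pi fun p => ?_
  unfold co
  split_ifs <;> fun_prop

theorem continuous_tuple (j : Fin N) :
    Continuous fun a : Co N d → ℝ => matrixTuple (WithLp.toLp 2 a) j := by
  refine continuous_matrix fun i k => ?_
  simp only [matrixTuple, hermitianOfCoords]
  split_ifs <;> fun_prop

end ShearAux

open ShearAux

theorem exists_shear {n : ℕ} (d : ℕ) (r : ℝ) {q : Fin (n + 2) → ℂ[X]} (h0 : q 0 = 0)
    (h1 : q 1 = 0) :
    ∃ T : EuclideanSpace ℝ (Co (n + 2) d) → EuclideanSpace ℝ (Co (n + 2) d),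
      MeasurePreserving T volume volume ∧ ∀ a j, matrixTuple (T a) j =
        matrixTuple a j + (r : ℂ) • cj (q j) (matrixTuple a 1) (matrixTuple a 0) := by
  let Ψ : (Co (n + 2) d → ℝ) → Co (n + 2) d → ℝ := fun a x => r * co (cj (q x.1)
    (matrixTuple (WithLp.toLp 2 a) 1) (matrixTuple (WithLp.toLp 2 a) 0)) x.2
  have hΨ : Continuous Ψ := by
    refine continuous_pi fun x => continuous_const.mul ((continuous_apply x.2).comp
      (continuous_co.comp ?_))
    exact (((q x.1).continuous_aeval.comp (continuous_tuple 1)).mul (continuous_tuple 0)).mul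
      ((Polynomial.continuous_aeval _).comp (continuous_tuple 1))
  have h := shear_mp (fun x : Co (n + 2) d => x.1 = 0 ∨ x.1 = 1) hΨ.measurable
    (fun a x hx => by
      have : q x.1 = 0 := by rcases hx with hx | hx <;> rwa [hx]
      simp [Ψ, this, cj_zero, co])
    (fun a b hab => by
      have e0 : matrixTuple (WithLp.toLp 2 a) 0 = matrixTuple (WithLp.toLp 2 b) 0 := by
        simp only [matrixTuple, hab (0, _) (Or.inl rfl)]
      have e1 : matrixTuple (WithLp.toLp 2 a) 1 = matrixTuple (WithLp.toLp 2 b) 1 := by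
        simp only [matrixTuple, hab (1, _) (Or.inr rfl)]
      simp only [Ψ, e0, e1])
  refine ⟨_, (PiLp.volume_preserving_toLp _).comp (h.comp (PiLp.volume_preserving_ofLp _)),
    fun a j => ?_⟩
  have hs : star (cj (q j) (matrixTuple a 1) (matrixTuple a 0)) =
      cj (q j) (matrixTuple a 1) (matrixTuple a 0) := by
    rw [cj_eq _ (tuple_star a 1), star_mul, star_mul, star_star, mul_assoc, tuple_star]
  rw [← herm_co hs, ← herm_smul, matrixTuple, matrixTuple, ← herm_add]
  rfl

theorem approx_poly {A : Type*} [Ring A] [Algebra ℂ A] (τ : A →ₗ[ℂ] ℂ) (Z : Fin N → A)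
    (P : NCPoly N) {η : ℝ} (hη : 0 < η) :
    ∃ (m : ℕ) (ε : ℝ), 0 < ε ∧ ∀ (d : ℕ) (M : Fin N → Matrix (Fin d) (Fin d) ℂ),
      (∀ w : FreeMonoid (Fin N), (FreeMonoid.toList w).length ≤ m →
        ‖matrixMoment M w - τ (wordEval Z w)‖ < ε) →
      ‖(d : ℂ)⁻¹ * Matrix.trace (polyEval M P) - τ (polyEval Z P)‖ < η := by
  set C := ∑ w ∈ P.coeff.support, ‖P.coeff w‖ with hC
  have hC0 : 0 ≤ C := Finset.sum_nonneg fun _ _ => norm_nonneg _
  refine ⟨P.coeff.support.sup fun w => (FreeMonoid.toList w).length, η / (C + 1), by positivity,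
    fun d M h => ?_⟩
  have e : (d : ℂ)⁻¹ * Matrix.trace (polyEval M P) - τ (polyEval Z P) =
      ∑ w ∈ P.coeff.support, P.coeff w * (matrixMoment M w - τ (wordEval Z w)) := by
    simp only [polyEval_eq, Finsupp.sum, Matrix.trace_sum, map_sum, Finset.mul_sum,
      ← Finset.sum_sub_distrib, Matrix.trace_smul, map_smul, matrixMoment, wordEval_eq, smul_eq_mul]
    exact Finset.sum_congr rfl fun w _ => by ring
  rw [e]
  refine (norm_sum_le _ _).trans_lt (lt_of_le_of_lt (b := C * (η / (C + 1))) ?_ ?_)
  · rw [hC, Finset.sum_mul]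
    refine Finset.sum_le_sum fun w hw => ?_
    rw [norm_mul]
    exact mul_le_mul_of_nonneg_left
      (h w (Finset.le_sup (f := fun w => (FreeMonoid.toList w).length) hw)).le (norm_nonneg _)
  · rw [← mul_div_assoc, div_lt_iff₀ (by positivity)]
    nlinarith

end Crest.Agent.R89
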