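import Crest.Agent.R89.Shear

/-!
# Row 89: the upper bound for the microstates entropy (task R89-Upper)

PLAN.  Let `x j : NCPoly (n+2)` be the letters (`MonoidAlgebra.of _ _ (FreeMonoid.of j)`) and
`P j = (x j - cj (q j) (x 1) (x 0)) ^ 2`; `polyEval Y` is the algebra hom `MonoidAlgebra.lift …`, so
`polyEval Y (P j) = (Y j - cj (q j) (Y 1) (Y 0)) ^ 2` (`map_cj`).  `approx_poly` for all `j` (take the max `m`
and the min `ε`), `exists_shear` with `r = -1`, `herm_trace_sq`: for `d ≥ 1` the microstate set lies in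
`T ⁻¹' B`, `B = {a | ∀ j, ∑ p, a (j, p) ^ 2 ≤ d * v j}`.  On `B`,
`1 ≤ ∏_{(j,p)} exp (1/2 - d * a (j,p) ^ 2 / (2 v j))`, so by `integral_gaussian` and Fubini
(`integral_fintype_prod_eq_prod`/`lintegral`, `PiLp.volume_preserving_toLp`)
`vol B ≤ ∏ j, (2 π e v j / d) ^ (d² / 2)`.  Take `ENNReal.log`, `Filter.limsup_le_of_le`, `iInf_le_of_le`.
Put auxiliary lemmas in `namespace UpperAux`.
-/

set_option autoImplicit false

namespace Crest.Agent.R89

open Crest.OpAlg Polynomial MeasureTheory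

namespace UpperAux

theorem vol_le {σ : Type} [Fintype σ] {b : σ → ℝ} (hb : ∀ x, 0 < b x) (c : ℝ) :
    volume {a : σ → ℝ | ∑ x, b x * a x ^ 2 ≤ c} ≤
      ENNReal.ofReal (Real.exp (c + ∑ x, 1 / 2 * Real.log (Real.pi / b x))) := by
  have hi : Integrable (fun a : σ → ℝ => Real.exp c * ∏ x, Real.exp (-b x * a x ^ 2)) :=
    (Integrable.fintype_prod (f := fun x t => Real.exp (-b x * t ^ 2))
      fun x => integrable_exp_neg_mul_sq (hb x)).const_mul _
  have h1 := mul_meas_ge_le_lintegral₀ (ENNReal.measurable_ofReal.comp_aemeasurable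
    hi.aemeasurable) 1
  rw [one_mul] at h1
  refine (measure_mono fun a ha => ?_).trans (h1.trans (le_of_eq ?_))
  · simp only [Set.mem_setOf_eq, Function.comp_apply, ENNReal.one_le_ofReal] at ha ⊢
    rw [← Real.exp_sum, ← Real.exp_add, Real.one_le_exp_iff]
    simp only [neg_mul, Finset.sum_neg_distrib]
    linarith
  · simp only [Function.comp_apply]
    rw [← ofReal_integral_eq_lintegral_ofReal hi (Filter.Eventually.of_forall fun a => by
      positivity), integral_const_mul, Real.exp_add, Real.exp_sum]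
    congr 2
    rw [volume_pi, integral_fintype_prod_eq_prod (fun x (t : ℝ) => Real.exp (-b x * t ^ 2))]
    refine Finset.prod_congr rfl fun x _ => ?_
    rw [integral_gaussian, Real.sqrt_eq_rpow,
      Real.rpow_def_of_pos (div_pos Real.pi_pos (hb x)), mul_comm]

/-- evaluation as an algebra homomorphism -/
noncomputable def ev {A : Type*} [Ring A] [Algebra ℂ A] {N : ℕ} (Y : Fin N → A) :
    NCPoly N →ₐ[ℂ] A := MonoidAlgebra.lift ℂ A (FreeMonoid (Fin N)) (FreeMonoid.lift Y)

/-- the letters -/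
noncomputable def xx {N : ℕ} (j : Fin N) : NCPoly N := MonoidAlgebra.of ℂ _ (FreeMonoid.of j)

theorem ev_P {A : Type*} [Ring A] [Algebra ℂ A] {n : ℕ} (Y : Fin (n + 2) → A) (q : ℂ[X])
    (j : Fin (n + 2)) :
    polyEval Y ((xx j - cj q (xx 1) (xx 0)) ^ 2) = (Y j - cj q (Y 1) (Y 0)) ^ 2 := by
  have h : ∀ i, ev Y (xx i) = Y i := fun i => by
    rw [ev, xx, MonoidAlgebra.lift_of, FreeMonoid.lift_eval_of]
  change ev Y _ = _
  rw [map_pow, map_sub, map_cj, h, h, h]

end UpperAux

open UpperAux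

theorem chi_le {A : Type*} [Ring A] [Algebra ℂ A] (τ : A →ₗ[ℂ] ℂ) {n : ℕ} (Z : Fin (n + 2) → A)
    {q : Fin (n + 2) → ℂ[X]} (h0 : q 0 = 0) (h1 : q 1 = 0) {v : Fin (n + 2) → ℝ}
    (hv : ∀ j, 0 < v j) (h : ∀ j, (τ ((Z j - cj (q j) (Z 1) (Z 0)) ^ 2)).re < v j) :
    chi τ Z ≤ ((∑ j, 1 / 2 * Real.log (2 * Real.pi * Real.exp 1 * v j) : ℝ) : EReal) := by
  choose m ε hε hm using fun j => approx_poly τ Z ((xx j - cj (q j) (xx 1) (xx 0)) ^ 2)
    (sub_pos.2 (h j))
  obtain ⟨j0, -, hj0⟩ := Finset.exists_min_image Finset.univ ε Finset.univ_nonempty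
  refine iSup₂_le fun R _ => iInf_le_of_le (Finset.univ.sup m) (iInf_le_of_le (ε j0)
    (iInf_le_of_le (hε j0) (Filter.limsup_le_of_le (h := ?_))))
  filter_upwards [Filter.eventually_gt_atTop 0] with d hd
  have hd' : (0 : ℝ) < d := by exact_mod_cast hd
  obtain ⟨T, hT, hT'⟩ := exists_shear d (-1) h0 h1
  have hb : ∀ x : Co (n + 2) d, 0 < d / (2 * v x.1) := fun x => div_pos hd' (by linarith [hv x.1])
  have hvol := vol_le hb (((n + 2 : ℕ) : ℝ) * d ^ 2 / 2)
  rw [← ((PiLp.volume_preserving_ofLp _).comp hT).measure_preimage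
    (measurableSet_le (by fun_prop) measurable_const).nullMeasurableSet] at hvol
  have hsub : microstates τ Z R (Finset.univ.sup m) d (ε j0) ⊆ (WithLp.ofLp ∘ T) ⁻¹'
      {a : Co (n + 2) d → ℝ | ∑ x, d / (2 * v x.1) * a x ^ 2 ≤ ((n + 2 : ℕ) : ℝ) * d ^ 2 / 2} := by
    intro a ha
    have key : ∀ j, ∑ p, T a (j, p) ^ 2 ≤ d * v j := fun j => by
      have h2 := hm j d (matrixTuple a) fun w hw =>
        (ha.2 w (hw.trans (Finset.le_sup (Finset.mem_univ j)))).trans_le (hj0 j (Finset.mem_univ j))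
      have h3 := hT' a j
      rw [Complex.ofReal_neg, Complex.ofReal_one, neg_one_smul, ← sub_eq_add_neg] at h3
      rw [ev_P, ev_P, ← h3, matrixTuple, herm_trace_sq] at h2
      have h4 := (Complex.re_le_norm _).trans_lt h2
      rw [Complex.sub_re, ← Complex.ofReal_natCast, ← Complex.ofReal_inv, ← Complex.ofReal_mul,
        Complex.ofReal_re] at h4
      rw [← inv_mul_le_iff₀ hd']
      linarith
    simp only [Set.mem_preimage, Set.mem_setOf_eq, Function.comp_apply]
    rw [Fintype.sum_prod_type]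
    refine (Finset.sum_le_sum (g := fun _ => (d : ℝ) ^ 2 / 2) fun j _ => ?_).trans (le_of_eq ?_)
    · dsimp only
      rw [← Finset.mul_sum]
      refine (mul_le_mul_of_nonneg_left (key j) (div_pos hd' (by linarith [hv j])).le).trans
        (le_of_eq ?_)
      have := (hv j).ne'
      field_simp
    · simp only [Finset.sum_const, Finset.card_univ, Fintype.card_fin, nsmul_eq_mul]
      ring
  have h5 := ENNReal.log_monotone ((measure_mono hsub).trans hvol)
  rw [ENNReal.log_ofReal_of_pos (Real.exp_pos _), Real.log_exp] at h5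
  refine (add_le_add_left (mul_le_mul_of_nonneg_left h5 (EReal.coe_nonneg.2 (by positivity))) _).trans
    (le_of_eq ?_)
  rw [← EReal.coe_mul, ← EReal.coe_add, Fintype.sum_prod_type]
  congr 1
  have e : ∀ j, Real.log (Real.pi / (d / (2 * v j))) =
      Real.log (2 * Real.pi * Real.exp 1 * v j) - 1 - Real.log d := fun j => by
    have := (hv j).ne'
    have hp := Real.pi_pos.ne'
    rw [show Real.pi / (d / (2 * v j)) = 2 * Real.pi * Real.exp 1 * v j / Real.exp 1 / d by
      field_simp, Real.log_div (by positivity) hd'.ne',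
      Real.log_div (by positivity) (Real.exp_pos 1).ne', Real.log_exp]
  simp only [e, mul_sub, Finset.sum_sub_distrib, Finset.sum_const, Finset.card_univ,
    Fintype.card_prod, Fintype.card_fin, nsmul_eq_mul, ← Finset.mul_sum]
  push_cast
  field_simp
  ring

end Crest.Agent.R89
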